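import Vale.Agent.P087.Words

/-! Conjugate variables of noisy tuples: abstract operator calculus. -/

open Finset
open scoped InnerProductSpace

namespace Vale.Agent.P087

set_option linter.unusedSectionVars false

variable {H : Type} [NormedAddCommGroup H] [InnerProductSpace ℂ H] [CompleteSpace H]
variable {ι : Type} [Fintype ι] [DecidableEq ι]

theorem inner_star_left (T : H →L[ℂ] H) (x y : H) : ⟪star T x, y⟫_ℂ = ⟪x, T y⟫_ℂ :=
  ContinuousLinearMap.adjoint_inner_left T y x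

theorem inner_star_right (T : H →L[ℂ] H) (x y : H) : ⟪x, star T y⟫_ℂ = ⟪T x, y⟫_ℂ :=
  ContinuousLinearMap.adjoint_inner_right T x y

omit [Fintype ι] [DecidableEq ι] in
theorem word_cons_apply (X : ι → H →L[ℂ] H) (i : ι) (w : List ι) (θ : H) :
    word X (i :: w) θ = X i (word X w θ) := by rw [word_cons]; rfl

omit [Fintype ι] [DecidableEq ι] in
theorem star_word {X : ι → H →L[ℂ] H} (hX : ∀ i, IsSelfAdjoint (X i)) (w : List ι) :
    star (word X w) = word X w.reverse := by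
  induction w with
  | nil => simp
  | cons i w ih => rw [word_cons, star_mul, ih, (hX i).star_eq, List.reverse_cons, word_append,
      word_cons, word_nil, mul_one]

/-- commutator calculus -/
theorem word_comm {Ω : H} {Z : ι → H →L[ℂ] H} {T : H →L[ℂ] H} {j : ι} {σ : ℂ}
    (h : ∀ k θ, Z k (T θ) = T (Z k θ) + if k = j then (σ * ⟪Ω, θ⟫_ℂ) • Ω else 0) (w : List ι)
    (θ : H) : word Z w (T θ) =
      T (word Z w θ) + spl j w fun u v => (σ * ⟪Ω, word Z v θ⟫_ℂ) • word Z u Ω := by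
  induction w with
  | nil => simp
  | cons k w ih =>
    rw [word_cons_apply, ih, map_add, h, map_spl, spl_cons, word_cons_apply, add_assoc]
    simp only [map_smul, word_cons_apply, word_nil, one_apply_eq_self]

theorem tr_word_comm {Ω : H} {Z : ι → H →L[ℂ] H} {T : H →L[ℂ] H} {j : ι} {σ : ℂ}
    (h : ∀ k θ, Z k (T θ) = T (Z k θ) + if k = j then (σ * ⟪Ω, θ⟫_ℂ) • Ω else 0)
    (hT : ∀ θ, ⟪Ω, T θ⟫_ℂ = 0) (w : List ι) :
    ⟪Ω, word Z w (T Ω)⟫_ℂ = σ * dq (fun u => tr Ω (word Z u)) j w := by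
  rw [word_comm h, inner_add_right, hT, zero_add, dq_eq]
  refine (map_spl j (innerSL ℂ Ω) w _).trans ((spl_congr j fun u v _ => ?_).trans
    (map_spl j (AddMonoidHom.mulLeft σ) w _).symm)
  simp only [innerSL_apply_apply, inner_smul_right, tr, AddMonoidHom.coe_mulLeft]
  ring

/-- the noisy tuple -/
noncomputable def ZZ (Y L : ι → H →L[ℂ] H) (i : ι) : H →L[ℂ] H := Y i + (L i + star (L i))

/-- vectors of degree below `m` -/
def Deg (Ω : H) (Z : ι → H →L[ℂ] H) (m : ℕ) : Submodule ℂ H :=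
  Submodule.span ℂ {θ | ∃ u : List ι, u.length < m ∧ θ = word Z u Ω}

/-- signal `Y`, left and right noise creation operators `L`, `R` with variances `σ` -/
structure Sys (Ω : H) (Y L R : ι → H →L[ℂ] H) (σ : ι → ℝ) : Prop where
  norm_one : ‖Ω‖ = 1
  pos : ∀ i, 0 < σ i
  sa : ∀ i, IsSelfAdjoint (Y i)
  LR : ∀ i k θ, star (L i) (R k θ) =
    R k (star (L i) θ) + if i = k then ((σ i : ℂ) * ⟪Ω, θ⟫_ℂ) • Ω else 0
  YR : ∀ i k θ, Y i (R k θ) = R k (Y i θ)
  LR' : ∀ i k θ, L i (R k θ) = R k (L i θ)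
  LY : ∀ i p, star (L i) (word Y p Ω) = 0
  RΩ : ∀ k θ, ⟪Ω, R k θ⟫_ℂ = 0
  LΩ : ∀ i, L i Ω = R i Ω
  low : ∀ i u, star (L i) (word (ZZ Y L) u Ω) ∈ Deg Ω (ZZ Y L) u.length

/-- normalized right creation of a word -/
noncomputable def RW (R : ι → H →L[ℂ] H) (σ : ι → ℝ) : List ι → H →L[ℂ] H
  | [] => 1
  | k :: w => RW R σ w * ((σ k : ℂ)⁻¹ • R k)

theorem RW_cons (R : ι → H →L[ℂ] H) (σ : ι → ℝ) (k : ι) (w : List ι) (θ : H) :
    RW R σ (k :: w) θ = RW R σ w ((σ k : ℂ)⁻¹ • R k θ) := rfl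

theorem RW_append (R : ι → H →L[ℂ] H) (σ : ι → ℝ) (x w : List ι) (θ : H) :
    RW R σ (x ++ w) θ = RW R σ w (RW R σ x θ) := by
  induction x generalizing θ with
  | nil => rfl
  | cons k x ih => rw [List.cons_append, RW_cons, ih, RW_cons]

/-- truncated cumulant vector -/
noncomputable def zeta (Ω : H) (Y R : ι → H →L[ℂ] H) (σ : ι → ℝ) (M : ℕ) (p : List ι) : H :=
  ∑ m ∈ range M, ∑ x ∈ We ι m, cum (fun u => tr Ω (word Y u)) p x • RW R σ x Ω

namespace Sys

variable {Ω : H} {Y L R : ι → H →L[ℂ] H} {σ : ι → ℝ} (h : Sys Ω Y L R σ)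
include h

theorem inner_Ω : ⟪Ω, Ω⟫_ℂ = 1 := by simp [h.norm_one]

theorem σ_ne (i : ι) : (σ i : ℂ) ≠ 0 := by exact_mod_cast (h.pos i).ne'

theorem Z_sa (i : ι) : IsSelfAdjoint (ZZ Y L i) := (h.sa i).add (IsSelfAdjoint.add_star_self _)

theorem L_Ω (i : ι) : star (L i) Ω = 0 := h.LY i []

theorem Z_R (j k : ι) (θ : H) : ZZ Y L k (R j θ) =
    R j (ZZ Y L k θ) + if k = j then ((σ j : ℂ) * ⟪Ω, θ⟫_ℂ) • Ω else 0 := by
  simp only [ZZ, add_apply, map_add, h.YR, h.LR', h.LR, add_assoc]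
  split_ifs with e
  · rw [e]
  · rfl

theorem RW_perp (w : List ι) {θ : H} (hθ : ⟪Ω, θ⟫_ℂ = 0) : ⟪Ω, RW R σ w θ⟫_ℂ = 0 := by
  induction w generalizing θ with
  | nil => exact hθ
  | cons k w ih => rw [RW_cons]; exact ih (by rw [inner_smul_right, h.RΩ, mul_zero])

theorem RW_cons_perp (k : ι) (w : List ι) (θ : H) : ⟪Ω, RW R σ (k :: w) θ⟫_ℂ = 0 := by
  rw [RW_cons]; exact h.RW_perp w (by rw [inner_smul_right, h.RΩ, mul_zero])

theorem Y_RW (i : ι) (w : List ι) (θ : H) : Y i (RW R σ w θ) = RW R σ w (Y i θ) := by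
  induction w generalizing θ with
  | nil => rfl
  | cons k w ih => rw [RW_cons, ih, map_smul, h.YR, RW_cons]

theorem L_RW (i : ι) (w : List ι) (θ : H) : L i (RW R σ w θ) = RW R σ w (L i θ) := by
  induction w generalizing θ with
  | nil => rfl
  | cons k w ih => rw [RW_cons, ih, map_smul, h.LR', RW_cons]

theorem Ls_RW_perp (i : ι) (w : List ι) {θ : H} (hθ : ⟪Ω, θ⟫_ℂ = 0) :
    star (L i) (RW R σ w θ) = RW R σ w (star (L i) θ) := by
  induction w generalizing θ with
  | nil => rfl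
  | cons k w ih =>
    rw [RW_cons, ih (by rw [inner_smul_right, h.RΩ, mul_zero]), map_smul, h.LR, hθ, RW_cons]
    simp

theorem Ls_RW (i k : ι) (w : List ι) {θ : H} (hθ : star (L i) θ = 0) :
    star (L i) (RW R σ (k :: w) θ) = if i = k then ⟪Ω, θ⟫_ℂ • RW R σ w Ω else 0 := by
  rw [RW_cons, h.Ls_RW_perp i w (by rw [inner_smul_right, h.RΩ, mul_zero]), map_smul, h.LR, hθ,
    map_zero, zero_add]
  split_ifs with e
  · rw [← e, smul_smul, inv_mul_cancel_left₀ (h.σ_ne i), map_smul]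
  · simp

theorem Ls_RW_Y (i : ι) (w p : List ι) : star (L i) (RW R σ w (word Y p Ω)) =
    tr Ω (word Y p) • star (L i) (RW R σ w Ω) := by
  rcases w with _ | ⟨k, w⟩
  · exact (h.LY i p).trans (by rw [show RW R σ [] Ω = Ω from rfl, h.L_Ω, smul_zero])
  · rw [h.Ls_RW i k w (h.LY i p), h.Ls_RW i k w (h.L_Ω i), h.inner_Ω, one_smul, tr]
    split_ifs <;> simp

theorem inner_cons (i : ι) (u : List ι) (θ : H) : ⟪word (ZZ Y L) (i :: u) Ω, θ⟫_ℂ =
    ⟪word (ZZ Y L) u Ω, Y i θ⟫_ℂ + ⟪star (L i) (word (ZZ Y L) u Ω), θ⟫_ℂ +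
      ⟪word (ZZ Y L) u Ω, star (L i) θ⟫_ℂ := by
  rw [word_cons_apply, ← inner_star_right, (h.Z_sa i).star_eq, inner_star_left, add_assoc]
  simp only [ZZ, add_apply, inner_add_right]

omit h in
theorem perp_Deg {Z : ι → H →L[ℂ] H} {m : ℕ} {θ η : H} (hη : η ∈ Deg Ω Z m)
    (hθ : ∀ u : List ι, u.length < m → ⟪word Z u Ω, θ⟫_ℂ = 0) : ⟪η, θ⟫_ℂ = 0 := by
  induction hη using Submodule.span_induction with
  | mem x hx => obtain ⟨u, hu, rfl⟩ := hx; exact hθ u hu
  | zero => simp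
  | add x y _ _ h1 h2 => rw [inner_add_left, h1, h2, add_zero]
  | smul c x _ h1 => rw [inner_smul_left, h1, mul_zero]

theorem vanish (u w p : List ι) (hl : u.length < w.length) :
    ⟪word (ZZ Y L) u Ω, RW R σ w (word Y p Ω)⟫_ℂ = 0 := by
  induction hm : u.length using Nat.strong_induction_on generalizing u w p with
  | _ m ih =>
  rcases w with _ | ⟨k, w⟩
  · simp at hl
  rcases u with _ | ⟨i, u⟩
  · exact h.RW_cons_perp k w _
  subst hm
  simp only [List.length_cons] at hl ih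
  rw [h.inner_cons, h.Y_RW, ← word_cons_apply, ih _ (by omega) u _ _ (by simp; omega) rfl,
    perp_Deg (h.low i u) fun v hv => ih _ (by omega) v _ _ (by simp; omega) rfl,
    h.Ls_RW i k w (h.LY i p)]
  split_ifs
  · have := ih _ (by omega) u w [] (by omega) rfl
    rw [inner_smul_right, show RW R σ w Ω = RW R σ w (word Y [] Ω) from rfl, this]
    simp
  · simp

theorem main (u w p : List ι) (M : ℕ) (hl : u.length < M + w.length) :
    ⟪word (ZZ Y L) u Ω, RW R σ w (word Y p Ω - zeta Ω Y R σ M p)⟫_ℂ = 0 := by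
  induction hm : u.length using Nat.strong_induction_on generalizing u w p M with
  | _ m ih =>
  rcases M with _ | M
  · simpa [zeta] using h.vanish u w p (by omega)
  rcases u with _ | ⟨i, u⟩
  · rcases w with _ | ⟨k, w⟩
    · show ⟪Ω, _ - _⟫_ℂ = 0
      rw [inner_sub_right, zeta, sum_range_succ', inner_add_right, inner_sum,
        sum_eq_zero fun m _ => ?_]
      · simp [cum, RW, inner_smul_right, tr, h.norm_one]
      · simp [sum_We_succ, inner_sum, inner_smul_right, h.RW_cons_perp]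
    · exact h.RW_cons_perp k w _
  subst hm
  simp only [List.length_cons] at hl ih
  set μ : List ι → ℂ := fun u => tr Ω (word Y u) with hμ
  set ψ : List ι → ℂ := fun x => ⟪word (ZZ Y L) u Ω, RW R σ (x ++ w) Ω⟫_ℂ with hψ
  have key : ∀ w' p' M', u.length < M' + w'.length → ⟪word (ZZ Y L) u Ω,
      RW R σ w' (word Y p' Ω)⟫_ℂ = ∑ m ∈ range M', ∑ x ∈ We ι m,
        cum μ p' x * ⟪word (ZZ Y L) u Ω, RW R σ (x ++ w') Ω⟫_ℂ := by
    intro w' p' M' hM
    have := ih _ (by omega) u w' p' M' hM rfl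
    rw [map_sub, inner_sub_right, sub_eq_zero] at this
    simp only [this, zeta, map_sum, map_smul, inner_sum, inner_smul_right, RW_append, hμ]
  have hA : ⟪word (ZZ Y L) u Ω, Y i (RW R σ w (word Y p Ω))⟫_ℂ =
      ∑ m ∈ range M, ∑ x ∈ We ι m, cum μ (i :: p) x * ψ x := by
    rw [h.Y_RW, ← word_cons_apply, key w _ M (by omega)]
  have hB : ⟪word (ZZ Y L) u Ω, Y i (RW R σ w (zeta Ω Y R σ (M + 1) p))⟫_ℂ =
      ∑ m ∈ range M, ∑ x ∈ We ι m, (∑ l ∈ range (x.length + 1),
        cum μ [i] (x.take l) * cum μ p (x.drop l)) * ψ x := by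
    have e1 : ∀ a ∈ range (M + 1), ∀ x ∈ We ι a,
        ⟪word (ZZ Y L) u Ω, Y i (RW R σ w (RW R σ x Ω))⟫_ℂ =
        ∑ l ∈ range (M - a), ∑ x' ∈ We ι l, cum μ [i] x' * ψ (x' ++ x) := by
      intro a ha x hx
      have := key (x ++ w) [i] (M - a) (by
        have := mem_range.1 ha; rw [List.length_append, mem_We.1 hx]; omega)
      rw [← RW_append, h.Y_RW]
      simpa only [word_cons_apply, word_nil, one_apply_eq_self, hψ,
        List.append_assoc] using this
    have e2 : ∀ m, ∑ x ∈ We ι m, (∑ l ∈ range (x.length + 1),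
        cum μ [i] (x.take l) * cum μ p (x.drop l)) * ψ x = ∑ l ∈ range (m + 1),
          ∑ x' ∈ We ι l, ∑ x ∈ We ι (m - l), cum μ [i] x' * cum μ p x * ψ (x' ++ x) := by
      intro m
      rw [sum_congr rfl fun x hx => by rw [mem_We.1 hx, sum_mul], sum_comm]
      refine sum_congr rfl fun l hl => ?_
      have := mem_range.1 hl
      rw [← sum_We_add l (m - l) fun x' x => cum μ [i] x' * cum μ p x * ψ (x' ++ x),
        show l + (m - l) = m by omega]
      simp only [List.take_append_drop]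
    simp only [e2]
    rw [sum_range_diag_flip M fun l a => ∑ x' ∈ We ι l, ∑ x ∈ We ι a,
      cum μ [i] x' * cum μ p x * ψ (x' ++ x),
      sum_comm' (t' := range (M + 1)) (s' := fun a => range (M - a))
        fun _ _ => by simp only [mem_range]; omega]
    simp only [zeta, map_sum, map_smul, inner_sum, inner_smul_right]
    refine sum_congr rfl fun a ha => ?_
    rw [sum_congr rfl fun x hx => by rw [e1 a ha x hx]]
    simp only [mul_sum]
    rw [sum_comm]
    refine sum_congr rfl fun l _ => ?_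
    rw [sum_comm]
    exact sum_congr rfl fun _ _ => sum_congr rfl fun _ _ => by ring
  have hC : ⟪word (ZZ Y L) u Ω, star (L i) (RW R σ w (word Y p Ω - zeta Ω Y R σ (M + 1) p))⟫_ℂ =
      -∑ m ∈ range M, ∑ x ∈ We ι m, cum μ p (i :: x) * ψ x := by
    rw [map_sub, map_sub, h.Ls_RW_Y, zeta, sum_range_succ', sum_We_zero, cum]
    simp only [map_add, map_sum, map_smul, sum_We_succ, ← RW_append, List.cons_append,
      h.Ls_RW i _ _ (h.L_Ω i), h.inner_Ω, one_smul, List.nil_append, sub_add_cancel_right,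
      inner_neg_right, inner_sum, inner_smul_right, neg_inj]
    refine sum_congr rfl fun m _ => ?_
    rw [sum_eq_single i (fun k _ hk => by simp [hk.symm]) (by simp)]
    simp [hψ, hμ]
  rw [h.inner_cons, perp_Deg (h.low i u) fun v hv => ih _ (by omega) v _ _ _ (by omega) rfl, hC,
    map_sub, map_sub, inner_sub_right, hA, hB]
  simp only [cum, sub_mul, sum_sub_distrib]
  ring

theorem RW_inner (x y : List ι) : ⟪RW R σ x Ω, RW R σ y Ω⟫_ℂ =
    if x = y then (((x.map fun i => (σ i)⁻¹).prod : ℝ) : ℂ) else 0 := by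
  induction x generalizing y with
  | nil =>
    rcases y with _ | ⟨k, y⟩
    · exact h.inner_Ω.trans (by simp)
    · exact (h.RW_cons_perp k y Ω).trans (by simp)
  | cons i x ih =>
    rw [RW_cons, map_smul, ← h.LΩ, ← h.L_RW, inner_smul_left, ← inner_star_right]
    rcases y with _ | ⟨k, y⟩
    · simp [RW, h.L_Ω]
    · rw [h.Ls_RW i k y (h.L_Ω i), h.inner_Ω, one_smul]
      by_cases e : i = k
      · subst e
        rw [if_pos rfl, ih]
        by_cases e : x = y <;> simp [e]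
      · simp [e]

theorem zeta_norm {t : ℝ} (ht : 0 < t) (hσ : ∀ i, t ≤ σ i) (M : ℕ) (p : List ι) :
    ‖zeta Ω Y R σ M p‖ ^ 2 ≤
      ∑ m ∈ range M, t⁻¹ ^ m * ∑ x ∈ We ι m, ‖cum (fun u => tr Ω (word Y u)) p x‖ ^ 2 := by
  set c := cum (fun u => tr Ω (word Y u)) p
  have hd : (range M : Set ℕ).PairwiseDisjoint (We ι) := fun a _ b _ hab =>
    disjoint_left.2 fun x h1 h2 => hab ((mem_We.1 h1).symm.trans (mem_We.1 h2))
  have e : ‖zeta Ω Y R σ M p‖ ^ 2 = ∑ m ∈ range M, ∑ x ∈ We ι m,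
      (x.map fun i => (σ i)⁻¹).prod * ‖c x‖ ^ 2 := by
    rw [← sum_biUnion hd, zeta, ← sum_biUnion hd]
    apply Complex.ofReal_injective
    rw [Complex.ofReal_pow, ← Complex.coe_algebraMap, ← inner_self_eq_norm_sq_to_K, sum_inner,
      Complex.coe_algebraMap, Complex.ofReal_sum]
    refine sum_congr rfl fun x hx => ?_
    simp only [inner_sum, inner_smul_left, inner_smul_right, h.RW_inner, mul_ite, mul_zero,
      sum_ite_eq, hx, if_true]
    rw [Complex.ofReal_mul, Complex.ofReal_pow, ← Complex.conj_mul']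
    ring
  rw [e]
  refine sum_le_sum fun m _ => ?_
  rw [mul_sum]
  refine sum_le_sum fun x hx => mul_le_mul_of_nonneg_right ?_ (sq_nonneg _)
  rw [← mem_We.1 hx]
  clear hx
  induction x with
  | nil => simp
  | cons i x ih =>
    rw [List.map_cons, List.prod_cons, List.length_cons, pow_succ']
    exact mul_le_mul (inv_anti₀ ht (hσ i)) ih (List.prod_nonneg fun a ha => by
      obtain ⟨i, -, rfl⟩ := List.mem_map.1 ha
      exact (inv_pos.2 (h.pos i)).le) (inv_pos.2 ht).le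

end Sys

end Vale.Agent.P087
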