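import Mathlib

/-! Microstates and nonmicrostates free entropy. -/

open scoped InnerProductSpace ENNReal
open MeasureTheory Filter

namespace Vale.Agent.P087

/-- the product `X_{i_1} ⋯ X_{i_p}` -/
def word {ι A : Type} [Monoid A] (X : ι → A) (w : List ι) : A := (w.map X).prod

/-- Euclidean coordinates on the self-adjoint `k × k` matrices -/
noncomputable def herm {k : ℕ} (a : Fin k × Fin k → ℝ) : Matrix (Fin k) (Fin k) ℂ :=
  Matrix.of fun p q => (1 + Complex.I) / 2 * a (p, q) + (1 - Complex.I) / 2 * a (q, p)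

theorem herm_isHermitian {k : ℕ} (a : Fin k × Fin k → ℝ) : (herm a).IsHermitian := by
  ext p q
  simp [herm, Matrix.conjTranspose_apply]
  ring

theorem trace_herm_mul {k : ℕ} (a b : Fin k × Fin k → ℝ) :
    (herm a * herm b).trace = ((∑ x, a x * b x : ℝ) : ℂ) := by
  have h : ∀ p q, herm a p q * herm b q p = (1 / 2 * (a (p, q) * b (p, q)) +
      Complex.I / 2 * (a (p, q) * b (q, p))) + (1 / 2 * (a (q, p) * b (q, p)) -
      Complex.I / 2 * (a (q, p) * b (p, q))) := by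
    intro p q
    simp only [herm, Matrix.of_apply]
    linear_combination (-(a (p, q) * b (p, q) + a (q, p) * b (q, p)) / 4 +
      (a (p, q) * b (q, p) + a (q, p) * b (p, q)) / 4 : ℂ) * Complex.I_sq
  simp only [Matrix.trace, Matrix.diag, Matrix.mul_apply, h, Finset.sum_add_distrib]
  rw [Finset.sum_comm (f := fun p q => 1 / 2 * ((a (q, p) : ℂ) * b (q, p)) -
    Complex.I / 2 * (a (q, p) * b (p, q))), Fintype.sum_prod_type]
  simp only [← Finset.sum_add_distrib]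
  push_cast
  exact Finset.sum_congr rfl fun p _ => Finset.sum_congr rfl fun q _ => by ring

theorem exists_herm {k : ℕ} {A : Matrix (Fin k) (Fin k) ℂ} (hA : A.IsHermitian) :
    ∃ a, herm a = A := by
  refine ⟨fun x => (A x.1 x.2).re + (A x.1 x.2).im, ?_⟩
  ext p q
  have h := hA.apply q p
  apply Complex.ext <;> simp [herm, ← h] <;> ring

variable {H : Type} [NormedAddCommGroup H] [InnerProductSpace ℂ H] [CompleteSpace H]
variable {ι : Type} [Fintype ι] [DecidableEq ι]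

/-- the vector state -/
noncomputable def tr (Ω : H) (x : H →L[ℂ] H) : ℂ := ⟪Ω, x Ω⟫_ℂ

/-- the vector state of `Ω` is a faithful (normal) tracial state on `M`, in standard form -/
structure IsTraceVec (M : VonNeumannAlgebra H) (Ω : H) : Prop where
  norm_one : ‖Ω‖ = 1
  cyclic : Dense ((fun x : H →L[ℂ] H => x Ω) '' M)
  tracial : ∀ x ∈ M, ∀ y ∈ M, tr Ω (x * y) = tr Ω (y * x)
  faithful : ∀ x ∈ M, tr Ω (star x * x) = 0 → x = 0

/-- matrix microstates -/
def Gam (Ω : H) (X : ι → H →L[ℂ] H) (R : ℝ) (m k : ℕ) (ε : ℝ) :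
    Set (ι → Matrix (Fin k) (Fin k) ℂ) :=
  {A | (∀ j, (A j).IsHermitian) ∧
    (∀ j, ‖Matrix.toEuclideanCLM (n := Fin k) (𝕜 := ℂ) (A j)‖ ≤ R) ∧
    ∀ w : List ι, 1 ≤ w.length → w.length ≤ m →
      ‖(k : ℂ)⁻¹ * (word A w).trace - tr Ω (word X w)‖ < ε}

/-- Lebesgue measure on tuples of self-adjoint matrices -/
noncomputable def vol {k : ℕ} (S : Set (ι → Matrix (Fin k) (Fin k) ℂ)) : ℝ≥0∞ :=
  volume {a : ι → Fin k × Fin k → ℝ | (fun j => herm (a j)) ∈ S}

/-- microstates free entropy with cutoff -/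
noncomputable def chiR (Ω : H) (X : ι → H →L[ℂ] H) (R : ℝ) : EReal :=
  ⨅ (m : ℕ) (ε : ℝ) (_ : 0 < ε), limsup (fun k : ℕ =>
    ((((k : ℝ) ^ 2)⁻¹ : ℝ) : EReal) * ENNReal.log (vol (Gam Ω X R m k ε)) +
      (((Fintype.card ι : ℝ) / 2 * Real.log k : ℝ) : EReal)) atTop

/-- microstates free entropy -/
noncomputable def chi (Ω : H) (X : ι → H →L[ℂ] H) : EReal := ⨆ (R : ℝ) (_ : 0 < R), chiR Ω X R

/-- `L²(W*(Z), τ)` -/
def L2 (Ω : H) (Z : ι → H →L[ℂ] H) : Set H :=
  closure ((fun x : H →L[ℂ] H => x Ω) '' Set.centralizer (Set.centralizer (Set.range Z)))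

/-- `(μ ⊗ μ)(∂_j w)` for a monomial `w` -/
noncomputable def dq (μ : List ι → ℂ) (j : ι) (w : List ι) : ℂ :=
  ∑ l ∈ Finset.range w.length, if w[l]? = some j then μ (w.take l) * μ (w.drop (l + 1)) else 0

/-- conjugate variables -/
def IsConj (Ω : H) (Z : ι → H →L[ℂ] H) (ξ : ι → H) : Prop :=
  ∀ j, ξ j ∈ L2 Ω Z ∧ ∀ w : List ι, ⟪Ω, word Z w (ξ j)⟫_ℂ = dq (fun u => tr Ω (word Z u)) j w

/-- free Fisher information -/
noncomputable def Phi (Ω : H) (Z : ι → H →L[ℂ] H) : ℝ≥0∞ :=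
  ⨅ (ξ : ι → H) (_ : IsConj Ω Z ξ), ∑ j, ‖ξ j‖ₑ ^ 2

/-- free Fisher information along the free heat flow -/
noncomputable def flow (Ω : H) (X S : ι → H →L[ℂ] H) (t : ℝ) : ℝ≥0∞ :=
  Phi Ω fun j => X j + (Real.sqrt t : ℂ) • S j

/-- nonmicrostates free entropy: the integral is the difference of the integrals of the
positive and of the negative part -/
noncomputable def chiStar (Ω : H) (X S : ι → H →L[ℂ] H) : EReal :=
  ((1 / 2 : ℝ) : EReal) *
    (((∫⁻ t in Set.Ioi (0 : ℝ), (ENNReal.ofReal (Fintype.card ι / (1 + t)) - flow Ω X S t) :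
        ℝ≥0∞) : EReal) -
      ((∫⁻ t in Set.Ioi (0 : ℝ), (flow Ω X S t - ENNReal.ofReal (Fintype.card ι / (1 + t))) :
        ℝ≥0∞) : EReal)) +
    (((Fintype.card ι : ℝ) / 2 * Real.log (2 * Real.pi * Real.exp 1) : ℝ) : EReal)

/-- free independence of the unital algebras generated by the sets `F i` -/
def IsFree {κ : Type} (Ω : H) (F : κ → Set (H →L[ℂ] H)) : Prop :=
  ∀ l : List (κ × (H →L[ℂ] H)), l ≠ [] →
    (∀ p ∈ l, p.2 ∈ Algebra.adjoin ℂ (F p.1) ∧ tr Ω p.2 = 0) →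
    l.IsChain (fun p q => p.1 ≠ q.1) → tr Ω (l.map Prod.snd).prod = 0

/-- semicircular law of variance one -/
def IsSemicirc (Ω : H) (s : H →L[ℂ] H) : Prop :=
  ∀ m : ℕ, tr Ω (s ^ (2 * m)) = catalan m ∧ tr Ω (s ^ (2 * m + 1)) = 0

end Vale.Agent.P087
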