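import Vale.Agent.P087.Abs

/-! Free Fisher information via orthogonal projection. -/

open Finset
open scoped InnerProductSpace ENNReal

namespace Vale.Agent.P087

set_option linter.unusedSectionVars false

variable {H : Type} [NormedAddCommGroup H] [InnerProductSpace ℂ H] [CompleteSpace H]
variable {ι : Type} [Fintype ι] [DecidableEq ι]

/-- polynomial vectors -/
def K1 (Ω : H) (Z : ι → H →L[ℂ] H) : Submodule ℂ H :=
  Submodule.span ℂ (Set.range fun u => word Z u Ω)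

/-- their closure -/
abbrev K0 (Ω : H) (Z : ι → H →L[ℂ] H) : Submodule ℂ H := (K1 Ω Z).topologicalClosure

variable {Ω : H} {Z : ι → H →L[ℂ] H}

theorem word_mem_K0 (u : List ι) : word Z u Ω ∈ K0 Ω Z :=
  Submodule.le_topologicalClosure _ (Submodule.subset_span ⟨u, rfl⟩)

theorem K0_le {W : Submodule ℂ H} (hW : IsClosed (W : Set H)) (h : ∀ u, word Z u Ω ∈ W) :
    K0 Ω Z ≤ W :=
  Submodule.topologicalClosure_minimal _ (Submodule.span_le.2 (Set.range_subset_iff.2 h)) hW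

theorem K0_perp {θ η : H} (h : ∀ u, ⟪word Z u Ω, θ⟫_ℂ = 0) (hη : η ∈ K0 Ω Z) : ⟪η, θ⟫_ℂ = 0 := by
  have := K0_le (W := (ℂ ∙ θ)ᗮ) (Submodule.isClosed_orthogonal _)
    (fun u => Submodule.mem_orthogonal_singleton_iff_inner_left.2 (h u)) hη
  exact Submodule.mem_orthogonal_singleton_iff_inner_left.1 this

theorem K0_inv (j : ι) {η : H} (hη : η ∈ K0 Ω Z) : Z j η ∈ K0 Ω Z :=
  K0_le (W := (K0 Ω Z).comap (Z j : H →ₗ[ℂ] H))
    ((Submodule.isClosed_topologicalClosure _).preimage (Z j).continuous)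
    (fun u => by simpa [word_cons_apply] using word_mem_K0 (Ω := Ω) (Z := Z) (j :: u)) hη

theorem L2_eq (hZ : ∀ j, IsSelfAdjoint (Z j)) : L2 Ω Z = K0 Ω Z := by
  apply Set.Subset.antisymm
  · refine closure_minimal ?_ (Submodule.isClosed_topologicalClosure _)
    rintro _ ⟨a, ha, rfl⟩
    have hP : (K0 Ω Z).starProjection ∈ Set.centralizer (Set.range Z) := by
      rintro _ ⟨j, rfl⟩
      ext θ
      refine (Submodule.eq_starProjection_of_mem_of_inner_eq_zero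
        (K0_inv j (Submodule.starProjection_apply_mem _ θ)) fun w hw => ?_).symm
      show ⟪Z j θ - Z j _, w⟫_ℂ = 0
      rw [← map_sub, ← inner_star_right, (hZ j).star_eq]
      exact Submodule.starProjection_inner_eq_zero _ _ (K0_inv j hw)
    have e := congrArg (fun T : H →L[ℂ] H => T Ω) (ha _ hP)
    have hΩ : (K0 Ω Z).starProjection Ω = Ω :=
      Submodule.starProjection_eq_self_iff.2 (word_mem_K0 (Z := Z) [])
    simp only [ContinuousLinearMap.mul_def, ContinuousLinearMap.comp_apply, hΩ] at e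
    exact Submodule.starProjection_eq_self_iff.1 e
  · refine closure_mono ?_
    let C := Subalgebra.centralizer ℂ (Set.centralizer (Set.range Z))
    have : K1 Ω Z ≤ (Subalgebra.toSubmodule C).map
        (ContinuousLinearMap.apply ℂ H Ω : (H →L[ℂ] H) →ₗ[ℂ] H) := by
      refine Submodule.span_le.2 (Set.range_subset_iff.2 fun u => ⟨word Z u, ?_, rfl⟩)
      refine list_prod_mem (S := C) fun x hx => ?_
      obtain ⟨i, -, rfl⟩ := List.mem_map.1 hx
      exact Set.subset_centralizer_centralizer ⟨i, rfl⟩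
    exact this

theorem inner_word (hZ : ∀ j, IsSelfAdjoint (Z j)) (w : List ι) (θ : H) :
    ⟪Ω, word Z w θ⟫_ℂ = ⟪word Z w.reverse Ω, θ⟫_ℂ := by
  rw [← star_word hZ, inner_star_left]

theorem Phi_eq (hZ : ∀ j, IsSelfAdjoint (Z j)) {v : ι → H}
    (hv : ∀ j w, ⟪Ω, word Z w (v j)⟫_ℂ = dq (fun u => tr Ω (word Z u)) j w) :
    Phi Ω Z = ∑ j, ‖(K0 Ω Z).starProjection (v j)‖ₑ ^ 2 := by
  have h1 : IsConj Ω Z fun j => (K0 Ω Z).starProjection (v j) := fun j => by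
    refine ⟨(L2_eq (Ω := Ω) hZ).symm ▸ Submodule.starProjection_apply_mem _ _, fun w => ?_⟩
    rw [← hv, inner_word hZ, inner_word hZ, ← Submodule.inner_starProjection_left_eq_right,
      Submodule.starProjection_eq_self_iff.2 (word_mem_K0 _)]
  refine le_antisymm (iInf₂_le _ h1) (le_iInf₂ fun ξ hξ => le_of_eq ?_)
  refine sum_congr rfl fun j _ => ?_
  have hm : ξ j ∈ K0 Ω Z := by have := (hξ j).1; rwa [L2_eq hZ] at this
  rw [Submodule.eq_starProjection_of_mem_of_inner_eq_zero hm fun w hw => ?_]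
  rw [inner_eq_zero_symm]
  refine K0_perp (fun u => ?_) hw
  rw [← u.reverse_reverse, ← inner_word hZ, map_sub, inner_sub_right, hv, (hξ j).2, sub_self]

theorem two_re_le (y z : H) : 2 * (⟪y, z⟫_ℂ).re ≤ ‖y‖ ^ 2 + ‖z‖ ^ 2 := by
  have := norm_sub_sq (𝕜 := ℂ) y z
  have h := sq_nonneg ‖y - z‖
  simp only [RCLike.re_to_complex] at this
  linarith

theorem re_inner_proj (K : Submodule ℂ H) [K.HasOrthogonalProjection] (v : H) :
    (⟪K.starProjection v, v⟫_ℂ).re = ‖K.starProjection v‖ ^ 2 :=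
  Submodule.re_inner_starProjection_eq_normSq K v

/-- bound for projections of a tuple from bounds on polynomial vectors -/
theorem proj_bound {v : ι → H} {B : ℝ} (h : ∀ y : ι → H, (∀ j, y j ∈ K1 Ω Z) →
    ∑ j, 2 * (⟪y j, v j⟫_ℂ).re ≤ B + ∑ j, ‖y j‖ ^ 2) :
    ∑ j, ‖(K0 Ω Z).starProjection (v j)‖ ^ 2 ≤ B := by
  have hc : IsClosed {y : ι → H | ∑ j, 2 * (⟪y j, v j⟫_ℂ).re ≤ B + ∑ j, ‖y j‖ ^ 2} :=
    isClosed_le (by fun_prop) (by fun_prop)
  have h1 : closure (Set.univ.pi fun _ : ι => (K1 Ω Z : Set H)) ⊆ _ :=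
    closure_minimal (fun y hy => h y fun j => hy j trivial) hc
  rw [closure_pi_set] at h1
  have h2 : ∑ j, 2 * (⟪(K0 Ω Z).starProjection (v j), v j⟫_ℂ).re ≤
      B + ∑ j, ‖(K0 Ω Z).starProjection (v j)‖ ^ 2 :=
    h1 (a := fun j => (K0 Ω Z).starProjection (v j))
      fun j _ => Submodule.starProjection_apply_mem (K0 Ω Z) _
  simp only [re_inner_proj, ← mul_sum] at h2
  linarith

theorem enorm_proj (v : H) : ‖(K0 Ω Z).starProjection v‖ₑ ^ 2 = ⨆ c : List ι →₀ ℂ,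
    ENNReal.ofReal (2 * (⟪c.sum fun u a => a • word Z u Ω, v⟫_ℂ).re -
      ‖c.sum fun u a => a • word Z u Ω‖ ^ 2) := by
  rw [← ofReal_norm, ← ENNReal.ofReal_pow (norm_nonneg _)]
  refine le_antisymm ?_ (iSup_le fun c => ENNReal.ofReal_le_ofReal ?_)
  · refine le_of_forall_lt fun b hb => ?_
    have ho : IsOpen {y : H | b < ENNReal.ofReal (2 * (⟪y, v⟫_ℂ).re - ‖y‖ ^ 2)} :=
      isOpen_lt continuous_const (ENNReal.continuous_ofReal.comp (by fun_prop))
    obtain ⟨y, hy1, hy2⟩ := mem_closure_iff.1 (Submodule.starProjection_apply_mem (K0 Ω Z) v) _ ho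
      (by rw [Set.mem_ofPred_eq, re_inner_proj]; convert hb using 2; ring)
    obtain ⟨c, rfl⟩ := Finsupp.mem_span_range_iff_exists_finsupp.1 hy2
    exact lt_of_lt_of_le hy1 (le_iSup_of_le c le_rfl)
  · have hy : (c.sum fun u a => a • word Z u Ω) ∈ K0 Ω Z :=
      Submodule.sum_mem _ fun u _ => Submodule.smul_mem _ _ (word_mem_K0 u)
    rw [← Submodule.starProjection_eq_self_iff.2 hy, Submodule.inner_starProjection_left_eq_right,
      Submodule.starProjection_eq_self_iff.2 hy]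
    linarith [two_re_le (c.sum fun u a => a • word Z u Ω) ((K0 Ω Z).starProjection v)]

theorem continuous_word {Z : ℝ → ι → H →L[ℂ] H} (hZ : ∀ j, Continuous fun t => Z t j)
    (u : List ι) : Continuous fun t => word (Z t) u := by
  induction u with
  | nil => exact continuous_const
  | cons i u ih => simp only [word_cons]; exact (hZ i).mul ih

theorem measurable_proj {Z : ℝ → ι → H →L[ℂ] H} (hZ : ∀ j, Continuous fun t => Z t j)
    {v : ℝ → H} (hv : Continuous v) :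
    Measurable fun t => ‖(K0 Ω (Z t)).starProjection (v t)‖ₑ ^ 2 := by
  simp only [enorm_proj]
  refine (lowerSemicontinuous_iSup fun c => Continuous.lowerSemicontinuous ?_).measurable
  have : Continuous fun t => c.sum fun u a => a • word (Z t) u Ω :=
    continuous_finsetSum _ fun u _ => ((continuous_word hZ u).clm_apply continuous_const).const_smul _
  exact ENNReal.continuous_ofReal.comp (by fun_prop)

namespace Sys

variable {Y L R : ι → H →L[ℂ] H} {σ : ι → ℝ} (h : Sys Ω Y L R σ)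
include h

theorem Phi_eq : Phi Ω (ZZ Y L) =
    ∑ j, ‖(K0 Ω (ZZ Y L)).starProjection ((σ j : ℂ)⁻¹ • R j Ω)‖ₑ ^ 2 :=
  P087.Phi_eq h.Z_sa fun j w => by
    rw [map_smul, inner_smul_right, tr_word_comm (h.Z_R j) (h.RΩ j), inv_mul_cancel_left₀ (h.σ_ne j)]

theorem Phi_eq' : Phi Ω (ZZ Y L) =
    ENNReal.ofReal (∑ j, (σ j)⁻¹ ^ 2 * ‖(K0 Ω (ZZ Y L)).starProjection (R j Ω)‖ ^ 2) := by
  rw [h.Phi_eq, ENNReal.ofReal_sum_of_nonneg fun j _ => by positivity]
  refine sum_congr rfl fun j _ => ?_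
  rw [← ofReal_norm, ← ENNReal.ofReal_pow (norm_nonneg _), map_smul, norm_smul, mul_pow,
    norm_inv, Complex.norm_real, Real.norm_of_nonneg (h.pos j).le]

theorem norm_R (j : ι) : ‖R j Ω‖ ^ 2 = σ j := by
  apply Complex.ofReal_injective
  rw [Complex.ofReal_pow, ← Complex.coe_algebraMap, ← inner_self_eq_norm_sq_to_K]
  conv_lhs => rw [← h.LΩ, ← inner_star_right, h.LΩ]
  rw [h.LR, h.L_Ω]
  simp [h.norm_one]

theorem Phi_le : Phi Ω (ZZ Y L) ≤ ENNReal.ofReal (∑ j, (σ j)⁻¹) := by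
  rw [h.Phi_eq']
  refine ENNReal.ofReal_le_ofReal (sum_le_sum fun j _ => ?_)
  have h1 : ‖(K0 Ω (ZZ Y L)).starProjection (R j Ω)‖ ^ 2 ≤ σ j := by
    rw [← h.norm_R]
    gcongr
    exact Submodule.norm_starProjection_apply_le _ _
  have := h.pos j
  calc _ ≤ (σ j)⁻¹ ^ 2 * σ j := by gcongr
    _ = _ := by field_simp

theorem norm_proj_R (j : ι) : ‖(K0 Ω (ZZ Y L)).starProjection (R j Ω)‖ ^ 2 =
    σ j - ‖Y j Ω‖ ^ 2 + ‖(K0 Ω (ZZ Y L)).starProjection (Y j Ω)‖ ^ 2 := by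
  have e : ZZ Y L j Ω = Y j Ω + R j Ω := by simp [ZZ, h.L_Ω, h.LΩ]
  have hm : (K0 Ω (ZZ Y L)).starProjection (ZZ Y L j Ω) = ZZ Y L j Ω :=
    Submodule.starProjection_eq_self_iff.2 (K0_inv j (word_mem_K0 (Z := ZZ Y L) []))
  have h0 : ⟪R j Ω, Y j Ω⟫_ℂ = 0 := by
    have := h.LY j [j]
    rw [word_cons_apply] at this
    rw [← h.LΩ, ← inner_star_right]
    exact (congrArg _ this).trans (inner_zero_right _)
  have e2 : (K0 Ω (ZZ Y L)).starProjection (R j Ω) =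
      ZZ Y L j Ω - (K0 Ω (ZZ Y L)).starProjection (Y j Ω) := by
    rw [← hm, ← map_sub, e, add_sub_cancel_left]
  rw [e2, norm_sub_sq (𝕜 := ℂ), ← Submodule.inner_starProjection_left_eq_right, hm, e,
    inner_add_left, h0, add_zero, inner_self_eq_norm_sq, norm_add_sq (𝕜 := ℂ),
    inner_eq_zero_symm.1 h0, h.norm_R]
  simp only [map_zero]
  ring

theorem proj_Y_le {α β t : ℝ} (hα : ∀ i, ‖Y i‖ ≤ α) (hβ : ‖∑ i, Y i‖ ≤ β)
    (hpos : ∀ p, (‖tr Ω (word Y p)‖ : ℂ) = tr Ω (word Y p)) (ht : 0 < t) (hσ : ∀ i, t ≤ σ i)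
    (hα0 : 0 ≤ α) (hΛ : 128 * (α * β) ≤ t) :
    ∑ j, ‖(K0 Ω (ZZ Y L)).starProjection (Y j Ω)‖ ^ 2 ≤ 2 * (α * β) := by
  have hβ0 : 0 ≤ β := (norm_nonneg _).trans hβ
  have htr : ∀ x : H →L[ℂ] H, ‖tr Ω x‖ ≤ ‖x‖ := fun x => (norm_inner_le_norm _ _).trans (by
    simpa [h.norm_one] using x.le_opNorm Ω)
  have h1 : ∀ p, ‖tr Ω (word Y p)‖ ≤ α ^ p.length := fun p => (htr _).trans (by
    induction p with
    | nil => exact ContinuousLinearMap.norm_id_le
    | cons i p ih =>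
      rw [word_cons, List.length_cons, pow_succ']
      exact (norm_mul_le _ _).trans (mul_le_mul (hα i) ih (norm_nonneg _) hα0))
  have h2 : ∀ q, ∑ p ∈ We ι q, ‖tr Ω (word Y p)‖ ≤ β ^ q := fun q => by
    have e : ((∑ p ∈ We ι q, ‖tr Ω (word Y p)‖ : ℝ) : ℂ) = tr Ω ((∑ i, Y i) ^ q) := by
      rw [← sum_We_word, Complex.ofReal_sum]
      simp only [hpos]
      simp [tr]
    refine (le_abs_self _).trans ?_
    rw [← Real.norm_eq_abs, ← Complex.norm_real, e]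
    refine (htr _).trans ?_
    clear e
    induction q with
    | zero => exact ContinuousLinearMap.norm_id_le
    | succ q ih =>
      rw [pow_succ, pow_succ]
      exact (norm_mul_le _ _).trans (mul_le_mul ih hβ (norm_nonneg _) (pow_nonneg hβ0 _))
  have h3 : ∀ M, ∑ j, ‖zeta Ω Y R σ M [j]‖ ^ 2 ≤ 2 * (α * β) := fun M => by
    refine (sum_le_sum fun j _ => h.zeta_norm ht hσ M [j]).trans ?_
    rw [sum_comm]
    simp only [← mul_sum]
    have hab : 0 ≤ α * β := mul_nonneg hα0 hβ0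
    refine (sum_le_sum (g := fun m => α * β * (1 / 2) ^ m) fun m _ => ?_).trans ?_
    · refine (mul_le_mul_of_nonneg_left (cum_sq hα0 hβ0 h1 h2 m) (by positivity)).trans ?_
      rw [mul_left_comm, ← mul_pow]
      gcongr
      rw [inv_mul_le_iff₀ ht]
      linarith
    · rw [← mul_sum, mul_comm 2]
      exact mul_le_mul_of_nonneg_left (sum_geometric_two_le M) hab
  refine proj_bound fun y hy => ?_
  have h4 : ∀ j, ∀ᶠ M in Filter.atTop, ⟪y j, Y j Ω - zeta Ω Y R σ M [j]⟫_ℂ = 0 := fun j => by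
    have hyj := hy j
    generalize y j = z at hyj
    induction hyj using Submodule.span_induction with
    | mem x hx =>
      obtain ⟨u, rfl⟩ := hx
      filter_upwards [Filter.eventually_gt_atTop u.length] with M hM
      simpa [RW, word] using h.main u [] [j] M hM
    | zero => simp
    | add a b _ _ h1 h2 =>
      filter_upwards [h1, h2] with M h1 h2
      rw [inner_add_left, h1, h2, add_zero]
    | smul c a _ h1 =>
      filter_upwards [h1] with M h1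
      rw [inner_smul_left, h1, mul_zero]
  obtain ⟨M, hM⟩ := (Filter.eventually_all.2 h4).exists
  refine (sum_le_sum (g := fun j => ‖y j‖ ^ 2 + ‖zeta Ω Y R σ M [j]‖ ^ 2) fun j _ => ?_).trans ?_
  · have := hM j
    rw [inner_sub_right, sub_eq_zero] at this
    rw [this]
    exact two_re_le _ _
  · rw [sum_add_distrib]
    linarith [h3 M]

theorem Phi_le' {α β t : ℝ} (hα : ∀ i, ‖Y i‖ ≤ α) (hβ : ‖∑ i, Y i‖ ≤ β)
    (hpos : ∀ p, (‖tr Ω (word Y p)‖ : ℂ) = tr Ω (word Y p)) (ht : 0 < t) (hσ : ∀ i, t ≤ σ i)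
    (hσ' : ∀ i, σ i ≤ 1 + t) (hY : ∀ i, 1 ≤ ‖Y i Ω‖) (hα0 : 0 ≤ α) (hΛ : 128 * (α * β) ≤ t) :
    Phi Ω (ZZ Y L) ≤ ENNReal.ofReal (∑ j, (σ j)⁻¹ - Fintype.card ι * (1 + t)⁻¹ ^ 2 +
      t⁻¹ ^ 2 * (2 * (α * β))) := by
  rw [h.Phi_eq']
  refine ENNReal.ofReal_le_ofReal ((sum_le_sum (g := fun j => (σ j)⁻¹ - (1 + t)⁻¹ ^ 2 +
    t⁻¹ ^ 2 * ‖(K0 Ω (ZZ Y L)).starProjection (Y j Ω)‖ ^ 2) fun j _ => ?_).trans ?_)
  · have h0 := h.pos j
    have h1 : (1 + t)⁻¹ ≤ (σ j)⁻¹ := inv_anti₀ h0 (hσ' j)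
    have h2 : (σ j)⁻¹ ≤ t⁻¹ := inv_anti₀ ht (hσ j)
    have h3 : 1 ≤ ‖Y j Ω‖ ^ 2 := one_le_pow₀ (hY j)
    rw [h.norm_proj_R, mul_add, mul_sub, show (σ j)⁻¹ ^ 2 * σ j = (σ j)⁻¹ by field_simp]
    refine add_le_add (sub_le_sub_left ?_ _) (by gcongr)
    calc (1 + t)⁻¹ ^ 2 = (1 + t)⁻¹ ^ 2 * 1 := (mul_one _).symm
      _ ≤ _ := by gcongr
  · rw [sum_add_distrib, sum_sub_distrib, ← mul_sum, sum_const, card_univ, nsmul_eq_mul]
    gcongr
    exact h.proj_Y_le hα hβ hpos ht hσ hα0 hΛ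

end Sys

end Vale.Agent.P087
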