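import Vale.Agent.P087.Fisher

/-! The full Fock space. -/

open Finset
open scoped InnerProductSpace ENNReal

namespace Vale.Agent.P087

set_option linter.unusedSectionVars false

variable {A : Type} [DecidableEq A]

/-- left and right creation operators -/
structure Fock {H : Type} [NormedAddCommGroup H] [InnerProductSpace ℂ H] [CompleteSpace H]
    (Ω : H) (l r : A → H →L[ℂ] H) : Prop where
  norm_one : ‖Ω‖ = 1
  ll : ∀ a b θ, star (l a) (l b θ) = if a = b then θ else 0
  lr : ∀ a b θ, l a (r b θ) = r b (l a θ)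
  lr' : ∀ a b θ, star (l a) (r b θ) = r b (star (l a) θ) + if a = b then ⟪Ω, θ⟫_ℂ • Ω else 0
  lΩ : ∀ a, star (l a) Ω = 0
  rΩ : ∀ a θ, ⟪Ω, r a θ⟫_ℂ = 0
  lrΩ : ∀ a, l a Ω = r a Ω
  dense : Dense (Submodule.span ℂ (Set.range fun w => word l w Ω) : Set H)

section Concrete

variable {I : Type}

/-- square summable functions -/
abbrev LL (I : Type) : Type := lp (fun _ : I => ℂ) 2

theorem summable_LL (f : LL I) : Summable fun i => ‖f i‖ ^ (2 : ℝ≥0∞).toReal :=
  (lp.memℓp f).summable (by norm_num)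

/-- composition with an injective map -/
noncomputable def cmp (g : I → I) (hg : Function.Injective g) : LL I →L[ℂ] LL I :=
  LinearMap.mkContinuous
    { toFun := fun f => ⟨fun i => f (g i), memℓp_gen ((summable_LL f).comp_injective hg)⟩
      map_add' := fun _ _ => rfl
      map_smul' := fun _ _ => rfl } 1 fun f => by
    rw [one_mul]
    refine lp.norm_le_of_tsum_le (by norm_num) (norm_nonneg _) ?_
    rw [lp.norm_rpow_eq_tsum (by norm_num)]
    exact tsum_comp_le_tsum_of_inj (summable_LL f) (fun _ => by positivity) hg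

theorem cmp_apply (g : I → I) (hg : Function.Injective g) (f : LL I) (i : I) :
    cmp g hg f i = f (g i) := rfl

variable [DecidableEq I]

/-- basis vectors -/
noncomputable def ee (i : I) : LL I := lp.single 2 i 1

theorem ee_apply (i j : I) : ee i j = if j = i then 1 else 0 := by
  simp [ee, lp.single_apply, Pi.single_apply]

theorem inner_ee (i : I) (f : LL I) : ⟪ee i, f⟫_ℂ = f i := by
  simp [ee, lp.inner_single_left]

theorem star_cmp_apply {g : I → I} (hg : Function.Injective g) (f : LL I) (i : I) :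
    star (cmp g hg) f (g i) = f i := by
  rw [← inner_ee, inner_star_right, ← inner_ee]
  congr 1
  ext j
  simp [cmp_apply, ee_apply, hg.eq_iff]

theorem star_cmp_apply' {g : I → I} (hg : Function.Injective g) (f : LL I) {j : I}
    (hj : ∀ i, g i ≠ j) : star (cmp g hg) f j = 0 := by
  rw [← inner_ee, inner_star_right]
  have : cmp g hg (ee j) = 0 := by
    ext i
    simp [cmp_apply, ee_apply, hj]
  rw [this, inner_zero_left]

theorem exists_fock (A : Type) [DecidableEq A] :
    ∃ (l r : A → LL (List A) →L[ℂ] LL (List A)), Fock (ee []) l r := by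
  have h1 : ∀ a : A, Function.Injective fun w : List A => a :: w := fun a => List.cons_injective
  have h2 : ∀ a : A, Function.Injective fun w : List A => w ++ [a] := fun a =>
    List.append_left_injective _
  have l1 : ∀ a b θ w, star (cmp _ (h1 a)) θ (b :: w) = if a = b then θ w else 0 := by
    intro a b θ w
    split_ifs with e
    · subst e; exact star_cmp_apply (h1 a) θ w
    · exact star_cmp_apply' _ _ fun i hi => e (List.cons.inj hi).1
  have l0 : ∀ a θ, star (cmp _ (h1 a)) θ [] = 0 := fun a θ => star_cmp_apply' _ _ (by simp)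
  have r1 : ∀ a b θ w, star (cmp _ (h2 a)) θ (w ++ [b]) = if a = b then θ w else 0 := by
    intro a b θ w
    split_ifs with e
    · subst e; exact star_cmp_apply (h2 a) θ w
    · exact star_cmp_apply' _ _ fun i hi => e (by simpa using (List.append_inj' hi rfl).2)
  have r0 : ∀ a θ, star (cmp _ (h2 a)) θ [] = 0 := fun a θ => star_cmp_apply' _ _ (by simp)
  have le : ∀ a w, star (cmp _ (h1 a)) (ee w) = ee (a :: w) := by
    intro a w
    ext x
    rcases x with _ | ⟨b, x⟩
    · simp [l0, ee_apply]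
    · rw [l1]
      by_cases e : a = b <;> simp [ee_apply, e, eq_comm]
  refine ⟨fun a => star (cmp _ (h1 a)), fun a => star (cmp _ (h2 a)), ?_, fun a b θ => ?_,
    fun a b θ => ?_, fun a b θ => ?_, fun a => ?_, fun a θ => ?_, fun a => ?_, ?_⟩
  · simp [ee, lp.norm_single]
  · ext w
    rw [star_star, cmp_apply, l1]
    by_cases e : a = b
    · simp [e]
    · simp [e, Ne.symm e]
  · have : cmp _ (h2 b) * cmp _ (h1 a) = cmp _ (h1 a) * cmp _ (h2 b) := rfl
    have := congrArg (fun T : LL (List A) →L[ℂ] LL (List A) => star T θ) this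
    simp only [star_mul] at this
    exact this
  · ext w
    rw [star_star, cmp_apply, lp.coeFn_add, Pi.add_apply]
    rcases List.eq_nil_or_concat w with rfl | ⟨w, c, rfl⟩
    · rw [r0, zero_add, show [a] = [] ++ [a] from rfl, r1]
      by_cases e : a = b
      · simp [e, inner_ee, ee_apply]
      · simp [e, Ne.symm e]
    · rw [List.concat_eq_append, ← List.cons_append, r1, r1, cmp_apply]
      by_cases e : a = b <;> simp [e, ee_apply]
  · ext w
    simp [cmp_apply, ee_apply]
  · rw [inner_ee, r0]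
  · rw [le]
    ext w
    rcases List.eq_nil_or_concat w with rfl | ⟨w, c, rfl⟩
    · simp [r0, ee_apply]
    · rw [List.concat_eq_append, r1, ee_apply, ee_apply]
      by_cases e : a = c
      · rcases w with _ | ⟨d, w⟩ <;> simp [e]
      · rcases w with _ | ⟨d, w⟩ <;> simp [e, Ne.symm e]
  · rw [Submodule.dense_iff_topologicalClosure_eq_top, Submodule.topologicalClosure_eq_top_iff,
      Submodule.eq_bot_iff]
    intro θ hθ
    ext w
    have e : word (fun a => star (cmp _ (h1 a))) w (ee []) = ee w := by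
      induction w with
      | nil => rfl
      | cons a w ih => rw [word_cons_apply, ih, le]
    have := hθ _ (Submodule.subset_span ⟨w, e⟩)
    rwa [inner_ee] at this

end Concrete

variable {H : Type} [NormedAddCommGroup H] [InnerProductSpace ℂ H] [CompleteSpace H]

/-- the field operators -/
noncomputable def fld (l : A → H →L[ℂ] H) (a : A) : H →L[ℂ] H := l a + star (l a)

theorem fld_sa (l : A → H →L[ℂ] H) (a : A) : IsSelfAdjoint (fld l a) :=
  IsSelfAdjoint.add_star_self _

theorem fld_apply (l : A → H →L[ℂ] H) (a : A) (θ : H) : fld l a θ = l a θ + star (l a) θ := rfl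

/-- the commutant of the right fields -/
noncomputable def MM (r : A → H →L[ℂ] H) : VonNeumannAlgebra H where
  toStarSubalgebra := StarSubalgebra.centralizer ℂ (Set.range (fld r))
  centralizer_centralizer' := Set.centralizer_centralizer_centralizer _

theorem mem_MM {r : A → H →L[ℂ] H} {x : H →L[ℂ] H} :
    x ∈ MM r ↔ ∀ a, fld r a * x = x * fld r a := by
  refine (StarSubalgebra.mem_centralizer_iff ℂ (s := Set.range (fld r))).trans ?_
  simp [(fld_sa r _).star_eq]

namespace Fock

variable {Ω : H} {l r : A → H →L[ℂ] H} (h : Fock Ω l r)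
include h

theorem inner_Ω : ⟪Ω, Ω⟫_ℂ = 1 := by simp [h.norm_one]

theorem lΩ' (a : A) (θ : H) : ⟪Ω, l a θ⟫_ℂ = 0 := by
  rw [← inner_star_left, h.lΩ, inner_zero_left]

theorem rΩ' (a : A) : star (r a) Ω = 0 :=
  ext_inner_right ℂ fun θ => by rw [inner_star_left, h.rΩ, inner_zero_left]

theorem s_Ω (a : A) : fld l a Ω = r a Ω := by rw [fld_apply, h.lΩ, add_zero, h.lrΩ]

theorem sr_Ω (a : A) : fld r a Ω = fld l a Ω := by rw [fld_apply, h.rΩ', add_zero, h.s_Ω]

theorem s_r (a b : A) (θ : H) :
    fld l a (r b θ) = r b (fld l a θ) + if a = b then ⟪Ω, θ⟫_ℂ • Ω else 0 := by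
  rw [fld_apply, fld_apply, h.lr, h.lr', map_add, add_assoc]

theorem ls_rs (a b : A) (θ : H) : star (l a) (star (r b) θ) = star (r b) (star (l a) θ) :=
  ext_inner_left ℂ fun η => by simp only [inner_star_right, h.lr]

theorem rs_l (a b : A) (θ : H) :
    star (r b) (l a θ) = l a (star (r b) θ) + if a = b then ⟪Ω, θ⟫_ℂ • Ω else 0 :=
  ext_inner_left ℂ fun η => by
    rw [inner_star_right, ← inner_star_left, h.lr', inner_add_left, inner_add_right,
      ← inner_star_left (l a), inner_star_right]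
    split_ifs
    · simp [inner_smul_left, inner_smul_right, mul_comm]
    · simp

theorem ls_sr (a b : A) (θ : H) :
    star (l a) (fld r b θ) = fld r b (star (l a) θ) + if a = b then ⟪Ω, θ⟫_ℂ • Ω else 0 := by
  rw [fld_apply, fld_apply, map_add, h.lr', h.ls_rs, add_right_comm]

theorem s_mem (a : A) : fld l a ∈ MM r := mem_MM.2 fun b => by
  ext θ
  show fld r b (fld l a θ) = fld l a (fld r b θ)
  simp only [fld_apply, map_add, h.lr, h.lr', h.ls_rs, h.rs_l]
  abel

theorem adjoin_le {x : H →L[ℂ] H} (hx : x ∈ Algebra.adjoin ℂ (Set.range (fld l))) : x ∈ MM r :=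
  Algebra.adjoin_le (S := (MM r).toStarSubalgebra.toSubalgebra)
    (Set.range_subset_iff.2 h.s_mem) hx

theorem dense_alg :
    Dense ((fun x : H →L[ℂ] H => x Ω) '' Algebra.adjoin ℂ (Set.range (fld l))) := by
  let D := (Subalgebra.toSubmodule (Algebra.adjoin ℂ (Set.range (fld l)))).map
    (ContinuousLinearMap.apply ℂ H Ω : (H →L[ℂ] H) →ₗ[ℂ] H)
  refine h.dense.mono (Submodule.span_le (p := D).2 (Set.range_subset_iff.2 fun w => ?_))
  have hD : ∀ a, ∀ θ ∈ D, fld l a θ ∈ D := by
    rintro a _ ⟨x, hx, rfl⟩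
    exact ⟨fld l a * x, Subalgebra.mul_mem _ (Algebra.subset_adjoin ⟨a, rfl⟩) hx, rfl⟩
  induction hm : w.length using Nat.strong_induction_on generalizing w with
  | _ m ih =>
  rcases w with _ | ⟨a, w⟩
  · exact ⟨1, Subalgebra.one_mem _, rfl⟩
  · subst hm
    rw [word_cons_apply, eq_sub_of_add_eq (fld_apply l a _).symm]
    refine sub_mem (hD a _ (ih _ (by simp) w rfl)) ?_
    rcases w with _ | ⟨b, w⟩
    · exact (h.lΩ a).symm ▸ zero_mem D
    · rw [word_cons_apply, h.ll]
      split_ifs
      · exact ih _ (by simp) w rfl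
      · exact zero_mem D

theorem tr_alg {a : H →L[ℂ] H} (ha : a ∈ Algebra.adjoin ℂ (Set.range (fld l))) :
    ∀ x ∈ MM r, tr Ω (x * a) = tr Ω (a * x) := by
  induction ha using Algebra.adjoin_induction with
  | mem a ha =>
    obtain ⟨a, rfl⟩ := ha
    intro x hx
    have e := congrArg (fun T : H →L[ℂ] H => T Ω) (mem_MM.1 hx a)
    show ⟪Ω, x (fld l a Ω)⟫_ℂ = ⟪Ω, fld l a (x Ω)⟫_ℂ
    rw [← h.sr_Ω, ← inner_star_left (fld l a), (fld_sa l a).star_eq, ← h.sr_Ω,
      ← (fld_sa r a).star_eq, inner_star_left, (fld_sa r a).star_eq]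
    exact congrArg _ e.symm
  | algebraMap c => intro x _; rw [Algebra.commutes]
  | add a b _ _ h1 h2 =>
    intro x hx
    have := h1 x hx
    have := h2 x hx
    simp_all [tr, mul_add, add_mul]
  | mul a b ha hb h1 h2 =>
    intro x hx
    rw [← mul_assoc, h2 _ (mul_mem hx (h.adjoin_le ha)), ← mul_assoc,
      h1 _ (mul_mem (h.adjoin_le hb) hx), mul_assoc]

omit h in
theorem tr_star_mul (x y : H →L[ℂ] H) : tr Ω (star x * y) = ⟪x Ω, y Ω⟫_ℂ :=
  inner_star_right x Ω (y Ω)

theorem norm_star_le {z : H →L[ℂ] H} (hz : z ∈ MM r) : ‖star z Ω‖ ≤ ‖z Ω‖ := by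
  have hc : IsClosed {ξ : H | ‖⟪star z Ω, ξ⟫_ℂ‖ ≤ ‖z Ω‖ * ‖ξ‖} :=
    isClosed_le (by fun_prop) (by fun_prop)
  have h1 : ∀ ξ, ‖⟪star z Ω, ξ⟫_ℂ‖ ≤ ‖z Ω‖ * ‖ξ‖ := fun ξ => by
    refine h.dense_alg.induction (P := fun ξ => ‖⟪star z Ω, ξ⟫_ℂ‖ ≤ ‖z Ω‖ * ‖ξ‖) ?_ hc ξ
    rintro _ ⟨a, ha, rfl⟩
    have e : ‖star a Ω‖ = ‖a Ω‖ := by
      have := h.tr_alg ha _ (star_mem (h.adjoin_le ha))
      rw [tr_star_mul, ← star_star a, tr_star_mul, star_star, inner_self_eq_norm_sq_to_K,
        inner_self_eq_norm_sq_to_K] at this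
      exact (pow_left_inj₀ (norm_nonneg _) (norm_nonneg _) two_ne_zero).1
        (by exact_mod_cast this.symm)
    rw [← tr_star_mul, star_star, h.tr_alg ha z hz, ← star_star a, tr_star_mul, star_star,
      mul_comm, ← e]
    exact norm_inner_le_norm _ _
  have h2 := h1 (star z Ω)
  rw [inner_self_eq_norm_sq_to_K, norm_pow, RCLike.norm_ofReal, abs_norm, sq] at h2
  rcases (norm_nonneg (star z Ω)).eq_or_lt with e | e
  · rw [← e]; exact norm_nonneg _
  · exact le_of_mul_le_mul_right h2 e

theorem isTraceVec : IsTraceVec (MM r) Ω where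
  norm_one := h.norm_one
  cyclic := h.dense_alg.mono (Set.image_mono fun _ => h.adjoin_le)
  tracial := fun x hx y hy => by
    have hc : IsClosed {ξ : H | ‖tr Ω (x * y) - tr Ω (y * x)‖ ≤
        (‖star x Ω‖ + ‖x Ω‖) * ‖y Ω - ξ‖} := isClosed_le (by fun_prop) (by fun_prop)
    have h1 := h.dense_alg.induction (P := fun ξ => ‖tr Ω (x * y) - tr Ω (y * x)‖ ≤
        (‖star x Ω‖ + ‖x Ω‖) * ‖y Ω - ξ‖) ?_ hc (y Ω)
    · simpa [sub_eq_zero] using h1
    rintro _ ⟨a, ha, rfl⟩
    have e : tr Ω (x * y) - tr Ω (y * x) =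
        ⟪star x Ω, (y - a) Ω⟫_ℂ - ⟪star (y - a) Ω, x Ω⟫_ℂ := by
      have := h.tr_alg ha x hx
      rw [inner_star_left, inner_star_left]
      simp only [tr, ContinuousLinearMap.mul_def, ContinuousLinearMap.comp_apply] at this ⊢
      simp [this]
    rw [e, add_mul]
    refine (norm_sub_le _ _).trans (add_le_add (norm_inner_le_norm _ _)
      ((norm_inner_le_norm _ _).trans ?_))
    rw [mul_comm]
    exact mul_le_mul_of_nonneg_left (h.norm_star_le (sub_mem hy (h.adjoin_le ha))) (norm_nonneg _)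
  faithful := fun x hx h0 => by
    rw [tr_star_mul, inner_self_eq_zero] at h0
    have h1 : star x Ω = 0 := by simpa [h0] using h.norm_star_le hx
    refine ContinuousLinearMap.ext fun ξ => h.dense_alg.induction (P := fun ξ => x ξ = 0) ?_
      (isClosed_eq x.continuous continuous_const) ξ
    rintro _ ⟨a, ha, rfl⟩
    have := h.norm_star_le (star_mem (mul_mem hx (h.adjoin_le ha)))
    rw [star_star, star_mul] at this
    simpa [h1] using this

theorem norm_sum_l (s : Finset A) : ‖∑ a ∈ s, l a‖ ≤ Real.sqrt s.card := by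
  refine ContinuousLinearMap.opNorm_le_bound _ (Real.sqrt_nonneg _) fun θ => ?_
  have e : ‖(∑ a ∈ s, l a) θ‖ ^ 2 = s.card * ‖θ‖ ^ 2 := by
    apply Complex.ofReal_injective
    rw [Complex.ofReal_pow, ← Complex.coe_algebraMap, ← inner_self_eq_norm_sq_to_K]
    simp only [FunLike.coe_sum, Finset.sum_apply, sum_inner, inner_sum]
    rw [sum_congr rfl fun b hb => sum_congr rfl fun a _ => by rw [← inner_star_right, h.ll]]
    simp [apply_ite, sum_ite_eq', sum_congr rfl fun b (hb : b ∈ s) => if_pos hb]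
  refine (pow_le_pow_iff_left₀ (norm_nonneg _) (by positivity) two_ne_zero).1 ?_
  rw [e, mul_pow, Real.sq_sqrt (Nat.cast_nonneg _)]

theorem norm_sum_s (s : Finset A) : ‖∑ a ∈ s, fld l a‖ ≤ 2 * Real.sqrt s.card := by
  simp only [fld, sum_add_distrib, ← star_sum]
  refine (norm_add_le _ _).trans ?_
  rw [norm_star, two_mul]
  exact add_le_add (h.norm_sum_l s) (h.norm_sum_l s)

theorem norm_s (a : A) : ‖fld l a‖ ≤ 2 := by simpa using h.norm_sum_s {a}

/-- the factorization lemma behind freeness -/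
theorem factor {B : Set A} {ξ ξ' : H} (hξ : ∀ a ∈ B, star (l a) ξ = 0)
    (hξ' : ∀ a ∈ B, star (l a) ξ' = 0) {x : H →L[ℂ] H} (hx : x ∈ Algebra.adjoin ℂ (fld l '' B)) :
    ⟪ξ', x ξ⟫_ℂ = tr Ω x * ⟪ξ', ξ⟫_ℂ := by
  let G : Submodule ℂ (H × H) :=
    Submodule.span ℂ {g | ∃ y : List A, (∀ a ∈ y, a ∈ B) ∧ g = (word l y Ω, word l y ξ)}
  have h1 : ∀ g ∈ G, (x g.1, x g.2) ∈ G := by
    induction hx using Algebra.adjoin_induction with
    | mem x hx =>
      obtain ⟨a, ha, rfl⟩ := hx
      intro g hg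
      refine Submodule.span_le (p := G.comap ((fld l a : H →ₗ[ℂ] H).prodMap (fld l a))).2 ?_ hg
      rintro _ ⟨y, hy, rfl⟩
      show (l a (word l y Ω), l a (word l y ξ)) +
        (star (l a) (word l y Ω), star (l a) (word l y ξ)) ∈ G
      refine add_mem (Submodule.subset_span ⟨a :: y, by simpa [ha] using hy, by
        simp only [word_cons_apply]⟩) ?_
      rcases y with _ | ⟨b, y⟩
      · simp only [word_nil, one_apply_eq_self, h.lΩ, hξ a ha]
        exact zero_mem G
      · simp only [word_cons_apply, h.ll]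
        split_ifs
        · exact Submodule.subset_span ⟨y, fun a ha => hy a (by simp [ha]), rfl⟩
        · exact zero_mem G
    | algebraMap c =>
      intro g hg
      rw [Algebra.algebraMap_eq_smul_one]
      exact G.smul_mem c hg
    | add a b _ _ h1 h2 => intro g hg; exact add_mem (h1 g hg) (h2 g hg)
    | mul a b _ _ h1 h2 => intro g hg; exact h1 _ (h2 g hg)
  have h2 : ∀ g ∈ G, ⟪ξ', g.2⟫_ℂ = ⟪Ω, g.1⟫_ℂ * ⟪ξ', ξ⟫_ℂ := by
    intro g hg
    induction hg using Submodule.span_induction with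
    | mem g hg =>
      obtain ⟨y, hy, rfl⟩ := hg
      rcases y with _ | ⟨b, y⟩
      · simp [h.norm_one]
      · simp only [word_cons_apply, h.lΩ', zero_mul]
        rw [← inner_star_left, hξ' b (hy b (by simp)), inner_zero_left]
    | zero => simp
    | add a b _ _ h1 h2 => simp [h1, h2, add_mul]
    | smul c a _ h1 => simp [h1, mul_assoc]
  exact h2 _ (h1 (Ω, ξ) (Submodule.subset_span ⟨[], by simp, rfl⟩))

theorem ls_alg {B : Set A} {a : A} (ha : a ∉ B) {x : H →L[ℂ] H}
    (hx : x ∈ Algebra.adjoin ℂ (fld l '' B)) : star (l a) (x Ω) = 0 :=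
  ext_inner_left ℂ fun η => by
    rw [inner_star_right, h.factor (fun a _ => h.lΩ a) (fun b hb => by
      rw [h.ll, if_neg fun e : b = a => ha (e ▸ hb)]) hx, ← inner_star_right, h.lΩ]
    simp

theorem isFree {κ : Type} {B : κ → Set A} (hB : Pairwise (Function.onFun Disjoint B))
    {F : κ → Set (H →L[ℂ] H)} (hF : ∀ k, F k ⊆ Algebra.adjoin ℂ (fld l '' B k)) : IsFree Ω F := by
  have key : ∀ (p : κ × (H →L[ℂ] H)) (L : List (κ × (H →L[ℂ] H))),
      (∀ q ∈ p :: L, q.2 ∈ Algebra.adjoin ℂ (F q.1) ∧ tr Ω q.2 = 0) →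
      (p :: L).IsChain (fun p q => p.1 ≠ q.1) → ∀ ξ', (∀ a ∈ B p.1, star (l a) ξ' = 0) →
      ⟪ξ', ((p :: L).map Prod.snd).prod Ω⟫_ℂ = 0 := by
    intro p L
    induction L generalizing p with
    | nil =>
      intro h1 _ ξ' hξ'
      have := h1 p (by simp)
      simpa [this.2] using h.factor (fun a _ => h.lΩ a) hξ' (Algebra.adjoin_le (hF _) this.1)
    | cons q L ih =>
      intro h1 h2 ξ' hξ'
      have := h1 p (by simp)
      rw [List.isChain_cons_cons] at h2
      rw [List.map_cons, List.prod_cons]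
      refine (h.factor (fun a ha => ext_inner_left ℂ fun η => ?_) hξ'
        (Algebra.adjoin_le (hF _) this.1)).trans (by rw [this.2, zero_mul])
      rw [inner_star_right, inner_zero_right]
      refine ih q (fun x hx => h1 x (List.mem_cons_of_mem _ hx)) h2.2 _ fun b hb => ?_
      rw [h.ll, if_neg fun e : b = a => Set.disjoint_left.1 (hB h2.1) ha (e ▸ hb)]
  intro L hL h1 h2
  rcases L with _ | ⟨p, L⟩
  · exact (hL rfl).elim
  · exact key p L h1 h2 Ω fun a _ => h.lΩ a

/-- operators with nonnegative integer matrix entries have nonnegative trace -/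
theorem tr_nonneg {x : H →L[ℂ] H} (hx : x ∈ Subsemiring.closure (Set.range (fld l))) :
    (‖tr Ω x‖ : ℂ) = tr Ω x := by
  let C := AddSubmonoid.closure (Set.range fun w => word l w Ω)
  have h1 : ∀ θ ∈ C, x θ ∈ C := by
    induction hx using Subsemiring.closure_induction with
    | mem x hx =>
      obtain ⟨a, rfl⟩ := hx
      intro θ hθ
      refine AddSubmonoid.closure_le (S := C.comap (fld l a : H →+ H)).2 ?_ hθ
      rintro _ ⟨w, rfl⟩
      show l a _ + star (l a) _ ∈ C
      refine add_mem (AddSubmonoid.subset_closure ⟨a :: w, word_cons_apply _ _ _ _⟩) ?_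
      rcases w with _ | ⟨b, w⟩
      · exact (h.lΩ a).symm ▸ zero_mem C
      · simp only [word_cons_apply, h.ll]
        split_ifs
        · exact AddSubmonoid.subset_closure ⟨w, rfl⟩
        · exact zero_mem C
    | zero => intro θ _; exact zero_mem C
    | one => intro θ hθ; exact hθ
    | add a b _ _ h1 h2 => intro θ hθ; exact add_mem (h1 θ hθ) (h2 θ hθ)
    | mul a b _ _ h1 h2 => intro θ hθ; exact h1 _ (h2 θ hθ)
  have h2 : ∀ θ ∈ C, ∃ n : ℕ, ⟪Ω, θ⟫_ℂ = n := by
    intro θ hθ
    induction hθ using AddSubmonoid.closure_induction with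
    | mem θ hθ =>
      obtain ⟨w, rfl⟩ := hθ
      rcases w with _ | ⟨b, w⟩
      · exact ⟨1, by simp [h.norm_one]⟩
      · exact ⟨0, by simp [word_cons_apply, h.lΩ']⟩
    | zero => exact ⟨0, by simp⟩
    | add a b _ _ h1 h2 =>
      obtain ⟨m, h1⟩ := h1
      obtain ⟨n, h2⟩ := h2
      exact ⟨m + n, by simp [h1, h2]⟩
  obtain ⟨n, hn⟩ := h2 _ (h1 Ω (AddSubmonoid.subset_closure ⟨[], rfl⟩))
  simp [tr, hn]

/-- moment recursion for scaled fields -/
theorem mom_cons {B : Type} [Fintype B] [DecidableEq B] {f : B → A} (hf : Function.Injective f)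
    (c : B → ℝ) (j : B) (u : List B) :
    tr Ω (word (fun b => (c b : ℂ) • fld l (f b)) (j :: u)) =
      (c j : ℂ) ^ 2 * dq (fun u => tr Ω (word (fun b => (c b : ℂ) • fld l (f b)) u)) j u := by
  have hm : ∀ b, (c b : ℂ) • fld l (f b) ∈ MM r := fun b =>
    (MM r).toStarSubalgebra.smul_mem (h.s_mem _) _
  rw [word_cons, h.isTraceVec.tracial _ (hm j) _ (word_mem hm u)]
  rw [← tr_word_comm (T := (c j : ℂ) • r (f j)) (fun k θ => ?_) fun θ => by simp [h.rΩ]]
  · simp [tr, h.s_Ω]
  · simp only [smul_apply, map_smul, h.s_r, smul_add, hf.eq_iff]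
    rw [smul_comm]
    split_ifs with e
    · simp only [e, smul_smul, sq, mul_assoc]
    · simp

theorem semicirc (a : A) : IsSemicirc Ω (fld l a) := by
  let c : ℕ → ℂ := fun n => if Even n then catalan (n / 2) else 0
  have hs : ∀ (f : ℕ → ℂ) (m : ℕ), ∑ i ∈ range (2 * m + 1), f i =
      ∑ i ∈ range (m + 1), f (2 * i) + ∑ i ∈ range m, f (2 * i + 1) := by
    intro f m
    induction m with
    | zero => simp
    | succ m ih =>
      rw [show 2 * (m + 1) + 1 = 2 * m + 1 + 1 + 1 by ring, sum_range_succ, sum_range_succ, ih,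
        sum_range_succ _ (m + 1), sum_range_succ (fun i => f (2 * i + 1)) m]
      ring_nf
  have key : ∀ n, tr Ω (fld l a ^ n) = c n := by
    intro n
    induction n using Nat.strong_induction_on with
    | _ n ih =>
    rcases n with _ | n
    · simp [c, tr, h.norm_one]
    have e := h.mom_cons (B := Unit) (f := fun _ => a) (Function.injective_of_subsingleton _)
      (fun _ => 1) () (List.replicate n ())
    have hw : ∀ u : List Unit, word (fun _ : Unit => ((1 : ℝ) : ℂ) • fld l a) u =
        fld l a ^ u.length := fun u => by simp [word]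
    simp only [hw, dq, List.length_cons, List.length_replicate, List.length_take,
      List.length_drop] at e
    rw [e, sum_congr rfl (g := fun i => c i * c (n - (i + 1))) fun i hi => by
      have := mem_range.1 hi
      rw [if_pos (by simp [this]), min_eq_left this.le, ih _ (by omega), ih _ (by omega)]]
    rcases Nat.even_or_odd' n with ⟨m, rfl | rfl⟩
    · rw [sum_eq_zero fun i hi => ?_]
      · simp [c]
      · have := mem_range.1 hi
        by_cases e : Even i
        · have : ¬ Even (2 * m - (i + 1)) := by grind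
          simp [c, this]
        · simp [c, e]
    · rw [hs, sum_eq_zero (s := range m) fun i _ => by simp [c]]
      have : c (2 * m + 1 + 1) = catalan (m + 1) := by
        simp only [c]
        rw [if_pos (by grind), show (2 * m + 1 + 1) / 2 = m + 1 by omega]
      rw [this, catalan_succ', Finset.Nat.sum_antidiagonal_eq_sum_range_succ
        (fun i j => catalan i * catalan j)]
      rw [Complex.ofReal_one, one_pow, one_mul, add_zero, Nat.cast_sum]
      refine sum_congr rfl fun i hi => ?_
      have := mem_range.1 hi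
      simp only [c]
      rw [if_pos (by grind), if_pos (by grind), show 2 * i / 2 = i by omega,
        show (2 * m + 1 - (2 * i + 1)) / 2 = m - i by omega, Nat.cast_mul]
  intro m
  rw [key, key]
  simp [c]

end Fock

end Vale.Agent.P087
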