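import Vale.Agent.P087.Gauss

/-! Schwinger-Dyson equations for Gaussian self-adjoint matrices. -/

open Finset MeasureTheory Filter Topology
open scoped ENNReal

namespace Vale.Agent.P087

set_option linter.unusedSectionVars false

variable {B : Type} [Fintype B] [DecidableEq B] {k : ℕ}

/-- complex matrices -/
abbrev Mat (k : ℕ) : Type := Matrix (Fin k) (Fin k) ℂ

/-- the orthonormal basis of self-adjoint matrices -/
noncomputable def EE (p : Fin k × Fin k) : Mat k := herm (Pi.single p 1)

theorem herm_add_smul (a b : Fin k × Fin k → ℝ) (t : ℝ) :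
    herm (a + t • b) = herm a + (t : ℂ) • herm b := by
  ext p q
  simp [herm]
  ring

theorem herm_eq_sum (a : Fin k × Fin k → ℝ) : herm a = ∑ p, (a p : ℂ) • EE p := by
  ext i j
  simp [EE, herm, Matrix.sum_apply, Pi.single_apply, apply_ite Complex.ofReal,
    sum_add_distrib, mul_comm]

theorem EE_key (i j l m : Fin k) :
    ∑ p, EE p i j * EE p l m = if i = m ∧ j = l then 1 else 0 := by
  simp only [EE, herm, Matrix.of_apply, Pi.single_apply, apply_ite Complex.ofReal,
    Complex.ofReal_one, Complex.ofReal_zero, add_mul, mul_add, mul_ite, ite_mul, mul_one, mul_zero,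
    zero_mul, sum_add_distrib, sum_ite_eq, mem_univ, if_true, Prod.mk.injEq]
  have hI := Complex.I_sq
  by_cases h1 : i = m ∧ j = l <;> by_cases h2 : i = l ∧ j = m
  · obtain ⟨rfl, rfl⟩ := h1
    obtain ⟨rfl, -⟩ := h2
    simp
    ring
  · obtain ⟨rfl, rfl⟩ := h1
    have : i ≠ j := fun e => h2 ⟨e, e.symm⟩
    simp [this, this.symm]
    linear_combination (-1 / 2 : ℂ) * hI
  · obtain ⟨rfl, rfl⟩ := h2
    have : i ≠ j := fun e => h1 ⟨e, e.symm⟩
    simp [this, this.symm]
    linear_combination (1 / 2 : ℂ) * hI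
  · grind

theorem sum_EE_mul (U : Mat k) : ∑ p, EE p * U * EE p = U.trace • (1 : Mat k) := by
  ext i m
  simp only [Matrix.sum_apply, Matrix.mul_apply, sum_mul]
  rw [sum_comm, sum_congr rfl fun l _ => sum_comm]
  simp only [mul_right_comm _ (U _ _), ← sum_mul, EE_key]
  by_cases e : i = m <;> simp [e, Matrix.trace]

theorem sum_EE_trace (V : Mat k) : ∑ p, (EE p * V).trace • EE p = V := by
  ext l m
  simp only [Matrix.sum_apply, Matrix.mul_apply, sum_mul, Matrix.smul_apply, Matrix.trace,
    Matrix.diag, smul_eq_mul]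
  rw [sum_comm, sum_congr rfl fun l _ => sum_comm]
  simp only [mul_right_comm _ (V _ _), ← sum_mul, EE_key]
  simp [ite_and]

/-- normalized trace of a word -/
noncomputable def tw (A : B → Mat k) (w : List B) : ℂ := (k : ℂ)⁻¹ * (word A w).trace

/-- product over a list of words -/
noncomputable def TL (μ : List B → ℂ) (L : List (List B)) : ℂ := (L.map μ).prod

theorem TL_cons (μ : List B → ℂ) (w : List B) (L : List (List B)) :
    TL μ (w :: L) = μ w * TL μ L := by simp [TL]

theorem TL_append (μ : List B → ℂ) (L L' : List (List B)) :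
    TL μ (L ++ L') = TL μ L * TL μ L' := by simp [TL]

/-- the remainder term -/
noncomputable def Rm (μ : List B → ℂ) (j : B) (u : List B) : List (List B) → ℂ
  | [] => 0
  | w :: L => (spl j w fun v v' => TL μ ((u ++ (v' ++ v)) :: L)) + μ w * Rm μ j u L

/-- derivative of a product of traces -/
noncomputable def dT (A : B → Mat k) (j : B) (E : Mat k) : List (List B) → ℂ
  | [] => 0
  | w :: L => (k : ℂ)⁻¹ * (spl j w fun v v' => (1 * word A v * E * word A v').trace) *
      TL (tw A) L + tw A w * dT A j E L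

/-- perturbation of one matrix -/
noncomputable def pert (A : B → Mat k) (j : B) (E : Mat k) (t : ℝ) (b : B) : Mat k :=
  A b + if b = j then (t : ℂ) • E else 0

theorem pert_zero (A : B → Mat k) (j : B) (E : Mat k) : pert A j E 0 = A := by
  ext1 b
  simp [pert]

theorem dword (A : B → Mat k) (j : B) (E U : Mat k) (w : List B) :
    HasDerivAt (fun t : ℝ => (U * word (pert A j E t) w).trace)
      (spl j w fun u v => (U * word A u * E * word A v).trace) 0 := by
  induction w generalizing U with
  | nil => exact hasDerivAt_const (0 : ℝ) (U * 1).trace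
  | cons i w ih =>
    rw [spl_cons, add_comm]
    simp only [word_cons, pert, add_mul, mul_add, Matrix.trace_add, ← mul_assoc]
    refine (ih (U * A i)).fun_add ?_
    split_ifs
    · have := (hasDerivAt_id (0 : ℝ)).ofReal_comp.fun_mul (ih (U * E))
      simpa [pert_zero] using this
    · simpa using hasDerivAt_const (0 : ℝ) (0 : ℂ)

theorem dTL (A : B → Mat k) (j : B) (E : Mat k) (L : List (List B)) :
    HasDerivAt (fun t : ℝ => TL (tw (pert A j E t)) L) (dT A j E L) 0 := by
  induction L with
  | nil => exact hasDerivAt_const _ _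
  | cons w L ih =>
    have := ((dword A j E 1 w).const_mul (k : ℂ)⁻¹).fun_mul ih
    simp only [one_mul (word (pert _ _ _ _) _), pert_zero, one_mul (word A w)] at this
    simp only [TL_cons]
    exact this

theorem spl_sum {α V : Type} [AddCommMonoid V] (s : Finset α) (j : B) (w : List B)
    (f : α → List B → List B → V) :
    ∑ a ∈ s, spl j w (f a) = spl j w fun u v => ∑ a ∈ s, f a u v := by
  unfold spl
  rw [sum_comm]
  refine sum_congr rfl fun l _ => ?_
  split_ifs <;> simp

theorem mul_spl (a : ℂ) (j : B) (w : List B) (f : List B → List B → ℂ) :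
    a * spl j w f = spl j w fun u v => a * f u v := map_spl j (AddMonoidHom.mulLeft a) w f

theorem spl_mul (a : ℂ) (j : B) (w : List B) (f : List B → List B → ℂ) :
    spl j w f * a = spl j w fun u v => f u v * a := map_spl j (AddMonoidHom.mulRight a) w f

theorem sum_dT (A : B → Mat k) (j : B) (u : List B) (L : List (List B)) :
    ∑ p, (EE p * word A u).trace * dT A j (EE p) L = Rm (tw A) j u L := by
  induction L with
  | nil => simp [dT, Rm]
  | cons w L ih =>
    simp only [dT, Rm, mul_add, sum_add_distrib, ← ih, mul_sum, mul_spl, spl_mul, spl_sum]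
    congr 1
    · refine spl_congr j fun v v' _ => ?_
      rw [TL_cons, tw, word_append, word_append, Matrix.trace_mul_comm, mul_assoc (word A v'),
        Matrix.trace_mul_comm]
      conv_rhs => rw [← sum_EE_trace (word A u)]
      simp only [one_mul, mul_sum, sum_mul, Matrix.trace_sum, mul_smul_comm, smul_mul_assoc,
        Matrix.trace_smul, smul_eq_mul]
      exact sum_congr rfl fun _ _ => by ring
    · exact sum_congr rfl fun _ _ => by ring

/-- the random matrices -/
noncomputable def GG (x : B → Fin k × Fin k → ℝ) (b : B) : Mat k := herm (x b)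

theorem GG_dir (x : B → Fin k × Fin k → ℝ) (j : B) (p : Fin k × Fin k) (t : ℝ) :
    GG (x + t • dir j p) = pert (GG x) j (EE p) t := by
  ext1 b
  by_cases e : b = j
  · subst e
    simp only [GG, pert, dir, Pi.add_apply, Pi.smul_apply, Pi.single_eq_same, if_true]
    exact herm_add_smul _ _ _
  · simp [GG, pert, dir, e]

theorem trace_GG (U V : Mat k) (x : B → Fin k × Fin k → ℝ) (i : B) :
    (U * (GG x i * V)).trace = ∑ p, x i p * (U * EE p * V).trace := by
  simp [GG, herm_eq_sum (x i), sum_mul, mul_sum, mul_assoc]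

theorem trace_mem (U : Mat k) (w : List B) :
    (fun x => (U * word (GG x) w).trace) ∈ Pol B (Fin k × Fin k) := by
  induction w generalizing U with
  | nil => exact (Pol _ _).algebraMap_mem (U * 1).trace
  | cons i w ih =>
    simp only [word_cons, trace_GG]
    convert sum_mem (t := univ) fun p _ => mul_mem (coord_mem i p) (ih (U * EE p)) using 1
    ext x
    simp

theorem tw_mem (w : List B) : (fun x => tw (GG x) w) ∈ Pol B (Fin k × Fin k) := by
  convert mul_mem ((Pol _ _).algebraMap_mem (k : ℂ)⁻¹) (trace_mem 1 w) using 1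
  ext x
  simp [tw]

theorem TL_mem (L : List (List B)) : (fun x => TL (tw (GG x)) L) ∈ Pol B (Fin k × Fin k) := by
  induction L with
  | nil => exact one_mem _
  | cons w L ih => simp only [TL_cons]; exact mul_mem (tw_mem w) ih

theorem spl_mem {P : Type} (j : B) (w : List B) {F : List B → List B → (B → P → ℝ) → ℂ}
    (hF : ∀ u v, F u v ∈ Pol B P) : (fun x => spl j w fun u v => F u v x) ∈ Pol B P := by
  convert spl_induction j (P := fun f => f ∈ Pol B P) (zero_mem _) (fun _ _ => add_mem)
    (w := w) fun u v _ => hF u v using 1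
  ext x
  exact (map_spl j (Pi.evalAddMonoidHom (fun _ => ℂ) x) w F).symm

theorem Rm_mem (j : B) (u : List B) (L : List (List B)) :
    (fun x => Rm (tw (GG x)) j u L) ∈ Pol B (Fin k × Fin k) := by
  induction L with
  | nil => exact zero_mem _
  | cons w L ih =>
    exact add_mem (spl_mem j w fun _ _ => TL_mem _) (mul_mem (tw_mem w) ih)

theorem integral_spl {P : Type} [Fintype P] {c : B → ℝ} (hc : ∀ b, 0 < c b) (j : B) (w : List B)
    {F : List B → List B → (B → P → ℝ) → ℂ} (hF : ∀ u v, F u v ∈ Pol B P) :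
    ∫ x, (spl j w fun u v => F u v x) ∂GM P c = spl j w fun u v => ∫ x, F u v x ∂GM P c := by
  unfold spl
  rw [integral_finsetSum _ fun l _ => ?_]
  · refine sum_congr rfl fun l _ => ?_
    split_ifs <;> simp
  · split_ifs
    · exact Pol_integrable hc (hF _ _)
    · simp

/-- the Gaussian ensemble with variances `θ` -/
noncomputable def GU (θ : B → ℝ) (k : ℕ) : Measure (B → Fin k × Fin k → ℝ) :=
  GM (Fin k × Fin k) fun b => k / (2 * θ b)

variable {θ : B → ℝ}

theorem cU_pos (hθ : ∀ b, 0 < θ b) (hk : 0 < k) (b : B) : 0 < (k : ℝ) / (2 * θ b) := by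
  have := hθ b
  positivity

theorem schwinger (hθ : ∀ b, 0 < θ b) (hk : 0 < k) (j : B) (u : List B) (L : List (List B)) :
    ∫ x, TL (tw (GG x)) ((j :: u) :: L) ∂GU θ k =
      θ j * (spl j u fun v v' => ∫ x, TL (tw (GG x)) (v :: v' :: L) ∂GU θ k) +
        θ j * (k : ℂ)⁻¹ ^ 2 * ∫ x, Rm (tw (GG x)) j u L ∂GU θ k := by
  have hc := cU_pos hθ hk
  have hf : ∀ p, (fun x => (EE p * word (GG x) u).trace * TL (tw (GG x)) L) ∈
      Pol B (Fin k × Fin k) := fun p => mul_mem (trace_mem _ u) (TL_mem L)
  have hs := fun p => stein hc (hf p) j p fun x => by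
    simp only [GG_dir]
    exact (dword (GG x) j (EE p) (EE p) u).fun_mul (dTL (GG x) j (EE p) L)
  have e : ∀ x : B → Fin k × Fin k → ℝ, TL (tw (GG x)) ((j :: u) :: L) =
      (k : ℂ)⁻¹ * ∑ p, x j p * ((EE p * word (GG x) u).trace * TL (tw (GG x)) L) := by
    intro x
    rw [TL_cons, tw, word_cons, ← one_mul (GG x j * _), trace_GG, mul_assoc, sum_mul]
    simp only [one_mul, mul_assoc]
  have hk' : (k : ℂ) ≠ 0 := by exact_mod_cast hk.ne'
  have hθ' : (θ j : ℂ) ≠ 0 := by exact_mod_cast (hθ j).ne'
  simp only [e, GU]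
  have hi : ∀ p, Integrable (fun x : B → Fin k × Fin k → ℝ => x j p *
      ((EE p * word (GG x) u).trace * TL (tw (GG x)) L)) (GM _ fun b => k / (2 * θ b)) :=
    fun p => Pol_integrable hc (mul_mem (coord_mem j p) (hf p))
  rw [integral_const_mul, integral_finsetSum _ fun p _ => hi p, sum_congr rfl fun p _ => (hs p).2,
    ← mul_sum, ← integral_finsetSum _ fun p _ => Pol_integrable hc (hs p).1,
    ← integral_spl hc j u fun _ _ => TL_mem _, ← integral_const_mul, ← integral_const_mul,
    ← integral_const_mul, ← integral_const_mul, ← integral_add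
      ((Pol_integrable hc (spl_mem j u fun _ _ => TL_mem _)).const_mul _)
      ((Pol_integrable hc (Rm_mem j u L)).const_mul _)]
  congr 1
  ext x
  simp only [pert_zero, sum_add_distrib, sum_dT, ← sum_mul, spl_sum]
  rw [spl_mul, spl_congr j (g := fun v v' => (k : ℂ) ^ 2 * TL (tw (GG x)) (v :: v' :: L))
    fun v v' _ => ?_, ← mul_spl]
  · push_cast
    field_simp
  · rw [← Matrix.trace_sum, ← sum_mul, sum_EE_mul, TL_cons, TL_cons, tw, tw]
    simp
    field_simp

theorem tendsto_spl {α : Type} {l : Filter α} (j : B) {w : List B} {f : α → List B → List B → ℂ}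
    {g : List B → List B → ℂ}
    (h : ∀ u v, w = u ++ j :: v → Tendsto (fun a => f a u v) l (𝓝 (g u v))) :
    Tendsto (fun a => spl j w (f a)) l (𝓝 (spl j w g)) := by
  induction w generalizing f g with
  | nil => exact tendsto_const_nhds
  | cons i w ih =>
    simp only [spl_cons]
    refine Tendsto.add ?_ (ih fun u v e => h _ _ (by rw [e]; rfl))
    split_ifs with e
    · exact h [] w (by rw [e]; rfl)
    · exact tendsto_const_nhds

/-- size of a list of words -/
def sz (L : List (List B)) : ℕ := (L.map fun w => w.length + 1).sum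

variable {μ : List B → ℂ}

theorem conv_Rm (hθ : ∀ b, 0 < θ b) {n : ℕ} (ih : ∀ L, sz L < n →
    Tendsto (fun k => ∫ x, TL (tw (GG x)) L ∂GU θ k) atTop (𝓝 (TL μ L))) (j : B) (u : List B)
    (L L0 : List (List B)) (h : sz L0 + u.length + sz L ≤ n) :
    Tendsto (fun k => ∫ x, TL (tw (GG x)) L0 * Rm (tw (GG x)) j u L ∂GU θ k) atTop
      (𝓝 (TL μ L0 * Rm μ j u L)) := by
  induction L generalizing L0 with
  | nil => simp [Rm]
  | cons w L ihL =>
    have e : ∀ ν : List B → ℂ, TL ν L0 * Rm ν j u (w :: L) =
        (spl j w fun v v' => TL ν (L0 ++ (u ++ (v' ++ v)) :: L)) +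
          TL ν (L0 ++ [w]) * Rm ν j u L := fun ν => by
      simp only [Rm, mul_add, mul_spl, TL_append, TL_cons, mul_assoc]
      simp [TL]
    simp only [e]
    refine ((tendsto_spl j fun v v' hv => ih _ ?_).add (ihL (L0 ++ [w]) ?_)).congr' ?_
    · simp [sz, hv] at h ⊢
      omega
    · simp [sz] at h ⊢
      omega
    · filter_upwards [eventually_gt_atTop 0] with k hk
      have hc := cU_pos hθ hk
      have h2 : Integrable (fun x => TL (tw (GG x)) (L0 ++ [w]) * Rm (tw (GG x)) j u L)
          (GM (Fin k × Fin k) fun b => k / (2 * θ b)) := Pol_integrable hc (mul_mem (TL_mem _) (Rm_mem j u L))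
      rw [GU, integral_add (Pol_integrable hc (spl_mem j w fun _ _ => TL_mem _)) h2,
        integral_spl hc j w fun _ _ => TL_mem _]

theorem conv_TL (hθ : ∀ b, 0 < θ b) (h0 : μ [] = 1) (hμ : ∀ j u, μ (j :: u) = θ j * dq μ j u)
    (L : List (List B)) :
    Tendsto (fun k => ∫ x, TL (tw (GG x)) L ∂GU θ k) atTop (𝓝 (TL μ L)) := by
  induction hn : sz L using Nat.strong_induction_on generalizing L with
  | _ n ih =>
  subst hn
  rcases L with _ | ⟨_ | ⟨j, u⟩, L⟩
  · refine tendsto_const_nhds.congr' ?_
    filter_upwards [eventually_gt_atTop 0] with k hk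
    have := GM_prob (P := Fin k × Fin k) (cU_pos hθ hk)
    simp [TL, GU]
  · rw [TL_cons, h0, one_mul]
    refine (ih _ (by simp [sz]) L rfl).congr' ?_
    filter_upwards [eventually_gt_atTop 0] with k hk
    simp [TL_cons, tw, hk.ne']
  · have h1 := conv_Rm hθ (fun L h => ih _ h L rfl) j u L [] (by simp [sz]; omega)
    have h2 := tendsto_spl j (w := u) fun v v' hv => ih _ (by simp [sz, hv]; omega)
      (v :: v' :: L) rfl
    have h3 : Tendsto (fun k : ℕ => (k : ℂ)⁻¹) atTop (𝓝 0) := tendsto_inv_atTop_nhds_zero_nat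
    have h4 := (h2.const_mul (θ j : ℂ)).add (((h3.pow 2).const_mul (θ j : ℂ)).mul h1)
    convert h4.congr' ?_ using 2
    · simp only [TL_cons, hμ, dq_eq, spl_mul, mul_assoc]
      simp
    · filter_upwards [eventually_gt_atTop 0] with k hk
      rw [schwinger hθ hk]
      simp [TL]

theorem star_word' {A : Type} [Monoid A] [StarMul A] {X : B → A} (hX : ∀ i, star (X i) = X i)
    (w : List B) : star (word X w) = word X w.reverse := by
  induction w with
  | nil => simp
  | cons i w ih => rw [word_cons, star_mul, ih, hX i, List.reverse_cons, word_append,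
      word_cons, word_nil, mul_one]

theorem conv_prob (hθ : ∀ b, 0 < θ b) (h0 : μ [] = 1) (hμ : ∀ j u, μ (j :: u) = θ j * dq μ j u)
    (hr : ∀ w, μ w.reverse = starRingEnd ℂ (μ w)) (w : List B) {ε : ℝ} (hε : 0 < ε) :
    Tendsto (fun k => GU θ k {x | ε ≤ ‖tw (GG x) w - μ w‖}) atTop (𝓝 0) := by
  have h1 := (((conv_TL hθ h0 hμ [w, w.reverse]).sub ((conv_TL hθ h0 hμ [w]).const_mul
    (μ w.reverse))).sub ((conv_TL hθ h0 hμ [w.reverse]).const_mul (μ w))).add_const
      (μ w * μ w.reverse)
  have h2 := ENNReal.tendsto_ofReal (((Complex.continuous_re.tendsto _).comp h1).div_const (ε ^ 2))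
  rw [show TL μ [w, w.reverse] - μ w.reverse * TL μ [w] - μ w * TL μ [w.reverse] +
    μ w * μ w.reverse = 0 by simp [TL]; ring] at h2
  simp only [Complex.zero_re, zero_div, ENNReal.ofReal_zero] at h2
  refine tendsto_of_tendsto_of_tendsto_of_le_of_le' tendsto_const_nhds h2
    (Eventually.of_forall fun _ => zero_le) ?_
  filter_upwards [eventually_gt_atTop 0] with k hk
  have hc := cU_pos hθ hk
  have : IsProbabilityMeasure (GU θ k) := GM_prob hc
  have e : ∀ x : B → Fin k × Fin k → ℝ, ((‖tw (GG x) w - μ w‖ ^ 2 : ℝ) : ℂ) =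
      TL (tw (GG x)) [w, w.reverse] - μ w.reverse * TL (tw (GG x)) [w] -
        μ w * TL (tw (GG x)) [w.reverse] + μ w * μ w.reverse := by
    intro x
    have : tw (GG x) w.reverse = starRingEnd ℂ (tw (GG x) w) := by
      rw [tw, tw, ← star_word' (X := GG x) fun i => herm_isHermitian (x i), Matrix.star_eq_conjTranspose,
        Matrix.trace_conjTranspose]
      simp
    rw [Complex.ofReal_pow, ← Complex.mul_conj', map_sub, ← this, ← hr]
    simp [TL]
    ring
  have i1 : ∀ L, Integrable (fun x => TL (tw (GG x)) L) (GU θ k) := fun L =>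
    Pol_integrable hc (TL_mem L)
  have i2 : Integrable (fun x => TL (tw (GG x)) [w, w.reverse] - μ w.reverse * TL (tw (GG x)) [w])
      (GU θ k) := (i1 _).sub ((i1 _).const_mul _)
  have i2' : Integrable (fun x => TL (tw (GG x)) [w, w.reverse] - μ w.reverse * TL (tw (GG x)) [w]
      - μ w * TL (tw (GG x)) [w.reverse]) (GU θ k) := i2.sub ((i1 _).const_mul _)
  have i3 : Integrable (fun x => ‖tw (GG x) w - μ w‖ ^ 2) (GU θ k) :=
    ((i2'.add (integrable_const (μ w * μ w.reverse))).re).congr (ae_of_all _ fun x => by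
      exact (congrArg Complex.re (e x)).symm)
  have h3 := mul_meas_ge_le_integral_of_nonneg (ae_of_all _ fun x => sq_nonneg _) i3 (ε ^ 2)
  have h4 := integral_congr_ae (μ := GU θ k) (ae_of_all _ e)
  rw [integral_complex_ofReal, integral_add i2' (integrable_const _),
    integral_sub i2 ((i1 _).const_mul _), integral_sub (i1 _) ((i1 _).const_mul _),
    integral_const_mul, integral_const_mul, integral_const, probReal_univ, one_smul] at h4
  simp only [Function.comp, ← h4, Complex.ofReal_re]
  rw [← ofReal_measureReal]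
  refine ENNReal.ofReal_le_ofReal ((le_div_iff₀' (by positivity)).2 (le_of_eq_of_le ?_ h3))
  simp only [pow_le_pow_iff_left₀ hε.le (norm_nonneg _) two_ne_zero]

end Vale.Agent.P087
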