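import Vale.Agent.P087.Words

/-! Gaussian measures and integration by parts. -/

open Finset MeasureTheory
open scoped ENNReal

namespace Vale.Agent.P087

set_option linter.unusedSectionVars false

variable {B P : Type} [Fintype B] [Fintype P] {c : B → ℝ}

/-- the quadratic form -/
def QQ (c : B → ℝ) (x : B → P → ℝ) : ℝ := ∑ b, c b * ∑ p, x b p ^ 2

theorem exp_QQ (x : B → P → ℝ) :
    Real.exp (-QQ c x) = ∏ b, ∏ p, Real.exp (-c b * x b p ^ 2) := by
  simp only [← Real.exp_sum, QQ, mul_sum, neg_mul, sum_neg_distrib]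

theorem continuous_QQ : Continuous (QQ (P := P) c) := by
  unfold QQ; fun_prop

theorem integrable_QQ (hc : ∀ b, 0 < c b) :
    Integrable fun x : B → P → ℝ => Real.exp (-QQ c x) := by
  simp only [exp_QQ]
  exact Integrable.fintype_prod (f := fun b (y : P → ℝ) => ∏ p, Real.exp (-c b * y p ^ 2))
    fun b => Integrable.fintype_prod (f := fun _ (t : ℝ) => Real.exp (-c b * t ^ 2))
      fun _ => integrable_exp_neg_mul_sq (hc b)

/-- the normalizing constant -/
noncomputable def ZQ (P : Type) [Fintype P] (c : B → ℝ) : ℝ :=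
  ∏ b, Real.sqrt (Real.pi / c b) ^ Fintype.card P

theorem ZQ_pos (hc : ∀ b, 0 < c b) : 0 < ZQ P c :=
  prod_pos fun b _ => pow_pos (Real.sqrt_pos.2 (div_pos Real.pi_pos (hc b))) _

theorem integral_QQ : ∫ x : B → P → ℝ, Real.exp (-QQ c x) = ZQ P c := by
  simp only [exp_QQ]
  rw [integral_fintype_prod_volume_eq_prod
    (fun b (y : P → ℝ) => ∏ p, Real.exp (-c b * y p ^ 2))]
  refine prod_congr rfl fun b _ => ?_
  rw [integral_fintype_prod_volume_eq_pow (fun t : ℝ => Real.exp (-c b * t ^ 2)), integral_gaussian]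

theorem lintegral_QQ (hc : ∀ b, 0 < c b) :
    ∫⁻ x : B → P → ℝ, ENNReal.ofReal (Real.exp (-QQ c x)) = ENNReal.ofReal (ZQ P c) := by
  rw [← integral_QQ, ofReal_integral_eq_lintegral_ofReal (integrable_QQ hc)
    (ae_of_all _ fun _ => (Real.exp_pos _).le)]

theorem measurable_QQ : Measurable fun x : B → P → ℝ => ENNReal.ofReal (Real.exp (-QQ c x)) :=
  (Real.continuous_exp.comp continuous_QQ.neg).measurable.ennreal_ofReal

/-- the Gaussian probability measure -/
noncomputable def GM (P : Type) [Fintype P] (c : B → ℝ) : Measure (B → P → ℝ) :=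
  volume.tilted fun x => -QQ c x

theorem GM_prob (hc : ∀ b, 0 < c b) : IsProbabilityMeasure (GM P c) :=
  isProbabilityMeasure_tilted (integrable_QQ hc)

theorem GM_le (hc : ∀ b, 0 < c b) {S : Set (B → P → ℝ)} {g : (B → P → ℝ) → ℝ≥0∞}
    (hg : Measurable g) (h : ∀ x ∈ S, ENNReal.ofReal (Real.exp (-QQ c x)) ≤ g x) :
    GM P c S * ENNReal.ofReal (ZQ P c) ≤ ∫⁻ x, g x := by
  have := ZQ_pos (P := P) hc
  rw [GM, tilted_apply, ← lintegral_mul_const' _ _ ENNReal.ofReal_ne_top, integral_QQ]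
  refine (setLIntegral_mono hg fun x hx => ?_).trans (setLIntegral_le_lintegral _ _)
  rw [← ENNReal.ofReal_mul (by positivity), div_mul_cancel₀ _ this.ne']
  exact h x hx

/-- polynomial functions -/
def Pol (B P : Type) : Subalgebra ℂ ((B → P → ℝ) → ℂ) :=
  Algebra.adjoin ℂ (Set.range fun i : B × P => fun x => (x i.1 i.2 : ℂ))

theorem coord_mem (b : B) (p : P) : (fun x => (x b p : ℂ)) ∈ Pol B P :=
  Algebra.subset_adjoin ⟨(b, p), rfl⟩

theorem QQ_nonneg (hc : ∀ b, 0 < c b) (x : B → P → ℝ) : 0 ≤ QQ c x :=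
  sum_nonneg fun b _ => mul_nonneg (hc b).le (by positivity)

theorem Pol_growth (hc : ∀ b, 0 < c b) {f : (B → P → ℝ) → ℂ} (hf : f ∈ Pol B P) :
    Continuous f ∧ ∀ δ > 0, ∃ C, ∀ x, ‖f x‖ ≤ C * Real.exp (δ * QQ c x) := by
  induction hf using Algebra.adjoin_induction with
  | mem f hf =>
    obtain ⟨⟨b, p⟩, rfl⟩ := hf
    refine ⟨by fun_prop, fun δ hδ => ⟨1 + (δ * c b)⁻¹, fun x => ?_⟩⟩
    have h0 := hc b
    have h1 : c b * x b p ^ 2 ≤ QQ c x :=
      le_trans (mul_le_mul_of_nonneg_left (single_le_sum (f := fun p => x b p ^ 2)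
        (fun _ _ => sq_nonneg _) (mem_univ p)) h0.le)
        (single_le_sum (f := fun b => c b * ∑ p, x b p ^ 2)
          (fun b _ => mul_nonneg (hc b).le (by positivity)) (mem_univ b))
    have h2 := Real.add_one_le_exp (δ * QQ c x)
    have h3 : 0 ≤ δ * QQ c x := mul_nonneg hδ.le (QQ_nonneg hc x)
    have h4 : x b p ^ 2 ≤ (δ * c b)⁻¹ * Real.exp (δ * QQ c x) := by
      rw [le_inv_mul_iff₀ (by positivity)]
      nlinarith
    rw [Complex.norm_real, Real.norm_eq_abs, add_mul]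
    nlinarith [sq_abs (x b p), abs_nonneg (x b p)]
  | algebraMap r =>
    exact ⟨continuous_const, fun δ hδ => ⟨‖r‖, fun x => le_mul_of_one_le_right (norm_nonneg _)
      (Real.one_le_exp (mul_nonneg hδ.le (QQ_nonneg hc x)))⟩⟩
  | add f g _ _ h1 h2 =>
    refine ⟨h1.1.add h2.1, fun δ hδ => ?_⟩
    obtain ⟨C, hC⟩ := h1.2 δ hδ
    obtain ⟨D, hD⟩ := h2.2 δ hδ
    exact ⟨C + D, fun x => (norm_add_le _ _).trans (by rw [add_mul]; exact add_le_add (hC x) (hD x))⟩
  | mul f g _ _ h1 h2 =>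
    refine ⟨h1.1.mul h2.1, fun δ hδ => ?_⟩
    obtain ⟨C, hC⟩ := h1.2 (δ / 2) (by positivity)
    obtain ⟨D, hD⟩ := h2.2 (δ / 2) (by positivity)
    refine ⟨C * D, fun x => (norm_mul_le _ _).trans ((mul_le_mul (hC x) (hD x) (norm_nonneg _)
      ((norm_nonneg _).trans (hC x))).trans (le_of_eq ?_))⟩
    rw [mul_mul_mul_comm, ← Real.exp_add]
    ring_nf

theorem Pol_int (hc : ∀ b, 0 < c b) {f : (B → P → ℝ) → ℂ} (hf : f ∈ Pol B P) :
    Integrable fun x => Real.exp (-QQ c x) • f x := by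
  obtain ⟨h1, h2⟩ := Pol_growth hc hf
  obtain ⟨C, hC⟩ := h2 (1 / 2) (by norm_num)
  refine ((integrable_QQ (P := P) (c := fun b => c b / 2) fun b => half_pos (hc b)).const_mul
    C).mono' (((Real.continuous_exp.comp continuous_QQ.neg).smul h1).aestronglyMeasurable)
    (ae_of_all _ fun x => ?_)
  have e : QQ (fun b => c b / 2) x = 1 / 2 * QQ c x := by
    simp only [QQ, mul_sum]
    exact sum_congr rfl fun _ _ => sum_congr rfl fun _ _ => by ring
  rw [norm_smul, Real.norm_of_nonneg (Real.exp_pos _).le, e]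
  refine (mul_le_mul_of_nonneg_left (hC x) (Real.exp_pos _).le).trans (le_of_eq ?_)
  rw [mul_left_comm, ← Real.exp_add]
  ring_nf

theorem Pol_integrable (hc : ∀ b, 0 < c b) {f : (B → P → ℝ) → ℂ} (hf : f ∈ Pol B P) :
    Integrable f (GM P c) :=
  (integrable_tilted_iff (integrable_QQ hc) f).2 (Pol_int hc hf)

theorem Pol_deriv {f : (B → P → ℝ) → ℂ} (hf : f ∈ Pol B P) (v : B → P → ℝ) :
    ∃ f' ∈ Pol B P, ∀ x, HasDerivAt (fun t : ℝ => f (x + t • v)) (f' x) 0 := by
  induction hf using Algebra.adjoin_induction with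
  | mem f hf =>
    obtain ⟨⟨b, p⟩, rfl⟩ := hf
    refine ⟨_, (Pol B P).algebraMap_mem (v b p), fun x => ?_⟩
    simpa using (((hasDerivAt_id (0 : ℝ)).mul_const (v b p)).const_add (x b p)).ofReal_comp
  | algebraMap r => exact ⟨0, zero_mem _, fun x => hasDerivAt_const _ _⟩
  | add f g _ _ h1 h2 =>
    obtain ⟨f', hf', h1⟩ := h1
    obtain ⟨g', hg', h2⟩ := h2
    exact ⟨f' + g', add_mem hf' hg', fun x => (h1 x).add (h2 x)⟩
  | mul f g hf hg h1 h2 =>
    obtain ⟨f', hf', h1⟩ := h1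
    obtain ⟨g', hg', h2⟩ := h2
    exact ⟨f' * g + f * g', add_mem (mul_mem hf' hg) (mul_mem hf hg'), fun x => by
      have := (h1 x).fun_mul (h2 x)
      simp only [zero_smul, add_zero] at this
      exact this⟩

variable [DecidableEq B] [DecidableEq P]

/-- coordinate directions -/
def dir (b : B) (p : P) : B → P → ℝ := Pi.single b (Pi.single p 1)

theorem stein (hc : ∀ b, 0 < c b) {f f' : (B → P → ℝ) → ℂ} (hf : f ∈ Pol B P) (b : B) (p : P)
    (hd : ∀ x, HasDerivAt (fun t : ℝ => f (x + t • dir b p)) (f' x) 0) :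
    f' ∈ Pol B P ∧ ∫ x, x b p * f x ∂GM P c = (2 * c b : ℂ)⁻¹ * ∫ x, f' x ∂GM P c := by
  have hf' : f' ∈ Pol B P := by
    obtain ⟨g, hg, h⟩ := Pol_deriv hf (dir b p)
    exact (funext fun x => (h x).unique (hd x) : g = f') ▸ hg
  refine ⟨hf', ?_⟩
  have hQ : ∀ x : B → P → ℝ, HasDerivAt (fun t : ℝ => Real.exp (-QQ c
      (x + t • dir b p))) (Real.exp (-QQ c x) * -(2 * c b * x b p)) 0 := by
    intro x
    have : HasDerivAt (fun t : ℝ => QQ c (x + t • dir b p))
        (∑ b', c b' * ∑ p', 2 * x b' p' * dir b p b' p') 0 := by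
      refine HasDerivAt.fun_sum fun b' _ => HasDerivAt.const_mul _ (HasDerivAt.fun_sum
        fun p' _ => ?_)
      have := (((hasDerivAt_id (0 : ℝ)).mul_const (dir b p b' p')).const_add (x b' p')).fun_pow 2
      simp only [id, zero_mul, add_zero, one_mul, Nat.cast_ofNat, Nat.add_one_sub_one,
        pow_one] at this
      exact this
    rw [sum_eq_single b (fun b' _ h => by simp [h, dir]) (by simp),
      sum_eq_single p (fun p' _ h => by simp [h, dir]) (by simp)] at this
    have e : dir b p b p = 1 := by simp [dir]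
    convert this.fun_neg.exp using 1
    rw [zero_smul, add_zero, e]
    ring
  have : Measure.IsAddHaarMeasure (volume : Measure (B → P → ℝ)) :=
    Measure.pi.isAddHaarMeasure _
  have h1 : (fun x => (-(2 * c b * x b p : ℝ) : ℂ) * f x) ∈ Pol B P := by
    convert mul_mem (neg_mem (mul_mem ((Pol B P).algebraMap_mem (2 * c b)) (coord_mem b p))) hf
      using 1
    ext x
    simp
  have key := integral_bilinear_hasLineDerivAt_right_eq_neg_left_of_integrable
    (B := ContinuousLinearMap.lsmul ℝ ℝ) (μ := volume) (g := f) (g' := f')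
    (f := fun x : B → P → ℝ => Real.exp (-QQ c x))
    (by simpa [mul_assoc] using Pol_int hc h1) (Pol_int hc hf') (Pol_int hc hf)
    (fun x _ => hQ x) (fun x _ => hd x)
  have h0 : (2 * c b : ℂ) ≠ 0 := by exact_mod_cast (mul_pos two_pos (hc b)).ne'
  simp only [GM, integral_tilted, div_eq_inv_mul, mul_smul, integral_smul]
  rw [mul_smul_comm]
  congr 1
  simp only [ContinuousLinearMap.lsmul_apply] at key
  rw [key, eq_inv_mul_iff_mul_eq₀ h0, ← integral_const_mul, ← integral_neg]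
  congr 1
  ext x
  simp
  ring

end Vale.Agent.P087
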