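import Vale.Agent.P087.Vol
import Vale.Agent.P087.Fock

/-! The operator model. -/

open Finset
open scoped InnerProductSpace ENNReal

namespace Vale.Agent.P087

set_option linter.unusedSectionVars false

variable {H : Type} [NormedAddCommGroup H] [InnerProductSpace ℂ H] [CompleteSpace H]
variable {ι C : Type} [Fintype ι] [DecidableEq ι] [Fintype C] [DecidableEq C] {Ω : H}

theorem comm_apply {S T : H →L[ℂ] H} (h : Commute S T) (θ : H) : S (T θ) = T (S θ) :=
  congrArg (fun T : H →L[ℂ] H => T θ) h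

theorem low_of_right {Z W : ι → H →L[ℂ] H} {T : H →L[ℂ] H} (h1 : ∀ i k, Commute (Z i) (W k))
    (h2 : ∀ k, W k Ω = Z k Ω) (h3 : ∀ k θ, ∃ c : ℂ, T (W k θ) = W k (T θ) + c • Ω) (h4 : T Ω = 0)
    (u : List ι) : T (word Z u Ω) ∈ Deg Ω Z u.length := by
  have e : ∀ (v : List ι) k, word Z (v ++ [k]) Ω = W k (word Z v Ω) := fun v k => by
    have : Commute (word Z v) (W k) := Commute.list_prod_left _ _ fun x hx => by
      obtain ⟨i, -, rfl⟩ := List.mem_map.1 hx
      exact h1 i k
    rw [word_append, word_cons, word_nil, mul_one]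
    exact (congrArg (fun θ => (word Z v : H →L[ℂ] H) θ) (h2 k).symm).trans (comm_apply this Ω)
  induction u using List.reverseRecOn with
  | nil => exact h4.symm ▸ zero_mem _
  | append_singleton u k ih =>
    obtain ⟨c, hc⟩ := h3 k (word Z u Ω)
    rw [e, hc]
    refine add_mem (Submodule.span_le (p := (Deg Ω Z (u ++ [k]).length).comap
      (W k : H →ₗ[ℂ] H)).2 ?_ ih) (Submodule.smul_mem _ _ (Submodule.subset_span
        ⟨[], by simp, rfl⟩))
    rintro _ ⟨v, hv, rfl⟩
    exact Submodule.subset_span ⟨v ++ [k], by simpa using hv, (e v k).symm⟩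

theorem pol_commute {R : Type} [Semiring R] {s : C → R} {T : R} (h : ∀ a, Commute T (s a))
    (i : C ⊕ C × C × C) : Commute T (pol s i) := by
  rcases i with a | x
  · exact h a
  · exact (((h _).mul_right (h _)).mul_right (h _)).add_right
      (((h _).mul_right (h _)).mul_right (h _))

variable (l : C ⊕ ι ⊕ ι → H →L[ℂ] H) (φ : ι → C ⊕ C × C × C) (η : ι → ℝ)

/-- the signal -/
noncomputable def YY (i : ι) : H →L[ℂ] H := pol (fun c => fld l (.inl c)) (φ i)

/-- the noise creation operators -/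
noncomputable def NN (t : ℝ) (i : ι) : H →L[ℂ] H :=
  (η i : ℂ) • l (.inr (.inl i)) + (Real.sqrt t : ℂ) • l (.inr (.inr i))

/-- the tuple -/
noncomputable def XX (i : ι) : H →L[ℂ] H := YY l φ i + (η i : ℂ) • fld l (.inr (.inl i))

/-- the free semicircular family -/
noncomputable def SS (i : ι) : H →L[ℂ] H := fld l (.inr (.inr i))

theorem star_NN (t : ℝ) (i : ι) : star (NN l η t i) =
    (η i : ℂ) • star (l (.inr (.inl i))) + (Real.sqrt t : ℂ) • star (l (.inr (.inr i))) := by
  simp [NN]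

theorem ZZ_eq (t : ℝ) (i : ι) :
    ZZ (YY l φ) (NN l η t) i = XX l φ η i + (Real.sqrt t : ℂ) • SS l i := by
  rw [ZZ, star_NN, NN, XX, SS, fld, fld]
  module

theorem YY_sa (i : ι) : IsSelfAdjoint (YY l φ i) := pol_star _ fun _ => fld_sa l _

theorem XX_sa (i : ι) : IsSelfAdjoint (XX l φ η i) :=
  (YY_sa l φ i).add (IsSelfAdjoint.smul (Complex.conj_ofReal _) (fld_sa l _))

variable {l} {r : C ⊕ ι ⊕ ι → H →L[ℂ] H} (h : Fock Ω l r)
include h

theorem XX_mem (i : ι) : XX l φ η i ∈ MM r :=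
  add_mem (pol_mem _ fun _ => h.s_mem _) ((MM r).toStarSubalgebra.smul_mem (h.s_mem _) _)

theorem model_sys (hη : ∀ i, 0 < η i) (t : ℝ) :
    Sys Ω (YY l φ) (NN l η t) (NN r η t) fun i => η i ^ 2 + Real.sqrt t ^ 2 where
  norm_one := h.norm_one
  pos := fun i => add_pos_of_pos_of_nonneg (pow_pos (hη i) 2) (sq_nonneg _)
  sa := YY_sa l φ
  LR := fun i k θ => by
    rw [star_NN]
    simp only [NN, add_apply, smul_apply, map_add, map_smul, h.lr', Sum.inr.injEq, Sum.inl.injEq,
      reduceCtorEq, if_false]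
    split_ifs with e
    · subst e
      push_cast
      module
    · module
  YR := fun i k θ => by
    have : ∀ a, Commute (r (.inr a)) (YY l φ i) := fun a => pol_commute (fun c =>
      ContinuousLinearMap.ext fun θ => by simpa using (h.s_r (.inl c) (.inr a) θ).symm) _
    exact comm_apply (((this _).smul_left _).add_left ((this _).smul_left _)).symm θ
  LR' := fun i k θ => by
    simp only [NN, add_apply, smul_apply, map_add, map_smul, h.lr]
    module
  LY := fun i p => by
    have : ∀ a, star (l (.inr a)) (word (YY l φ) p Ω) = 0 := fun a =>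
      h.ls_alg (B := Set.range .inl) (by simp) (word_mem (fun _ => pol_mem _ fun c =>
        Algebra.subset_adjoin (Set.mem_image_of_mem _ (Set.mem_range_self c))) p)
    simp [star_NN, this]
  RΩ := fun k θ => by simp [NN, h.rΩ]
  LΩ := fun i => by simp [NN, h.lrΩ]
  low := fun i => by
    have hc : ∀ a b θ, fld r a (fld l b θ) = fld l b (fld r a θ) := fun a b θ =>
      comm_apply (mem_MM.1 (h.s_mem b) a) θ
    refine low_of_right (W := ZZ (YY r φ) (NN r η t)) (fun j k => ?_) (fun k => ?_)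
      (fun k θ => ?_) (by simp [star_NN, h.lΩ])
    · have : ∀ a, Commute (ZZ (YY l φ) (NN l η t) j) (fld r a) := fun a => by
        rw [ZZ_eq]
        exact (mem_MM.1 (add_mem (XX_mem φ η h j) ((MM r).toStarSubalgebra.smul_mem
          (h.s_mem _) _)) a).symm
      rw [ZZ_eq r]
      exact ((pol_commute (fun _ => this _) _).add_right ((this _).smul_right _)).add_right
        ((this _).smul_right _)
    · simp only [ZZ_eq, XX, SS, YY, add_apply, smul_apply, h.sr_Ω]
      congr 2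
      rcases φ k with a | x
      · exact h.sr_Ω _
      · simp only [pol, add_apply, mul_apply_eq_comp, h.sr_Ω, hc, add_comm]
    · have : ∀ a θ, star (l (.inr a)) (YY r φ k θ) = YY r φ k (star (l (.inr a)) θ) := fun a θ =>
        comm_apply (pol_commute (T := star (l (.inr a))) (s := fun c => fld r (.inl c)) (fun c =>
          ContinuousLinearMap.ext fun θ => by simpa using h.ls_sr (.inr a) (.inl c) θ) (φ k)) θ
      refine ⟨if i = k then (η i * η k + Real.sqrt t ^ 2) * ⟪Ω, θ⟫_ℂ else 0, ?_⟩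
      simp only [star_NN, ZZ_eq, XX, SS, add_apply, smul_apply, map_add, map_smul, this, h.ls_sr,
        Sum.inr.injEq, Sum.inl.injEq, reduceCtorEq, if_false]
      split_ifs <;> module

theorem norm_YY (i : ι) : ‖YY l φ i‖ ≤ 16 := by
  have h3 : ∀ a b c, ‖fld l a * fld l b * fld l c‖ ≤ 8 := fun a b c =>
    (norm_mul_le_of_le (norm_mul_le_of_le (h.norm_s a) (h.norm_s b)) (h.norm_s c)).trans
      (by norm_num)
  rw [YY]
  rcases φ i with a | x
  · exact (h.norm_s _).trans (by norm_num)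
  · exact (norm_add_le_of_le (h3 _ _ _) (h3 _ _ _)).trans (by norm_num)

theorem norm_sum_YY (e : ι ≃ C ⊕ C × C × C) {q : ℝ} (hq : 1 ≤ q)
    (hC : (Fintype.card C : ℝ) = q ^ 2) : ‖∑ i, YY l e i‖ ≤ 18 * q ^ 3 := by
  have h1 : ‖∑ c, fld l (.inl c)‖ ≤ 2 * q := by
    have := h.norm_sum_s (univ.map Function.Embedding.inl)
    rwa [sum_map, card_map, card_univ, hC, Real.sqrt_sq (by positivity)] at this
  have h2 : ∑ x : C × C × C, fld l (.inl x.1) * fld l (.inl x.2.1) * fld l (.inl x.2.2) =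
      (∑ c, fld l (.inl c)) * (∑ c, fld l (.inl c)) * ∑ c, fld l (.inl c) := by
    simp only [Fintype.sum_prod_type, ← mul_sum, ← sum_mul]
  have h3 : ∑ x : C × C × C, fld l (.inl x.2.2) * fld l (.inl x.2.1) * fld l (.inl x.1) =
      (∑ c, fld l (.inl c)) * (∑ c, fld l (.inl c)) * ∑ c, fld l (.inl c) := by
    simp only [Fintype.sum_prod_type, ← mul_sum, ← sum_mul]
  have h4 := norm_mul_le_of_le (norm_mul_le_of_le h1 h1) h1
  simp only [YY]
  rw [e.sum_comp (pol fun c => fld l (.inl c)), Fintype.sum_sum_type]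
  simp only [pol, sum_add_distrib, h2, h3]
  refine (norm_add_le_of_le h1 (norm_add_le_of_le h4 h4)).trans ?_
  nlinarith [one_le_pow₀ (n := 2) hq]

theorem norm_s_Ω (a : C ⊕ ι ⊕ ι) : ‖fld l a Ω‖ = 1 := by
  have : ⟪fld l a Ω, fld l a Ω⟫_ℂ = 1 := by
    rw [h.s_Ω, ← h.lrΩ, ← inner_star_right, h.ll, if_pos rfl, h.inner_Ω]
  refine (pow_eq_one_iff_of_nonneg (norm_nonneg _) two_ne_zero).1 ?_
  rw [← inner_self_eq_norm_sq (𝕜 := ℂ), this, RCLike.one_re]

theorem one_le_YY (i : ι) : 1 ≤ ‖YY l φ i Ω‖ := by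
  rw [YY]
  rcases φ i with a | ⟨a, b, c⟩
  · exact (norm_s_Ω h _).ge
  have h1 : ∀ a θ, ‖star (l a) θ‖ ≤ ‖θ‖ := fun a θ => ((star (l a)).le_opNorm θ).trans
    (mul_le_of_le_one_left (norm_nonneg _) (by simpa using h.norm_sum_l {a}))
  refine le_trans ?_ ((h1 (.inl c) _).trans ((h1 (.inl b) _).trans (h1 (.inl a) _)))
  have hi : ∀ (T : H →L[ℂ] H) (p : Prop) [Decidable p] (x : H),
      T (if p then x else 0) = if p then T x else 0 := fun T p _ x => by split_ifs <;> simp
  simp only [pol, add_apply, mul_apply_eq_comp, fld_apply, map_add, h.ll, h.lΩ, hi,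
    if_true, add_zero, ite_self, Sum.inl.injEq]
  by_cases e : a = c
  · simp only [e, if_true]
    rw [← two_smul ℂ, norm_smul, h.norm_one]
    simp
  · simp [e, h.norm_one]

theorem model_free : IsFree Ω fun o : Option ι => o.elim (Set.range (XX l φ η)) fun j =>
    {SS l j} := by
  let g : C ⊕ ι ⊕ ι → Option ι := Sum.elim (fun _ => none) (Sum.elim (fun _ => none) some)
  have hg : ∀ a, fld l a ∈ Algebra.adjoin ℂ (fld l '' (g ⁻¹' {g a})) := fun a =>
    Algebra.subset_adjoin (Set.mem_image_of_mem _ rfl)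
  refine h.isFree (pairwise_disjoint_fiber g) ?_
  rintro (_ | j)
  · rintro _ ⟨i, rfl⟩
    exact add_mem (pol_mem _ fun c => hg (.inl c)) (Subalgebra.smul_mem _ (hg (.inr (.inl i))) _)
  · rintro _ rfl
    exact hg (.inr (.inr j))

theorem model_lower (hη : ∀ i, 0 < η i) : ⊥ < chi Ω (XX l φ η) := by
  have hf : Function.Injective (Sum.map id Sum.inl : C ⊕ ι → C ⊕ ι ⊕ ι) :=
    Function.injective_id.sumMap Sum.inl_injective
  convert chi_lower (s := fun b => ((Sum.elim (fun _ => 1) η b : ℝ) : ℂ) •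
    fld l (Sum.map id Sum.inl b)) (θ := fun b => Sum.elim (fun _ => 1) η b ^ 2) ?_ h.norm_one
    (fun b => IsSelfAdjoint.smul (Complex.conj_ofReal _) (fld_sa l _))
    (fun j u => by rw [h.mom_cons hf, Complex.ofReal_pow]) φ using 2
  · ext1 i
    simp [XX, YY]
  · rintro (c | i)
    · simp
    · exact pow_pos (hη i) 2

theorem model_upper (e : ι ≃ C ⊕ C × C × C) {η0 T : ℝ} (h0 : 0 ≤ η0) (h1 : η0 ≤ 1)
    (hT : Fintype.card ι * (1 + 192 * η0) ^ 2 < T) :
    chi Ω (XX l e fun i => Sum.elim (fun _ => η0) (fun _ => 1) (e i)) ≤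
      (T / 2 + Fintype.card ι / 2 * Real.log (2 * Real.pi) : ℝ) := by
  refine chi_upper h.norm_one (XX_sa l _ _) e (lt_of_le_of_lt ?_ hT)
  simp only [XX, YY, Equiv.apply_symm_apply, Sum.elim_inl, Sum.elim_inr]
  let s : C → H →L[ℂ] H := fun c => fld l (.inl c)
  let d : C → H →L[ℂ] H := fun c => (η0 : ℂ) • fld l (.inr (.inl (e.symm (.inl c))))
  have hs : ∀ c, ‖s c‖ ≤ 4 := fun c => (h.norm_s _).trans (by norm_num)
  have hd : ∀ c, ‖d c‖ ≤ 2 * η0 := fun c => by
    rw [norm_smul, Complex.norm_real, Real.norm_of_nonneg h0, mul_comm]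
    exact mul_le_mul_of_nonneg_right (h.norm_s _) h0
  have hx : ∀ c, ‖s c + d c‖ ≤ 4 := fun c =>
    (norm_add_le_of_le (h.norm_s _) (hd c)).trans (by linarith)
  have h3 : ∀ a b c, ‖s a * s b * s c - (s a + d a) * (s b + d b) * (s c + d c)‖ ≤ 96 * η0 := by
    intro a b c
    rw [norm_sub_rev, show (s a + d a) * (s b + d b) * (s c + d c) - s a * s b * s c =
      d a * (s b + d b) * (s c + d c) + s a * d b * (s c + d c) + s a * s b * d c by noncomm_ring]
    refine (norm_add_le_of_le (norm_add_le_of_le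
      (norm_mul_le_of_le (norm_mul_le_of_le (hd a) (hx b)) (hx c))
      (norm_mul_le_of_le (norm_mul_le_of_le (hs a) (hd b)) (hx c)))
      (norm_mul_le_of_le (norm_mul_le_of_le (hs a) (hs b)) (hd c))).trans (by linarith)
  have hΩ : ∀ x : H →L[ℂ] H, ‖x Ω‖ ≤ ‖x‖ := fun x => by simpa [h.norm_one] using x.le_opNorm Ω
  rw [Fintype.card_congr e, Fintype.card_sum, Nat.cast_add, add_mul, ← nsmul_eq_mul,
    ← nsmul_eq_mul]
  refine add_le_add (sum_le_card_nsmul _ _ _ fun c _ => pow_le_pow_left₀ (norm_nonneg _) ?_ 2)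
    (sum_le_card_nsmul _ _ _ fun x _ => pow_le_pow_left₀ (norm_nonneg _) ?_ 2)
  · exact (norm_add_le_of_le (norm_s_Ω h _).le ((hΩ _).trans (hd c))).trans (by linarith)
  · rw [Complex.ofReal_one, one_smul, add_sub_right_comm, add_apply, add_comm]
    refine norm_add_le_of_le (norm_s_Ω h _).le ((hΩ _).trans ?_)
    simp only [pol]
    rw [add_sub_add_comm]
    exact (norm_add_le_of_le (h3 _ _ _) (h3 _ _ _)).trans (by linarith)

end Vale.Agent.P087
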