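import Vale.Agent.P087.Model

/-! The nonmicrostates entropy of the model. -/

open Finset MeasureTheory Filter Topology
open scoped InnerProductSpace ENNReal

namespace Vale.Agent.P087

set_option linter.unusedSectionVars false

theorem lint_log {a b r : ℝ} (ha : 0 < a) (hab : a ≤ b) (hr : 0 ≤ r) :
    ∫⁻ t in Set.Ioi (0 : ℝ), ENNReal.ofReal (r * ((a + t)⁻¹ - (b + t)⁻¹)) =
      ENNReal.ofReal (r * (Real.log b - Real.log a)) := by
  have hd : ∀ t ∈ Set.Ici (0 : ℝ), HasDerivAt (fun t => r * (Real.log (a + t) - Real.log (b + t)))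
      (r * ((a + t)⁻¹ - (b + t)⁻¹)) t := fun t ht => by
    have ht' : 0 ≤ t := ht
    have := ((((hasDerivAt_id t).const_add a).log (by simp; linarith)).sub
      (((hasDerivAt_id t).const_add b).log (by simp; linarith))).const_mul r
    simp only [id, one_div] at this
    exact this
  have hp : ∀ t ∈ Set.Ioi (0 : ℝ), 0 ≤ r * ((a + t)⁻¹ - (b + t)⁻¹) := fun t ht => by
    have ht' : 0 < t := ht
    exact mul_nonneg hr (sub_nonneg.2 (inv_anti₀ (by linarith) (by linarith)))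
  have hl : Tendsto (fun t => r * (Real.log (a + t) - Real.log (b + t))) atTop (𝓝 (r * 0)) := by
    have h1 := (tendsto_const_nhds (x := (1 : ℝ))).sub ((tendsto_inv_atTop_zero.comp
      (tendsto_atTop_add_const_left atTop b tendsto_id)).const_mul (b - a))
    have h2 := h1.log (by simp)
    simp only [mul_zero, sub_zero, Real.log_one] at h2
    refine (h2.congr' ?_).const_mul r
    filter_upwards [eventually_gt_atTop 0] with t ht
    have h3 : b + t ≠ 0 := by linarith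
    rw [← Real.log_div (by linarith) h3]
    congr 1
    simp only [Function.comp, id]
    field_simp
    ring
  rw [← ofReal_integral_eq_lintegral_ofReal (integrableOn_Ioi_deriv_of_nonneg' hd hp hl)
    ((ae_restrict_iff' measurableSet_Ioi).2 (ae_of_all _ hp)),
    integral_Ioi_of_hasDerivAt_of_nonneg' hd hp hl]
  congr 1
  simp only [add_zero]
  ring

theorem lint_sq {a K : ℝ} (ha : 0 ≤ a) (hK : 0 ≤ K) :
    ∫⁻ t in Set.Ioi a, ENNReal.ofReal (K * (1 + t)⁻¹ ^ 2) = ENNReal.ofReal (K / (1 + a)) := by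
  have hd : ∀ t ∈ Set.Ici a, HasDerivAt (fun t => -K * (1 + t)⁻¹) (K * (1 + t)⁻¹ ^ 2) t :=
    fun t ht => by
      have ht' : a ≤ t := ht
      have := (((hasDerivAt_id t).const_add 1).fun_inv (by simp; linarith)).const_mul (-K)
      simp only [id] at this
      rwa [show -K * (-1 / (1 + t) ^ 2) = K * (1 + t)⁻¹ ^ 2 by rw [inv_pow]; ring] at this
  have hp : ∀ t ∈ Set.Ioi a, 0 ≤ K * (1 + t)⁻¹ ^ 2 := fun t _ => by positivity
  have hl := (tendsto_inv_atTop_zero.comp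
    (tendsto_atTop_add_const_left atTop (1 : ℝ) tendsto_id)).const_mul (-K)
  rw [← ofReal_integral_eq_lintegral_ofReal (integrableOn_Ioi_deriv_of_nonneg' hd hp hl)
    ((ae_restrict_iff' measurableSet_Ioi).2 (ae_of_all _ hp)),
    integral_Ioi_of_hasDerivAt_of_nonneg' hd hp hl]
  congr 1
  ring

theorem star_ge {F : ℝ → ℝ≥0∞} {N r a Λ : ℝ} (hr : 0 ≤ r) (ha : 0 < a) (ha1 : a ≤ 1) (hΛ : 1 ≤ Λ)
    (hK : 0 ≤ N - 2 * r - 8 * Λ)
    (h1 : ∀ t > 0, F t ≤ ENNReal.ofReal (N / (1 + t) + r * ((a + t)⁻¹ - (1 + t)⁻¹)))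
    (h2 : ∀ t ≥ 128 * Λ, F t ≤ ENNReal.ofReal (N / (1 + t) + r * ((a + t)⁻¹ - (1 + t)⁻¹) -
      N * (1 + t)⁻¹ ^ 2 + t⁻¹ ^ 2 * (2 * Λ))) :
    (((N - 2 * r - 8 * Λ) / (1 + 128 * Λ) - r * -Real.log a : ℝ) : EReal) ≤
      ((∫⁻ t in Set.Ioi (0 : ℝ), (ENNReal.ofReal (N / (1 + t)) - F t) : ℝ≥0∞) : EReal) -
        ((∫⁻ t in Set.Ioi (0 : ℝ), (F t - ENNReal.ofReal (N / (1 + t))) : ℝ≥0∞) : EReal) := by
  have h3 : ∫⁻ t in Set.Ioi (0 : ℝ), (F t - ENNReal.ofReal (N / (1 + t))) ≤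
      ENNReal.ofReal (r * -Real.log a) := by
    have := lint_log ha ha1 hr
    rw [Real.log_one, zero_sub] at this
    rw [← this]
    exact setLIntegral_mono' measurableSet_Ioi fun t ht =>
      tsub_le_iff_left.2 ((h1 t ht).trans ENNReal.ofReal_add_le)
  have h4 : ENNReal.ofReal ((N - 2 * r - 8 * Λ) / (1 + 128 * Λ)) ≤
      ∫⁻ t in Set.Ioi (0 : ℝ), (ENNReal.ofReal (N / (1 + t)) - F t) := by
    rw [← lint_sq (by positivity) hK]
    refine le_trans (setLIntegral_mono' measurableSet_Ioi fun t ht => ?_)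
      (lintegral_mono_set (Set.Ioi_subset_Ioi (by positivity : (0 : ℝ) ≤ 128 * Λ)))
    have ht' : 128 * Λ < t := ht
    have ht1 : 1 ≤ t := by linarith
    have e1 : t⁻¹ ≤ 2 * (1 + t)⁻¹ := by
      rw [← div_eq_mul_inv, inv_eq_one_div, div_le_div_iff₀ (by positivity) (by positivity)]
      linarith
    have e2 : (a + t)⁻¹ - (1 + t)⁻¹ ≤ 2 * (1 + t)⁻¹ ^ 2 := by
      have : (a + t)⁻¹ ≤ t⁻¹ := inv_anti₀ (by positivity) (by linarith)
      have e : t⁻¹ - (1 + t)⁻¹ = t⁻¹ * (1 + t)⁻¹ := by field_simp; ring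
      have := mul_le_mul_of_nonneg_right e1 (show 0 ≤ (1 + t)⁻¹ by positivity)
      nlinarith
    have e3 : t⁻¹ ^ 2 ≤ (2 * (1 + t)⁻¹) ^ 2 := by gcongr
    have e4 : (1 + t)⁻¹ ^ 2 ≤ (1 + t)⁻¹ :=
      pow_le_of_le_one (by positivity) (inv_le_one_of_one_le₀ (by linarith)) two_ne_zero
    have e5 : F t ≤ ENNReal.ofReal (N / (1 + t) - (N - 2 * r - 8 * Λ) * (1 + t)⁻¹ ^ 2) :=
      (h2 t ht'.le).trans (ENNReal.ofReal_le_ofReal (by nlinarith))
    refine le_trans (le_of_eq ?_) (tsub_le_tsub_left e5 _)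
    rw [ENNReal.ofReal_sub _ (by positivity), ENNReal.sub_sub_cancel ENNReal.ofReal_ne_top
      (ENNReal.ofReal_le_ofReal ?_)]
    rw [div_eq_mul_inv]
    exact mul_le_mul (by linarith) e4 (by positivity) (by linarith)
  rw [EReal.coe_sub]
  refine EReal.sub_le_sub (le_trans ?_ (EReal.coe_ennreal_le_coe_ennreal_iff.2 h4))
    ((EReal.coe_ennreal_le_coe_ennreal_iff.2 h3).trans (le_of_eq ?_))
  · rw [EReal.coe_ennreal_ofReal]
    exact EReal.coe_le_coe_iff.2 (le_max_left _ _)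
  · rw [EReal.coe_ennreal_ofReal, max_eq_left
      (mul_nonneg hr (neg_nonneg.2 (Real.log_nonpos ha.le ha1)))]

variable {H : Type} [NormedAddCommGroup H] [InnerProductSpace ℂ H] [CompleteSpace H]
variable {ι C : Type} [Fintype ι] [DecidableEq ι] [Fintype C] [DecidableEq C] {Ω : H}

theorem Phi_ge {Z : ι → H →L[ℂ] H} (hΩ : ‖Ω‖ = 1) (hZ : ∀ j, IsSelfAdjoint (Z j)) {V : ℝ}
    (hV : 0 < V) (h : ∀ j, ‖Z j Ω‖ ^ 2 ≤ V) : ENNReal.ofReal (Fintype.card ι / V) ≤ Phi Ω Z := by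
  refine le_iInf₂ fun ξ hξ => le_trans (le_of_eq ?_)
    (card_nsmul_le_sum _ _ (ENNReal.ofReal V⁻¹) fun j _ => ?_)
  · rw [div_eq_mul_inv, ENNReal.ofReal_mul (Nat.cast_nonneg _), ENNReal.ofReal_natCast,
      nsmul_eq_mul, card_univ]
  · have h1 := (hξ j).2 [j]
    rw [word_cons_apply, ← inner_star_left, (hZ j).star_eq] at h1
    have h2 := norm_inner_le_norm (𝕜 := ℂ) (Z j Ω) (word Z [] (ξ j))
    rw [h1] at h2
    simp only [dq, tr, List.length_singleton, range_one, sum_singleton] at h2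
    simp [hΩ] at h2
    rw [← ofReal_norm, ← ENNReal.ofReal_pow (norm_nonneg _)]
    refine ENNReal.ofReal_le_ofReal ((inv_le_iff_one_le_mul₀' hV).2 ?_)
    exact (one_le_pow₀ h2).trans ((mul_pow _ _ 2).trans_le
      (mul_le_mul_of_nonneg_right (h j) (sq_nonneg _)))

theorem Sys.norm_Z {Y L R : ι → H →L[ℂ] H} {σ : ι → ℝ} (h : Sys Ω Y L R σ) (j : ι) :
    ‖ZZ Y L j Ω‖ ^ 2 = ‖Y j Ω‖ ^ 2 + σ j := by
  have e : ZZ Y L j Ω = Y j Ω + R j Ω := by simp [ZZ, h.L_Ω, h.LΩ]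
  have h0 : ⟪R j Ω, Y j Ω⟫_ℂ = 0 := by
    have := h.LY j [j]
    rw [word_cons_apply] at this
    rw [← h.LΩ, ← inner_star_right]
    exact (congrArg _ this).trans (inner_zero_right _)
  rw [e, norm_add_sq (𝕜 := ℂ), inner_eq_zero_symm.1 h0, h.norm_R]
  simp

variable {l r : C ⊕ ι ⊕ ι → H →L[ℂ] H} (h : Fock Ω l r) {φ : ι → C ⊕ C × C × C} {η : ι → ℝ}
include h

theorem flow_eq (t : ℝ) : flow Ω (XX l φ η) (SS l) t = Phi Ω (ZZ (YY l φ) (NN l η t)) :=
  congrArg (Phi Ω) (funext fun j => (ZZ_eq l φ η t j).symm)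

theorem measurable_flow (hη : ∀ i, 0 < η i) : Measurable (flow Ω (XX l φ η) (SS l)) := by
  rw [show flow Ω (XX l φ η) (SS l) = _ from
    funext fun t => (flow_eq h t).trans (model_sys φ η h hη t).Phi_eq]
  refine Finset.measurable_sum _ fun j _ => measurable_proj (fun i => ?_) ?_
  · simp only [ZZ_eq]
    fun_prop
  · refine Continuous.smul (Continuous.inv₀ (by fun_prop) fun t => (model_sys φ η h hη t).σ_ne j) ?_
    simp only [NN, add_apply, smul_apply]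
    fun_prop

theorem pos_lt_top (hη : ∀ i, 0 < η i) (hη1 : ∀ i, η i ≤ 1) : ∫⁻ t in Set.Ioi (0 : ℝ),
    (ENNReal.ofReal (Fintype.card ι / (1 + t)) - flow Ω (XX l φ η) (SS l) t) < ⊤ := by
  refine lt_of_le_of_lt (setLIntegral_mono' measurableSet_Ioi fun t ht => ?_)
    ((lint_log (b := 257) one_pos (by norm_num) (Nat.cast_nonneg (Fintype.card ι))).trans_lt
      ENNReal.ofReal_lt_top)
  have ht' : 0 < t := ht
  have h1 := Phi_ge h.norm_one (model_sys φ η h hη t).Z_sa (V := 257 + t) (by positivity)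
    fun j => by
      have h2 : ‖YY l φ j Ω‖ ≤ 16 := ((YY l φ j).le_opNorm Ω).trans (by
        simpa [h.norm_one] using norm_YY φ h j)
      rw [(model_sys φ η h hη t).norm_Z, Real.sq_sqrt ht'.le]
      nlinarith [hη j, hη1 j, norm_nonneg (YY l φ j Ω)]
  rw [flow_eq h, mul_sub, ENNReal.ofReal_sub _ (by positivity)]
  exact tsub_le_tsub_left h1 _

theorem model_star (e : ι ≃ C ⊕ C × C × C) {η0 q : ℝ} (h0 : 0 < η0) (h1 : η0 ≤ 1) (hq : 1 ≤ q)
    (hC : (Fintype.card C : ℝ) = q ^ 2)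
    (hK : 0 ≤ Fintype.card ι - 2 * q ^ 2 - 8 * (16 * (18 * q ^ 3))) :
    let X := XX l e fun i => Sum.elim (fun _ => η0) (fun _ => 1) (e i)
    ∫⁻ t in Set.Ioi (0 : ℝ), (flow Ω X (SS l) t - ENNReal.ofReal (Fintype.card ι / (1 + t))) < ⊤ ∧
    ((1 / 2 * ((Fintype.card ι - 2 * q ^ 2 - 8 * (16 * (18 * q ^ 3))) /
      (1 + 128 * (16 * (18 * q ^ 3))) - q ^ 2 * -Real.log (η0 ^ 2)) +
        Fintype.card ι / 2 * Real.log (2 * Real.pi * Real.exp 1) : ℝ) : EReal) ≤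
      chiStar Ω X (SS l) := by
  intro X
  have hη : ∀ i, 0 < Sum.elim (fun _ => η0) (fun _ => (1 : ℝ)) (e i) := fun i => by
    cases e i
    · exact h0
    · exact one_pos
  have hη1 : ∀ i, Sum.elim (fun _ => η0) (fun _ => (1 : ℝ)) (e i) ^ 2 ≤ 1 := fun i => by
    cases e i
    · exact pow_le_one₀ h0.le h1
    · simp
  have hs : ∀ t > 0, ∑ i, (Sum.elim (fun _ => η0) (fun _ => (1 : ℝ)) (e i) ^ 2 +
      Real.sqrt t ^ 2)⁻¹ = Fintype.card ι / (1 + t) + q ^ 2 * ((η0 ^ 2 + t)⁻¹ - (1 + t)⁻¹) := by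
    intro t ht
    rw [e.sum_comp fun x => (Sum.elim (fun _ => η0) (fun _ => (1 : ℝ)) x ^ 2 + Real.sqrt t ^ 2)⁻¹,
      Fintype.sum_sum_type, Fintype.card_congr e, Fintype.card_sum, Nat.cast_add, ← hC,
      Real.sq_sqrt ht.le]
    simp only [Sum.elim_inl, Sum.elim_inr, sum_const, card_univ, nsmul_eq_mul]
    ring
  have h2 : ∀ t > 0, flow Ω X (SS l) t ≤ ENNReal.ofReal (Fintype.card ι / (1 + t) +
      q ^ 2 * ((η0 ^ 2 + t)⁻¹ - (1 + t)⁻¹)) := fun t ht => by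
    rw [flow_eq h, ← hs t ht]
    exact (model_sys _ _ h hη t).Phi_le
  have hq3 : 1 ≤ q ^ 3 := one_le_pow₀ hq
  refine ⟨lt_of_le_of_lt (setLIntegral_mono' measurableSet_Ioi fun t ht =>
    tsub_le_iff_left.2 ((h2 t ht).trans ENNReal.ofReal_add_le)) ((lint_log (pow_pos h0 2)
      (pow_le_one₀ h0.le h1) (sq_nonneg q)).trans_lt ENNReal.ofReal_lt_top), ?_⟩
  rw [EReal.coe_add, EReal.coe_mul]
  refine add_le_add_left (mul_le_mul_of_nonneg_left (star_ge (sq_nonneg q) (pow_pos h0 2)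
    (pow_le_one₀ h0.le h1) (by linarith) hK h2 fun t ht => ?_) (by norm_num)) _
  have ht' : 0 < t := by linarith
  rw [flow_eq h, ← hs t ht']
  refine (model_sys _ _ h hη t).Phi_le' (norm_YY _ h) (norm_sum_YY h e hq hC)
    (fun p => h.tr_nonneg (word_mem (fun i => pol_mem _ fun c =>
      Subsemiring.subset_closure (Set.mem_range_self _)) p)) ht' (fun i => ?_) (fun i => ?_)
    (one_le_YY _ h) (by norm_num) ht
  · rw [Real.sq_sqrt ht'.le]
    exact le_add_of_nonneg_left (sq_nonneg _)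
  · rw [Real.sq_sqrt ht'.le]
    exact add_le_add_left (hη1 i) _

end Vale.Agent.P087
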