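import Vale.Agent.P087.GUE

/-! Operator norm bounds for Gaussian matrices. -/

open Finset MeasureTheory Filter Topology
open scoped ENNReal InnerProductSpace

namespace Vale.Agent.P087

set_option linter.unusedSectionVars false

/-- A half-net of the unit ball with at most `5 ^ dim` points. -/
theorem exists_net (E : Type) [NormedAddCommGroup E] [NormedSpace ℝ E]
    [FiniteDimensional ℝ E] :
    ∃ N : Finset E, N.card ≤ 5 ^ Module.finrank ℝ E ∧ (∀ y ∈ N, ‖y‖ ≤ 1) ∧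
      ∀ x : E, ‖x‖ ≤ 1 → ∃ y ∈ N, ‖x - y‖ ≤ 1 / 2 := by
  classical
  let P : Finset E → Prop := fun s =>
    (∀ y ∈ s, ‖y‖ ≤ 1) ∧ ∀ c ∈ s, ∀ d ∈ s, c ≠ d → 1 / 2 ≤ ‖c - d‖
  have hbound : ∀ s, P s → s.card ≤ 5 ^ Module.finrank ℝ E := by
    intro s hs
    have hinj : Function.Injective (fun y : E => (2 : ℝ) • y) :=
      smul_right_injective E (by norm_num)
    have := Besicovitch.card_le_of_separated (s.image fun y : E => (2 : ℝ) • y) ?_ ?_
    · rwa [Finset.card_image_of_injective _ hinj] at this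
    · intro c hc
      obtain ⟨y, hy, rfl⟩ := Finset.mem_image.1 hc
      rw [norm_smul]
      have := hs.1 y hy
      simp only [Real.norm_ofNat]
      linarith
    · intro c hc d hd hcd
      obtain ⟨y, hy, rfl⟩ := Finset.mem_image.1 hc
      obtain ⟨z, hz, rfl⟩ := Finset.mem_image.1 hd
      have hyz : y ≠ z := fun h => hcd (by rw [h])
      rw [← smul_sub, norm_smul]
      have := hs.2 y hy z hz hyz
      simp only [Real.norm_ofNat]
      linarith
  let Q : ℕ → Prop := fun k => ∃ s, P s ∧ s.card = k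
  have hQ0 : Q 0 := ⟨∅, ⟨by simp, by simp⟩, rfl⟩
  have hmax := Nat.findGreatest_spec (P := Q) (Nat.zero_le (5 ^ Module.finrank ℝ E)) hQ0
  obtain ⟨N, hN, hcard⟩ := hmax
  refine ⟨N, hbound N hN, hN.1, fun x hx => ?_⟩
  by_contra hcon
  push Not at hcon
  have hxN : x ∉ N := by
    intro h
    have := hcon x h
    simp at this
    linarith
  have hP : P (insert x N) := by
    refine ⟨?_, ?_⟩
    · intro y hy
      rcases Finset.mem_insert.1 hy with rfl | hy
      · exact hx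
      · exact hN.1 y hy
    · intro c hc d hd hcd
      rcases Finset.mem_insert.1 hc with hc' | hc'
      · rcases Finset.mem_insert.1 hd with hd' | hd'
        · exact absurd (hc'.trans hd'.symm) hcd
        · rw [hc']; exact (hcon d hd').le
      · rcases Finset.mem_insert.1 hd with hd' | hd'
        · rw [norm_sub_rev, hd']; exact (hcon c hc').le
        · exact hN.2 c hc' d hd' hcd
  have h1 : Q (N.card + 1) := ⟨insert x N, hP, Finset.card_insert_of_notMem hxN⟩
  have h2 : N.card + 1 ≤ 5 ^ Module.finrank ℝ E := by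
    have := hbound _ hP
    rwa [Finset.card_insert_of_notMem hxN] at this
  have h3 := Nat.le_findGreatest h2 h1
  omega

theorem opNorm_le_of_net {E : Type} [NormedAddCommGroup E] [InnerProductSpace ℂ E]
    (Z : E →L[ℂ] E) (N : Finset E) (hN : ∀ x : E, ‖x‖ ≤ 1 → ∃ y ∈ N, ‖x - y‖ ≤ 1 / 2) (τ : ℝ)
    (hτ : 0 ≤ τ) (h : ∀ u ∈ N, ∀ v ∈ N, (⟪u, Z v⟫_ℂ).re ≤ τ) : ‖Z‖ ≤ 4 * τ := by
  have h1 : ∀ v ∈ N, ‖Z v‖ ≤ 2 * τ := by
    intro v hv
    by_cases h0 : Z v = 0
    · rw [h0, norm_zero]; linarith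
    have hpos : 0 < ‖Z v‖ := norm_pos_iff.2 h0
    obtain ⟨u, hu, hu2⟩ := hN (((‖Z v‖⁻¹ : ℝ) : ℂ) • Z v) (by
      rw [norm_smul, Complex.norm_real, norm_inv, norm_norm, inv_mul_cancel₀ hpos.ne'])
    have e1 : (⟪((‖Z v‖⁻¹ : ℝ) : ℂ) • Z v, Z v⟫_ℂ).re = ‖Z v‖ := by
      rw [inner_smul_left, Complex.conj_ofReal, Complex.re_ofReal_mul, ← RCLike.re_to_complex,
        inner_self_eq_norm_sq]
      field_simp
    have e2 : (⟪((‖Z v‖⁻¹ : ℝ) : ℂ) • Z v - u, Z v⟫_ℂ).re ≤ 1 / 2 * ‖Z v‖ :=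
      (re_inner_le_norm (𝕜 := ℂ) _ _).trans (mul_le_mul_of_nonneg_right hu2 hpos.le)
    rw [inner_sub_left, Complex.sub_re, e1] at e2
    have := h u hu v hv
    linarith
  have h2 : ∀ x : E, ‖x‖ ≤ 1 → ‖Z x‖ ≤ 2 * τ + ‖Z‖ / 2 := by
    intro x hx
    obtain ⟨y, hy, hy2⟩ := hN x hx
    have e1 : Z x = Z y + Z (x - y) := by rw [map_sub]; abel
    have e2 : ‖Z (x - y)‖ ≤ ‖Z‖ * (1 / 2) :=
      (Z.le_opNorm _).trans (mul_le_mul_of_nonneg_left hy2 (norm_nonneg _))
    rw [e1]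
    have := norm_add_le (Z y) (Z (x - y))
    have := h1 y hy
    linarith
  have h3 : ‖Z‖ ≤ 2 * τ + ‖Z‖ / 2 :=
    ContinuousLinearMap.opNorm_le_of_unit_norm (by positivity) fun x hx => h2 x hx.le
  linarith

variable {B : Type} [Fintype B] [DecidableEq B] {k : ℕ}

theorem chernoff {P : Type} [Fintype P] {c : B → ℝ} (hc : ∀ b, 0 < c b) (b : B) {γ : P → ℝ}
    (hγ : ∑ p, γ p ^ 2 ≤ 1) {l : ℝ} (hl : 0 ≤ l) (ρ : ℝ) :
    GM P c {x | ρ < ∑ p, x b p * γ p} ≤ ENNReal.ofReal (Real.exp (l ^ 2 / (4 * c b) - l * ρ)) := by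
  let s : B → P → ℝ := Pi.single b fun p => l * γ p / (2 * c b)
  have h0 := hc b
  have e : ∀ x, QQ c (x - s) =
      QQ c x - l * ∑ p, x b p * γ p + l ^ 2 / (4 * c b) * ∑ p, γ p ^ 2 := fun x => by
    simp only [QQ]
    rw [← add_sum_erase _ _ (mem_univ b), ← add_sum_erase _ _ (mem_univ b),
      sum_congr rfl (s₁ := univ.erase b) (g := fun b => c b * ∑ p, x b p ^ 2) fun b' hb => by
        simp [s, ne_of_mem_erase hb]]
    have : c b * ∑ p, (x - s) b p ^ 2 = c b * ∑ p, x b p ^ 2 - l * ∑ p, x b p * γ p +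
        l ^ 2 / (4 * c b) * ∑ p, γ p ^ 2 := by
      simp only [mul_sum, ← sum_sub_distrib, ← sum_add_distrib, s, Pi.sub_apply,
        Pi.single_eq_same]
      refine sum_congr rfl fun p _ => ?_
      field_simp
      ring
    linarith
  have hm : Measurable fun x : B → P → ℝ => ENNReal.ofReal (Real.exp (-QQ c (x - s))) :=
    measurable_QQ.comp (measurable_sub_const s)
  have : Measure.IsAddHaarMeasure (volume : Measure (B → P → ℝ)) :=
    Measure.pi.isAddHaarMeasure _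
  have h := GM_le hc (S := {x | ρ < ∑ p, x b p * γ p}) (hm.const_mul
    (ENNReal.ofReal (Real.exp (l ^ 2 / (4 * c b) - l * ρ)))) fun x hx => by
      rw [← ENNReal.ofReal_mul (Real.exp_pos _).le, ← Real.exp_add, e]
      refine ENNReal.ofReal_le_ofReal (Real.exp_le_exp.2 ?_)
      have h1 := mul_le_mul_of_nonneg_left (le_of_lt hx) hl
      have h2 := mul_le_mul_of_nonneg_left hγ (show 0 ≤ l ^ 2 / (4 * c b) by positivity)
      linarith
  rw [lintegral_const_mul _ hm, lintegral_sub_right_eq_self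
    (fun x => ENNReal.ofReal (Real.exp (-QQ c x))), lintegral_QQ hc] at h
  exact (ENNReal.mul_le_mul_iff_left (by simpa using ZQ_pos hc) ENNReal.ofReal_ne_top).1 h

/-- matrices as operators -/
noncomputable abbrev TT : Mat k ≃⋆ₐ[ℂ] (EuclideanSpace ℂ (Fin k) →L[ℂ] EuclideanSpace ℂ (Fin k)) :=
  Matrix.toEuclideanCLM (n := Fin k) (𝕜 := ℂ)

theorem sum_inner_EE (u v : EuclideanSpace ℂ (Fin k)) :
    ∑ p, ‖⟪u, TT (EE p) v⟫_ℂ‖ ^ 2 = ‖u‖ ^ 2 * ‖v‖ ^ 2 := by
  have e1 : ∀ A : Mat k, (A * Matrix.vecMulVec v.ofLp (star u.ofLp)).trace = ⟪u, TT A v⟫_ℂ := by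
    intro A
    rw [Matrix.mul_vecMulVec, Matrix.trace_vecMulVec, EuclideanSpace.inner_eq_star_dotProduct,
      Matrix.ofLp_toEuclideanCLM]
  have e2 := congrArg (fun A => ⟪v, TT A u⟫_ℂ) (sum_EE_trace
    (Matrix.vecMulVec v.ofLp (star u.ofLp)))
  have e3 : TT (Matrix.vecMulVec v.ofLp (star u.ofLp)) u = ⟪u, u⟫_ℂ • v := by
    ext i
    rw [Matrix.ofLp_toEuclideanCLM, Matrix.vecMulVec_mulVec,
      EuclideanSpace.inner_eq_star_dotProduct, dotProduct_comm]
    simp [mul_comm]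
  simp only [e1, e3, map_sum, map_smul, FunLike.coe_sum, Finset.sum_apply, smul_apply, inner_sum,
    inner_smul_right, inner_self_eq_norm_sq_to_K] at e2
  apply Complex.ofReal_injective
  push_cast
  refine Eq.trans (sum_congr rfl fun p _ => ?_) e2
  have : star (TT (EE p)) = TT (EE p) := by
    rw [← map_star]
    exact congrArg _ (herm_isHermitian _)
  rw [← Complex.mul_conj', inner_conj_symm, ← this, ContinuousLinearMap.star_eq_adjoint,
    ContinuousLinearMap.adjoint_inner_left, ← ContinuousLinearMap.star_eq_adjoint, this]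

theorem tail {θ : B → ℝ} (hθ : ∀ b, 0 < θ b) (b : B) : Tendsto (fun k =>
    GU θ k {x | 4 * (θ b / 2 + Real.log 1250) < ‖TT (GG x b)‖}) atTop (𝓝 0) := by
  have h2 := ENNReal.tendsto_ofReal (tendsto_pow_atTop_nhds_zero_of_lt_one (r := (1 / 2 : ℝ))
    (by norm_num) (by norm_num))
  rw [ENNReal.ofReal_zero] at h2
  refine tendsto_of_tendsto_of_tendsto_of_le_of_le' tendsto_const_nhds h2
    (Eventually.of_forall fun _ => zero_le) ?_
  filter_upwards [eventually_gt_atTop 0] with k hk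
  obtain ⟨N, hN1, hN2, hN3⟩ := exists_net (EuclideanSpace ℂ (Fin k))
  rw [finrank_real_of_complex, finrank_euclideanSpace_fin] at hN1
  have h0 := hθ b
  have hk' : (0 : ℝ) < k := by exact_mod_cast hk
  have hsub : {x : B → Fin k × Fin k → ℝ | 4 * (θ b / 2 + Real.log 1250) < ‖TT (GG x b)‖} ⊆
      ⋃ y ∈ N ×ˢ N, {x | θ b / 2 + Real.log 1250 < ∑ p, x b p * (⟪y.1, TT (EE p) y.2⟫_ℂ).re} := by
    intro x hx
    by_contra hcon
    simp only [Set.mem_iUnion, Set.mem_ofPred_eq, not_exists, not_lt, mem_product] at hcon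
    refine absurd hx (not_lt.2 (opNorm_le_of_net _ N hN3 _ (by positivity) fun u hu v hv => ?_))
    refine le_of_eq_of_le ?_ (hcon (u, v) ⟨hu, hv⟩)
    simp only [GG, herm_eq_sum (x b), inner_sum, inner_smul_right, map_sum, map_smul,
      FunLike.coe_sum, Finset.sum_apply, smul_apply, Complex.re_sum, Complex.re_ofReal_mul]
  refine (measure_mono hsub).trans ((measure_biUnion_finset_le _ _).trans
    ((sum_le_card_nsmul _ _ (ENNReal.ofReal (1250⁻¹ ^ k)) fun y hy => ?_).trans ?_))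
  · refine (chernoff (cU_pos hθ hk) b ?_ hk'.le _).trans (le_of_eq ?_)
    · refine (sum_le_sum fun p _ => ?_).trans ((sum_inner_EE y.1 y.2).le.trans
        (mul_le_one₀ (pow_le_one₀ (norm_nonneg _) (hN2 _ (mem_product.1 hy).1)) (sq_nonneg _)
          (pow_le_one₀ (norm_nonneg _) (hN2 _ (mem_product.1 hy).2))))
      exact sq_le_sq' (neg_le_of_abs_le (Complex.abs_re_le_norm _)) (Complex.re_le_norm _)
    · rw [show (k : ℝ) ^ 2 / (4 * (k / (2 * θ b))) - k * (θ b / 2 + Real.log 1250) =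
        k * -Real.log 1250 by field_simp; ring, Real.exp_nat_mul, Real.exp_neg,
        Real.exp_log (by norm_num)]
  · rw [nsmul_eq_mul, ← ENNReal.ofReal_natCast, ← ENNReal.ofReal_mul (Nat.cast_nonneg _)]
    refine ENNReal.ofReal_le_ofReal ?_
    have : ((N ×ˢ N).card : ℝ) ≤ 625 ^ k := by
      rw [card_product, show (625 : ℝ) = 5 ^ 2 * 5 ^ 2 by norm_num, mul_pow, ← pow_mul]
      exact_mod_cast Nat.mul_le_mul hN1 hN1
    refine (mul_le_mul_of_nonneg_right this (by positivity)).trans (le_of_eq ?_)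
    rw [← mul_pow]
    norm_num

end Vale.Agent.P087
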