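import Vale.Agent.P087.Tail
import Vale.Agent.P087.Abs

/-! Volume estimates for microstates. -/

open Finset MeasureTheory Filter Topology
open scoped ENNReal InnerProductSpace

namespace Vale.Agent.P087

set_option linter.unusedSectionVars false

variable {H : Type} [NormedAddCommGroup H] [InnerProductSpace ℂ H] [CompleteSpace H]
variable {ι : Type} [Fintype ι] [DecidableEq ι] {Ω : H} {X : ι → H →L[ℂ] H} {k : ℕ}

/-- pairs of an operator and a matrix function -/
abbrev PA (H ι : Type) [NormedAddCommGroup H] [InnerProductSpace ℂ H] : Type :=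
  (H →L[ℂ] H) × ((k : ℕ) → (ι → Mat k) → Mat k)

/-- the generators -/
def gen (X : ι → H →L[ℂ] H) (i : ι) : PA H ι := (X i, fun _ A => A i)

/-- approximate moments -/
def Mom (Ω : H) (X : ι → H →L[ℂ] H) (z : ℕ × ℝ) (A : ι → Mat k) : Prop :=
  ∀ w : List ι, 1 ≤ w.length → w.length ≤ z.1 → ‖tw A w - tr Ω (word X w)‖ < z.2

theorem word_fst {α : Type} (y : α → PA H ι) (w : List α) :
    (word y w).1 = word (fun i => (y i).1) w := (word_map (RingHom.fst _ _) y w).symm

theorem word_snd {α : Type} (y : α → PA H ι) (w : List α) (A : ι → Mat k) :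
    (word y w).2 k A = word (fun i => (y i).2 k A) w := by
  induction w with
  | nil => rfl
  | cons i w ih => rw [word_cons, word_cons, ← ih]; rfl

theorem approx (hΩ : ‖Ω‖ = 1) {y : PA H ι} (hy : y ∈ Algebra.adjoin ℂ (Set.range (gen X)))
    {δ : ℝ} (hδ : 0 < δ) : ∀ᶠ z in atTop ×ˢ 𝓝[>] 0, ∀ k, 0 < k → ∀ A : ι → Mat k, Mom Ω X z A →
      ‖(k : ℂ)⁻¹ * (y.2 k A).trace - tr Ω y.1‖ < δ := by
  rw [← Subalgebra.mem_toSubmodule, Algebra.adjoin_eq_span] at hy
  induction hy using Submodule.span_induction generalizing δ with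
  | mem y hy =>
    obtain ⟨w, rfl⟩ : ∃ w, y = word (gen X) w := by
      induction hy using Submonoid.closure_induction with
      | mem y hy => obtain ⟨i, rfl⟩ := hy; exact ⟨[i], by simp [word]⟩
      | one => exact ⟨[], rfl⟩
      | mul a b _ _ h1 h2 =>
        obtain ⟨u, rfl⟩ := h1
        obtain ⟨v, rfl⟩ := h2
        exact ⟨u ++ v, (word_append _ _ _).symm⟩
    filter_upwards [(eventually_ge_atTop w.length).prod_mk
      (mem_nhdsWithin_of_mem_nhds (Iio_mem_nhds hδ))] with z hz k hk A hA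
    rw [word_fst, word_snd]
    rcases w with _ | ⟨i, w⟩
    · simpa [tr, hΩ, hk.ne'] using hδ
    · exact (hA _ (by simp) hz.1).trans hz.2
  | zero => simpa [tr] using Eventually.of_forall fun _ _ _ _ _ => hδ
  | add a b _ _ h1 h2 =>
    filter_upwards [h1 (half_pos hδ), h2 (half_pos hδ)] with z h1 h2 k hk A hA
    have e : (k : ℂ)⁻¹ * ((a + b).2 k A).trace - tr Ω (a + b).1 =
        ((k : ℂ)⁻¹ * (a.2 k A).trace - tr Ω a.1) + ((k : ℂ)⁻¹ * (b.2 k A).trace - tr Ω b.1) := by
      simp [tr]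
      ring
    rw [e]
    linarith [norm_add_le ((k : ℂ)⁻¹ * (a.2 k A).trace - tr Ω a.1)
      ((k : ℂ)⁻¹ * (b.2 k A).trace - tr Ω b.1), h1 k hk A hA, h2 k hk A hA]
  | smul c a _ h1 =>
    filter_upwards [h1 (show 0 < δ / (‖c‖ + 1) by positivity)] with z h1 k hk A hA
    have e : (k : ℂ)⁻¹ * ((c • a).2 k A).trace - tr Ω (c • a).1 =
        c * ((k : ℂ)⁻¹ * (a.2 k A).trace - tr Ω a.1) := by
      simp [tr]
      ring
    have := (lt_div_iff₀' (by positivity)).1 (h1 k hk A hA)
    rw [e, norm_mul]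
    nlinarith [norm_nonneg ((k : ℂ)⁻¹ * (a.2 k A).trace - tr Ω a.1)]

theorem norm_bound (ρ : ι → ℝ) {y : PA H ι} (hy : y ∈ Algebra.adjoin ℂ (Set.range (gen X))) :
    ∃ R, ∀ k (A : ι → Mat k), (∀ b, ‖TT (A b)‖ ≤ ρ b) → ‖TT (y.2 k A)‖ ≤ R := by
  induction hy using Algebra.adjoin_induction with
  | mem y hy => obtain ⟨i, rfl⟩ := hy; exact ⟨ρ i, fun k A h => h i⟩
  | algebraMap r =>
    refine ⟨‖r‖, fun k A _ => ?_⟩
    show ‖TT (algebraMap ℂ _ r)‖ ≤ _
    rw [AlgHomClass.commutes, Algebra.algebraMap_eq_smul_one, norm_smul]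
    exact mul_le_of_le_one_right (norm_nonneg _) ContinuousLinearMap.norm_id_le
  | add a b _ _ h1 h2 =>
    obtain ⟨R, h1⟩ := h1
    obtain ⟨R', h2⟩ := h2
    refine ⟨R + R', fun k A h => ?_⟩
    show ‖TT (a.2 k A + b.2 k A)‖ ≤ _
    rw [map_add]
    exact (norm_add_le _ _).trans (add_le_add (h1 k A h) (h2 k A h))
  | mul a b _ _ h1 h2 =>
    obtain ⟨R, h1⟩ := h1
    obtain ⟨R', h2⟩ := h2
    refine ⟨R * R', fun k A h => ?_⟩
    show ‖TT (a.2 k A * b.2 k A)‖ ≤ _
    rw [map_mul]
    exact (norm_mul_le _ _).trans (mul_le_mul (h1 k A h) (h2 k A h) (norm_nonneg _)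
      ((norm_nonneg _).trans (h1 k A h)))

theorem shear {C D P : Type} [Fintype C] [Fintype D] [Fintype P] (e : ι ≃ C ⊕ D)
    {f : (C → P → ℝ) → ℝ≥0∞} {g : (D → P → ℝ) → ℝ≥0∞} {h : (C → P → ℝ) → D → P → ℝ}
    (hf : Measurable f) (hg : Measurable g) (hh : Measurable h) :
    ∫⁻ x : ι → P → ℝ, f (fun c => x (e.symm (.inl c))) *
      g ((fun d => x (e.symm (.inr d))) + h fun c => x (e.symm (.inl c))) =
      (∫⁻ x, f x) * ∫⁻ x, g x := by
  have : Measure.IsAddHaarMeasure (volume : Measure (D → P → ℝ)) :=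
    Measure.pi.isAddHaarMeasure _
  have h1 := (volume_measurePreserving_sumPiEquivProdPi fun _ : C ⊕ D => P → ℝ).comp
    (volume_preserving_arrowCongr' e (MeasurableEquiv.refl (P → ℝ)) (MeasurePreserving.id _))
  have hm : Measurable fun z : (C → P → ℝ) × (D → P → ℝ) => f z.1 * g (z.2 + h z.1) := by
    fun_prop
  refine (h1.lintegral_comp hm).trans ?_
  rw [Measure.volume_eq_prod, lintegral_prod _ hm.aemeasurable, ← lintegral_mul_const _ hf]
  refine lintegral_congr fun a => ?_
  exact (lintegral_const_mul (f a) (hg.comp (measurable_add_const (h a)))).trans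
    (congrArg _ (lintegral_add_right_eq_self g (h a)))

/-- coordinates of a matrix -/
def unherm (A : Mat k) (x : Fin k × Fin k) : ℝ := (A x.1 x.2).re + (A x.1 x.2).im

theorem herm_unherm {A : Mat k} (hA : A.IsHermitian) : herm (unherm A) = A := by
  ext p q
  have h := hA.apply q p
  apply Complex.ext <;> simp [herm, unherm, ← h] <;> ring

theorem herm_add (a b : Fin k × Fin k → ℝ) : herm (a + b) = herm a + herm b := by
  simpa using herm_add_smul a b 1

theorem continuous_unherm : Continuous (unherm (k := k)) := by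
  unfold unherm; fun_prop

theorem continuous_herm : Continuous (herm (k := k)) := by
  refine continuous_matrix fun _ _ => ?_
  simp only [herm, Matrix.of_apply]
  fun_prop

/-- the polynomials -/
def pol {C R : Type} [Mul R] [Add R] (s : C → R) : C ⊕ C × C × C → R
  | .inl a => s a
  | .inr x => s x.1 * s x.2.1 * s x.2.2 + s x.2.2 * s x.2.1 * s x.1

section Pol

variable {C R : Type} [Semiring R] {s : C → R} (i : C ⊕ C × C × C)

theorem pol_mem {S : Type} [SetLike S R] [SubsemiringClass S R] {T : S} (h : ∀ a, s a ∈ T) :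
    pol s i ∈ T := by
  rcases i with a | x
  · exact h a
  · exact add_mem (mul_mem (mul_mem (h _) (h _)) (h _)) (mul_mem (mul_mem (h _) (h _)) (h _))

theorem pol_star [StarRing R] (h : ∀ a, star (s a) = s a) : star (pol s i) = pol s i := by
  rcases i with a | x
  · exact h a
  · simp only [pol, star_add, star_mul, h, mul_assoc, add_comm]

theorem continuous_pol : Continuous fun A : C → Mat k => pol A i := by
  rcases i with a | x <;> simp only [pol] <;> fun_prop

end Pol

theorem logZ {θ : ι → ℝ} (hθ : ∀ b, 0 < θ b) (hk : 0 < k) :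
    ((k : ℝ) ^ 2)⁻¹ * Real.log (ZQ (Fin k × Fin k) fun b => k / (2 * θ b)) +
      (Fintype.card ι : ℝ) / 2 * Real.log k = ∑ b, Real.log (2 * Real.pi * θ b) / 2 := by
  have hk' : (0 : ℝ) < k := by exact_mod_cast hk
  have h : ∀ b, 0 < Real.pi / (k / (2 * θ b)) := fun b => div_pos Real.pi_pos (cU_pos hθ hk b)
  rw [ZQ, Real.log_prod fun b _ => (pow_pos (Real.sqrt_pos.2 (h b)) _).ne', mul_sum,
    show (Fintype.card ι : ℝ) / 2 * Real.log k = ∑ _b : ι, Real.log k / 2 by simp; ring,
    ← sum_add_distrib]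
  refine sum_congr rfl fun b _ => ?_
  have := hθ b
  rw [Real.log_pow, Real.log_sqrt (h b).le, show Real.pi / (k / (2 * θ b)) =
    2 * Real.pi * θ b / k by field_simp, Real.log_div (by positivity) hk'.ne']
  simp
  field_simp
  ring

theorem ereal_term {a c v : ℝ} (hv : 0 < v) :
    (a : EReal) * ENNReal.log (ENNReal.ofReal v) + c = ((a * Real.log v + c : ℝ) : EReal) := by
  rw [ENNReal.log_ofReal_of_pos hv, EReal.coe_add, EReal.coe_mul]

theorem ereal_mono {a c : ℝ} (ha : 0 ≤ a) {V W : ℝ≥0∞} (h : V ≤ W) :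
    (a : EReal) * ENNReal.log V + c ≤ (a : EReal) * ENNReal.log W + c :=
  add_le_add_left (mul_le_mul_of_nonneg_left (ENNReal.log_monotone h) (by exact_mod_cast ha)) _

variable {C : Type} [Fintype C] [DecidableEq C]

theorem ZQ_sum {P : Type} [Fintype P] (c : C ⊕ ι → ℝ) :
    ZQ P c = (ZQ P fun a => c (.inl a)) * ZQ P fun a => c (.inr a) := Fintype.prod_sum_type _

theorem chi_lower {s : C ⊕ ι → H →L[ℂ] H} {θ : C ⊕ ι → ℝ} (hθ : ∀ b, 0 < θ b) (hΩ : ‖Ω‖ = 1)
    (hs : ∀ b, IsSelfAdjoint (s b))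
    (hμ : ∀ j u, tr Ω (word s (j :: u)) = θ j * dq (fun u => tr Ω (word s u)) j u)
    (φ : ι → C ⊕ C × C × C) : ⊥ < chi Ω fun i => pol (fun c => s (.inl c)) (φ i) + s (.inr i) := by
  let y : ι → PA H (C ⊕ ι) := fun i => pol (fun c => gen s (.inl c)) (φ i) + gen s (.inr i)
  have hy : ∀ i, y i ∈ Algebra.adjoin ℂ (Set.range (gen s)) := fun i =>
    add_mem (pol_mem _ fun c => Algebra.subset_adjoin ⟨_, rfl⟩) (Algebra.subset_adjoin ⟨_, rfl⟩)
  have hy1 : (fun i => pol (fun c => s (.inl c)) (φ i) + s (.inr i)) = fun i => (y i).1 := by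
    funext i
    simp only [y]
    cases φ i <;> rfl
  have hy2 : ∀ i k (A : C ⊕ ι → Mat k),
      (y i).2 k A = pol (fun c => A (.inl c)) (φ i) + A (.inr i) := by
    intro i k A
    simp only [y]
    cases φ i <;> rfl
  choose R hR using fun i => norm_bound (fun b => 4 * (θ b / 2 + Real.log 1250)) (hy i)
  obtain ⟨R0, hR0⟩ := Finite.exists_le R
  rw [hy1]
  refine lt_of_lt_of_le (EReal.bot_lt_coe (∑ i, Real.log (2 * Real.pi * θ (.inr i)) / 2 -
    Real.log 2)) (le_iSup₂_of_le (max R0 1) (by simp) (le_iInf fun m => le_iInf₂ fun ε hε => ?_))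
  obtain ⟨z, hz, hz0⟩ := (((eventually_all_finite (List.finite_length_le ι m)).2 fun w _ =>
    approx hΩ (word_mem hy w) hε).and (tendsto_snd.eventually self_mem_nhdsWithin)).exists
  have h1 := tendsto_finsetSum (List.finite_length_le (C ⊕ ι) z.1).toFinset fun w _ =>
    conv_prob (μ := fun u => tr Ω (word s u)) hθ (by simp [tr, hΩ]) hμ (fun w => by
      rw [← star_word hs, tr, tr, inner_star_right, inner_conj_symm]) w hz0
  have h2 := h1.add (tendsto_finsetSum univ fun b _ => tail hθ b)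
  simp only [sum_const_zero, add_zero] at h2
  refine le_limsup_of_frequently_le (Eventually.frequently ?_)
  filter_upwards [h2.eventually (ge_mem_nhds (show (0 : ℝ≥0∞) < 1 / 2 by simp)),
    eventually_gt_atTop 0] with k hk2 hk
  have hc := cU_pos hθ hk
  have : IsProbabilityMeasure (GU θ k) := GM_prob hc
  let G : Set (C ⊕ ι → Fin k × Fin k → ℝ) :=
    {x | Mom Ω s z (GG x) ∧ ∀ b, ‖TT (GG x b)‖ ≤ 4 * (θ b / 2 + Real.log 1250)}
  have hG : 1 / 2 ≤ GU θ k G := by
    have h3 : GU θ k Gᶜ ≤ 1 / 2 := by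
      refine le_trans (le_trans (measure_mono fun x hx => ?_) ((measure_union_le _ _).trans
        (add_le_add (measure_biUnion_finset_le _ _) (measure_biUnion_finset_le _ _)))) hk2
      by_contra hcon
      simp only [Set.mem_union, Set.mem_iUnion, not_or, not_exists, Set.mem_ofPred_eq, not_le,
        not_lt, Set.Finite.mem_toFinset] at hcon
      exact hx ⟨fun w _ hw => hcon.1 w hw, fun b => hcon.2 b (mem_univ b)⟩
    have h4 : 1 ≤ GU θ k G + 1 / 2 := by
      rw [← measure_univ (μ := GU θ k), ← Set.union_compl_self G]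
      exact (measure_union_le _ _).trans (by rwa [Set.union_compl_self, measure_univ,
        ENNReal.add_le_add_iff_left (measure_ne_top _ _)])
    rwa [← tsub_le_iff_right, ENNReal.sub_half ENNReal.one_ne_top] at h4
  set Γ := {a : ι → Fin k × Fin k → ℝ | (fun j => herm (a j)) ∈
    Gam Ω (fun i => (y i).1) (max R0 1) m k ε} with hΓ
  let h : (C → Fin k × Fin k → ℝ) → ι → Fin k × Fin k → ℝ := fun a i => unherm (pol (GG a) (φ i))
  have hh : Continuous h := continuous_pi fun i => continuous_unherm.comp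
    ((continuous_pol _).comp (continuous_pi fun c => continuous_herm.comp (continuous_apply c)))
  have hg : Measurable ((toMeasurable volume Γ).indicator (1 : (ι → Fin k × Fin k → ℝ) → ℝ≥0∞)) :=
    measurable_one.indicator (measurableSet_toMeasurable _ _)
  have h5 := shear (Equiv.refl (C ⊕ ι)) (measurable_QQ (c := fun c => k / (2 * θ (.inl c)))) hg
    hh.measurable
  rw [lintegral_QQ fun c => hc _, lintegral_indicator_one (measurableSet_toMeasurable _ _),
    measure_toMeasurable] at h5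
  have h6 := GM_le hc (S := G) (g := fun x => ENNReal.ofReal (Real.exp (-QQ
    (fun c => k / (2 * θ (.inl c))) fun c => x (.inl c))) * (toMeasurable volume Γ).indicator 1
      ((fun d => x (.inr d)) + h fun c => x (.inl c)))
    ((measurable_QQ.comp (by fun_prop)).mul (hg.comp (Measurable.add (by fun_prop)
      (hh.measurable.comp (by fun_prop))))) fun x hx => by
    have e : (fun j => herm (((fun d => x (.inr d)) + h fun c => x (.inl c)) j)) =
        fun j => (y j).2 k (GG x) := by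
      funext j
      rw [Pi.add_apply, herm_add, hy2, add_comm]
      exact congrArg (· + _) (herm_unherm (pol_star _ fun c => herm_isHermitian _))
    rw [Set.indicator_of_mem (subset_toMeasurable _ _ _), Pi.one_apply, mul_one]
    · refine ENNReal.ofReal_le_ofReal (Real.exp_le_exp.2 (neg_le_neg ?_))
      have := QQ_nonneg (fun d => hc (.inr d)) fun d => x (.inr d)
      simp only [QQ, Fintype.sum_sum_type] at this ⊢
      linarith
    · refine ⟨fun j => herm_isHermitian _, fun j => ?_, fun w _ hw => ?_⟩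
      · rw [e]
        exact (hR j k _ hx.2).trans ((hR0 j).trans (le_max_left _ _))
      · rw [e, ← word_snd, ← word_fst]
        exact hz w hw k hk _ hx.1
  have h7 : ENNReal.ofReal ((ZQ (Fin k × Fin k) fun d => k / (2 * θ (.inr d))) / 2) ≤
      volume Γ := by
    have h8 := (mul_le_mul_left hG _).trans (h6.trans_eq h5)
    have hC := ZQ_pos (P := Fin k × Fin k) fun c => hc (.inl c)
    rw [ZQ_sum, ENNReal.ofReal_mul hC.le, mul_left_comm] at h8
    rw [ENNReal.ofReal_div_of_pos two_pos, ENNReal.ofReal_ofNat, div_eq_mul_inv, mul_comm,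
      ← one_div]
    exact (ENNReal.mul_le_mul_iff_right (by simpa using hC) ENNReal.ofReal_ne_top).1 h8
  have hZ := ZQ_pos (P := Fin k × Fin k) fun d => hc (.inr d)
  refine le_trans ?_ (ereal_mono (by positivity) h7)
  rw [ereal_term (half_pos hZ), Real.log_div hZ.ne' two_ne_zero, EReal.coe_le_coe_iff,
    ← logZ (fun d => hθ (.inr d)) hk]
  have h9 : ((k : ℝ) ^ 2)⁻¹ * Real.log 2 ≤ Real.log 2 :=
    mul_le_of_le_one_left (Real.log_nonneg one_le_two)
      (inv_le_one_of_one_le₀ (one_le_pow₀ (by exact_mod_cast hk)))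
  linarith

theorem tr_sq {x : H →L[ℂ] H} (hx : star x = x) : tr Ω (x * x) = ((‖x Ω‖ ^ 2 : ℝ) : ℂ) := by
  rw [Complex.ofReal_pow, ← Complex.coe_algebraMap, ← inner_self_eq_norm_sq_to_K,
    ← inner_star_right, hx]
  rfl

theorem chi_upper (hΩ : ‖Ω‖ = 1) (hX : ∀ i, IsSelfAdjoint (X i)) (e : ι ≃ C ⊕ C × C × C) {T : ℝ}
    (hT : ∑ c, ‖X (e.symm (.inl c)) Ω‖ ^ 2 + ∑ d, ‖(X (e.symm (.inr d)) -
      pol (fun c => X (e.symm (.inl c))) (.inr d)) Ω‖ ^ 2 < T) :
    chi Ω X ≤ (T / 2 + Fintype.card ι / 2 * Real.log (2 * Real.pi) : ℝ) := by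
  let g := gen X
  have hg : ∀ i, g i ∈ Algebra.adjoin ℂ (Set.range (gen X)) := fun i =>
    Algebra.subset_adjoin ⟨_, rfl⟩
  let y : C × C × C → PA H ι := fun d =>
    g (e.symm (.inr d)) - pol (fun c => g (e.symm (.inl c))) (.inr d)
  have hy : ∀ d, y d ∈ Algebra.adjoin ℂ (Set.range (gen X)) := fun d =>
    sub_mem (hg _) (pol_mem _ fun c => hg _)
  obtain ⟨z, hz, hz0⟩ := ((approx hΩ (add_mem (sum_mem (t := univ) fun c _ =>
    mul_mem (hg (e.symm (.inl c))) (hg (e.symm (.inl c)))) (sum_mem (t := univ) fun d _ =>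
      mul_mem (hy d) (hy d))) (sub_pos.2 hT)).and
        (tendsto_snd.eventually self_mem_nhdsWithin)).exists
  refine iSup₂_le fun R _ => iInf_le_of_le z.1 (iInf₂_le_of_le z.2 hz0
    (limsup_le_of_le (h := ?_)))
  filter_upwards [eventually_gt_atTop 0] with k hk
  have hk' : (0 : ℝ) < k := by exact_mod_cast hk
  let h : (C → Fin k × Fin k → ℝ) → C × C × C → Fin k × Fin k → ℝ :=
    fun a d => -unherm (pol (GG a) (.inr d))
  have hh : Continuous h := continuous_pi fun i => (continuous_unherm.comp ((continuous_pol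
    (.inr i)).comp (continuous_pi fun c => continuous_herm.comp (continuous_apply c)))).neg
  have hc : 0 < (k : ℝ) / (2 * 1) := by positivity
  have h5 := shear e (measurable_QQ (c := fun _ => k / (2 * 1)))
    (measurable_QQ (c := fun _ => k / (2 * 1))) hh.measurable
  rw [lintegral_QQ fun _ => hc, lintegral_QQ fun _ => hc,
    ← ENNReal.ofReal_mul (ZQ_pos fun _ => hc).le,
    ← ZQ_sum (c := fun _ => k / (2 * 1))] at h5
  have hZ : (ZQ (Fin k × Fin k) fun _ : C ⊕ C × C × C => (k : ℝ) / (2 * 1)) =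
      ZQ (Fin k × Fin k) fun _ : ι => (k : ℝ) / (2 * 1) := (e.prod_comp fun _ => _).symm
  have h7 : vol (Gam Ω X R z.1 k z.2) ≤ ENNReal.ofReal (Real.exp (k ^ 2 * T / 2) *
      ZQ (Fin k × Fin k) fun _ : ι => (k : ℝ) / (2 * 1)) := by
    rw [ENNReal.ofReal_mul (Real.exp_pos _).le, ← hZ, ← h5,
      ← lintegral_const_mul' _ _ ENNReal.ofReal_ne_top]
    refine meas_le_lintegral₀ ?_ fun x hx => ?_
    · exact (Measurable.const_mul ((measurable_QQ.comp (by fun_prop)).mul (measurable_QQ.comp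
        (Measurable.add (by fun_prop) (hh.measurable.comp (by fun_prop))))) _).aemeasurable
    rw [← ENNReal.ofReal_mul (Real.exp_pos _).le, ← ENNReal.ofReal_mul (Real.exp_pos _).le,
      ← Real.exp_add, ← Real.exp_add, ENNReal.one_le_ofReal]
    refine Real.one_le_exp ?_
    have h1 := hz k hk _ hx.2.2
    have e1 : ∀ d, (y d).2 k (fun j => herm (x j)) =
        herm (((fun d => x (e.symm (.inr d))) + h fun c => x (e.symm (.inl c))) d) := by
      intro d
      have := herm_add_smul (x (e.symm (.inr d))) (unherm (pol (GG fun c => x (e.symm (.inl c)))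
        (.inr d))) (-1)
      rw [herm_unherm (pol_star (s := GG _) _ fun c => herm_isHermitian _), neg_one_smul] at this
      refine Eq.trans ?_ this.symm
      rw [Complex.ofReal_neg, Complex.ofReal_one, neg_one_smul, ← sub_eq_add_neg]
      rfl
    have e2 : ∀ d, star (y d).1 = (y d).1 := fun d => by
      show star (X _ - pol (fun c => X (e.symm (.inl c))) (.inr d)) = _
      rw [star_sub, pol_star _ fun c => (hX _).star_eq, (hX _).star_eq]
      rfl
    have e3 : ∀ a b : H →L[ℂ] H, tr Ω (a + b) = tr Ω a + tr Ω b := fun a b => by simp [tr]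
    have e4 : ∀ {α : Type} [Fintype α] (a : α → H →L[ℂ] H), tr Ω (∑ i, a i) = ∑ i, tr Ω (a i) :=
      fun a => by simp [tr]
    simp only [Prod.fst_add, Prod.snd_add, Prod.fst_sum, Prod.snd_sum, Pi.add_apply,
      Finset.sum_apply, Prod.fst_mul, Prod.snd_mul, Pi.mul_apply, e1, e3, e4, tr_sq (e2 _),
      g, gen, tr_sq (hX _).star_eq, Matrix.trace_add, Matrix.trace_sum, trace_herm_mul] at h1
    rw [← Complex.ofReal_natCast] at h1
    norm_cast at h1
    have h2 := (abs_lt.1 h1).2
    simp only [QQ, sq, ← mul_sum, Pi.add_apply]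
    have h3 := (inv_mul_lt_iff₀ hk').1 ((sub_lt_sub_iff_right _).1 h2)
    nlinarith
  have hZ0 := ZQ_pos (P := Fin k × Fin k) fun _ : ι => hc
  refine (ereal_mono (by positivity) h7).trans ?_
  have h8 := logZ (θ := fun _ : ι => 1) (fun _ => one_pos) hk
  rw [ereal_term (by positivity), Real.log_mul (Real.exp_pos _).ne' hZ0.ne', Real.log_exp,
    EReal.coe_le_coe_iff, mul_add, add_assoc, h8]
  simp only [mul_one, sum_const, card_univ, nsmul_eq_mul]
  refine le_of_eq ?_
  field_simp

end Vale.Agent.P087
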