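import Vale.Agent.P087.Defs

/-! Words, splittings and the cumulant recursion. -/

open Finset

namespace Vale.Agent.P087

set_option linter.unusedSectionVars false

section Word

variable {ι A : Type} [Monoid A]

@[simp] theorem word_nil (X : ι → A) : word X [] = 1 := rfl

theorem word_cons (X : ι → A) (i : ι) (w : List ι) : word X (i :: w) = X i * word X w := by
  simp [word]

theorem word_append (X : ι → A) (u w : List ι) : word X (u ++ w) = word X u * word X w := by
  simp [word]

theorem word_map {B F : Type} [Monoid B] [FunLike F A B] [MonoidHomClass F A B] (f : F)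
    (X : ι → A) (w : List ι) : word (fun i => f (X i)) w = f (word X w) := by
  induction w with
  | nil => simp
  | cons i w ih => rw [word_cons, word_cons, ih, map_mul]

theorem word_mem {S : Type} [SetLike S A] [SubmonoidClass S A] {s : S} {X : ι → A}
    (h : ∀ i, X i ∈ s) (w : List ι) : word X w ∈ s :=
  list_prod_mem fun x hx => by
    obtain ⟨i, -, rfl⟩ := List.mem_map.1 hx
    exact h i

end Word

variable {ι : Type} [Fintype ι] [DecidableEq ι]

/-- sum over the occurrences of a letter -/
def spl {V : Type} [AddCommMonoid V] (j : ι) (w : List ι) (f : List ι → List ι → V) : V :=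
  ∑ l ∈ range w.length, if w[l]? = some j then f (w.take l) (w.drop (l + 1)) else 0

theorem dq_eq (μ : List ι → ℂ) (j : ι) (w : List ι) :
    dq μ j w = spl j w fun u v => μ u * μ v := rfl

section Spl

variable {V : Type} [AddCommMonoid V] (j : ι)

@[simp] theorem spl_nil (f : List ι → List ι → V) : spl j [] f = 0 := rfl

theorem spl_cons (i : ι) (w : List ι) (f : List ι → List ι → V) :
    spl j (i :: w) f = (if i = j then f [] w else 0) + spl j w fun u v => f (i :: u) v := by
  rw [spl, List.length_cons, sum_range_succ', add_comm]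
  simp [spl]

theorem spl_congr {w : List ι} {f g : List ι → List ι → V}
    (h : ∀ u v, w = u ++ j :: v → f u v = g u v) : spl j w f = spl j w g := by
  induction w generalizing f g with
  | nil => rfl
  | cons i w ih =>
    rw [spl_cons, spl_cons, ih fun u v e => h _ _ (by rw [e]; rfl)]
    split_ifs with e
    · rw [h [] w (by rw [e]; rfl)]
    · rfl

theorem spl_induction {P : V → Prop} (h0 : P 0) (hadd : ∀ a b, P a → P b → P (a + b))
    {w : List ι} {f : List ι → List ι → V} (h : ∀ u v, w = u ++ j :: v → P (f u v)) :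
    P (spl j w f) := by
  induction w generalizing f with
  | nil => exact h0
  | cons i w ih =>
    rw [spl_cons]
    refine hadd _ _ ?_ (ih fun u v e => h _ _ (by rw [e]; rfl))
    split_ifs with e
    · exact h [] w (by rw [e]; rfl)
    · exact h0

theorem map_spl {W F : Type} [AddCommMonoid W] [FunLike F V W] [AddMonoidHomClass F V W] (φ : F)
    (w : List ι) (f : List ι → List ι → V) : φ (spl j w f) = spl j w fun u v => φ (f u v) := by
  simp only [spl, map_sum, apply_ite φ, map_zero]

end Spl

/-- the words of a given length -/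
def We (ι : Type) [Fintype ι] : ℕ → Finset (List ι)
  | 0 => {[]}
  | m + 1 => (univ ×ˢ We ι m).map ⟨fun p => p.1 :: p.2, fun _ _ h => by
      simpa [Prod.ext_iff] using h⟩

theorem sum_We_succ {V : Type} [AddCommMonoid V] (m : ℕ) (f : List ι → V) :
    ∑ x ∈ We ι (m + 1), f x = ∑ i, ∑ x ∈ We ι m, f (i :: x) := by
  rw [We, sum_map, sum_product]; rfl

@[simp] theorem sum_We_zero {V : Type} [AddCommMonoid V] (f : List ι → V) :
    ∑ x ∈ We ι 0, f x = f [] := by simp [We]

theorem mem_We {m : ℕ} {x : List ι} : x ∈ We ι m ↔ x.length = m := by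
  induction m generalizing x with
  | zero => simp [We]
  | succ m ih =>
    rcases x with _ | ⟨i, x⟩
    · simp [We]
    · simp only [We, mem_map, mem_product, mem_univ, true_and, ih,
        List.length_cons, Nat.add_right_cancel_iff]
      exact ⟨fun ⟨p, h1, h2⟩ => (List.cons.inj h2).2 ▸ h1, fun h => ⟨(i, x), h, rfl⟩⟩

theorem sum_We_add {V : Type} [AddCommMonoid V] (l m : ℕ) (f : List ι → List ι → V) :
    ∑ y ∈ We ι (l + m), f (y.take l) (y.drop l) = ∑ x ∈ We ι l, ∑ y ∈ We ι m, f x y := by
  induction l generalizing f with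
  | zero => simp
  | succ l ih =>
    rw [show l + 1 + m = (l + m) + 1 by omega, sum_We_succ, sum_We_succ]
    exact sum_congr rfl fun i _ => ih fun x y => f (i :: x) y

theorem sum_We_word {A : Type} [Semiring A] (X : ι → A) (m : ℕ) :
    ∑ x ∈ We ι m, word X x = (∑ i, X i) ^ m := by
  induction m with
  | zero => simp
  | succ m ih => simp only [sum_We_succ, word_cons, ← mul_sum, ih, ← sum_mul, pow_succ']

/-- mixed cumulants -/
noncomputable def cum (μ : List ι → ℂ) : List ι → List ι → ℂ
  | p, [] => μ p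
  | p, i :: x => cum μ (i :: p) x -
      ∑ l ∈ range (x.length + 1), cum μ [i] (x.take l) * cum μ p (x.drop l)
termination_by _ x => x.length
decreasing_by all_goals (simp only [List.length_cons, List.length_take, List.length_drop]; omega)

/-- the majorant sequence -/
def maj (m : ℕ) : ℝ := 2 ^ m * catalan m

theorem maj_zero : maj 0 = 1 := by simp [maj]

theorem maj_nonneg (m : ℕ) : 0 ≤ maj m := by unfold maj; positivity

theorem maj_succ (m : ℕ) : maj m + ∑ l ∈ range (m + 1), maj l * maj (m - l) ≤ maj (m + 1) := by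
  have h : ∑ l ∈ range (m + 1), maj l * maj (m - l) = 2 ^ m * catalan (m + 1) := by
    rw [catalan_succ', Finset.Nat.sum_antidiagonal_eq_sum_range_succ
      (fun i j => catalan i * catalan j)]
    push_cast
    rw [mul_sum]
    refine sum_congr rfl fun l hl => ?_
    have : m = l + (m - l) := by have := mem_range.1 hl; omega
    rw [maj, maj]
    conv_rhs => rw [this, pow_add]
    rw [← this]; ring
  have h2 : maj m ≤ ∑ l ∈ range (m + 1), maj l * maj (m - l) := by
    have := single_le_sum (f := fun l => maj l * maj (m - l))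
      (fun l _ => mul_nonneg (maj_nonneg _) (maj_nonneg _)) (mem_range.2 (Nat.succ_pos m))
    simpa [maj_zero] using this
  rw [maj.eq_1 (m + 1), pow_succ]
  linarith

theorem maj_le (m : ℕ) : maj m ≤ 8 ^ m := by
  have h : catalan m ≤ 4 ^ m := by
    rw [catalan_eq_centralBinom_div]
    refine (Nat.div_le_self _ _).trans ((Nat.choose_le_two_pow _ _).trans ?_)
    rw [pow_mul]; norm_num
  have h' : (catalan m : ℝ) ≤ 4 ^ m := by exact_mod_cast h
  rw [maj, show (8 : ℝ) = 2 * 4 by norm_num, mul_pow]
  gcongr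

theorem cum_sup {μ : List ι → ℂ} {α : ℝ} (hα : 0 ≤ α) (h : ∀ p, ‖μ p‖ ≤ α ^ p.length)
    (p x : List ι) : ‖cum μ p x‖ ≤ maj x.length * α ^ (p.length + x.length) := by
  induction hm : x.length using Nat.strong_induction_on generalizing p x with
  | _ m ih =>
  rcases x with _ | ⟨i, x⟩
  · subst hm; simpa [cum, maj_zero] using h p
  · rw [cum]
    rw [List.length_cons] at hm
    subst hm
    refine (norm_sub_le _ _).trans ((add_le_add (ih _ (by omega) (i :: p) x rfl)
      ((norm_sum_le _ _).trans (sum_le_sum (g := fun l => maj l * maj (x.length - l) *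
        α ^ (p.length + (x.length + 1))) fun l hl => ?_))).trans ?_)
    · have hl' := mem_range.1 hl
      rw [norm_mul]
      refine (mul_le_mul (ih l (by omega) [i] _ (by simp; omega))
        (ih (x.length - l) (by omega) p _ (by simp)) (norm_nonneg _)
        (mul_nonneg (maj_nonneg _) (pow_nonneg hα _))).trans (le_of_eq ?_)
      rw [show p.length + (x.length + 1) = ([i].length + l) + (p.length + (x.length - l)) by
        simp; omega, pow_add α ([i].length + l)]
      ring
    · rw [← sum_mul, List.length_cons,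
        show p.length + 1 + x.length = p.length + (x.length + 1) by omega, ← add_mul]
      exact mul_le_mul_of_nonneg_right (maj_succ _) (pow_nonneg hα _)

theorem cum_sum {μ : List ι → ℂ} {β : ℝ} (hβ : 0 ≤ β) (h : ∀ q, ∑ p ∈ We ι q, ‖μ p‖ ≤ β ^ q)
    (q m : ℕ) : ∑ p ∈ We ι q, ∑ x ∈ We ι m, ‖cum μ p x‖ ≤ maj m * β ^ (q + m) := by
  induction m using Nat.strong_induction_on generalizing q with
  | _ m ih =>
  rcases m with _ | m
  · simpa [cum, maj_zero] using h q
  · have h1 : ∑ p ∈ We ι q, ∑ x ∈ We ι (m + 1), ‖cum μ p x‖ ≤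
        ∑ p ∈ We ι q, ∑ i, ∑ x ∈ We ι m, (‖cum μ (i :: p) x‖ +
          ∑ l ∈ range (m + 1), ‖cum μ [i] (x.take l)‖ * ‖cum μ p (x.drop l)‖) := by
      refine sum_le_sum fun p _ => ?_
      rw [sum_We_succ]
      refine sum_le_sum fun i _ => sum_le_sum fun x hx => ?_
      rw [cum, mem_We.1 hx]
      exact (norm_sub_le _ _).trans (add_le_add le_rfl ((norm_sum_le _ _).trans
        (sum_le_sum fun l _ => (norm_mul _ _).le)))
    have h2 : ∑ p ∈ We ι q, ∑ i, ∑ x ∈ We ι m, ‖cum μ (i :: p) x‖ ≤ maj m * β ^ (q + (m + 1)) := by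
      rw [sum_comm, ← sum_We_succ q fun p => ∑ x ∈ We ι m, ‖cum μ p x‖,
        show q + (m + 1) = q + 1 + m by omega]
      exact ih m (by omega) _
    have h3 : ∀ l ∈ range (m + 1), ∑ p ∈ We ι q, ∑ i, ∑ x ∈ We ι m,
        ‖cum μ [i] (x.take l)‖ * ‖cum μ p (x.drop l)‖ ≤
          maj l * maj (m - l) * β ^ (q + (m + 1)) := by
      intro l hl
      have hl' := mem_range.1 hl
      have e : ∀ p i, ∑ x ∈ We ι m, ‖cum μ [i] (x.take l)‖ * ‖cum μ p (x.drop l)‖ =
          (∑ x ∈ We ι l, ‖cum μ [i] x‖) * ∑ y ∈ We ι (m - l), ‖cum μ p y‖ := fun p i => by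
        rw [sum_mul_sum, ← sum_We_add l (m - l) fun x y => ‖cum μ [i] x‖ * ‖cum μ p y‖,
          show l + (m - l) = m by omega]
      simp only [e, ← sum_mul, ← mul_sum]
      have a := ih l (by omega) 1
      rw [sum_We_succ] at a
      simp only [sum_We_zero] at a
      refine (mul_le_mul a (ih (m - l) (by omega) q) (by positivity)
        (mul_nonneg (maj_nonneg _) (pow_nonneg hβ _))).trans (le_of_eq ?_)
      rw [show q + (m + 1) = (1 + l) + (q + (m - l)) by omega, pow_add β (1 + l)]
      ring
    refine h1.trans ?_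
    simp only [sum_add_distrib]
    have h4 : ∑ p ∈ We ι q, ∑ i, ∑ x ∈ We ι m, ∑ l ∈ range (m + 1),
        ‖cum μ [i] (x.take l)‖ * ‖cum μ p (x.drop l)‖ = ∑ l ∈ range (m + 1), ∑ p ∈ We ι q, ∑ i,
          ∑ x ∈ We ι m, ‖cum μ [i] (x.take l)‖ * ‖cum μ p (x.drop l)‖ := by
      rw [sum_comm (s := range (m + 1))]
      refine sum_congr rfl fun p _ => ?_
      rw [sum_comm (s := range (m + 1))]
      exact sum_congr rfl fun i _ => sum_comm
    rw [h4]
    refine (add_le_add h2 (sum_le_sum h3)).trans ?_
    rw [← sum_mul, ← add_mul]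
    exact mul_le_mul_of_nonneg_right (maj_succ _) (pow_nonneg hβ _)

theorem cum_sq {μ : List ι → ℂ} {α β : ℝ} (hα : 0 ≤ α) (hβ : 0 ≤ β)
    (h : ∀ p, ‖μ p‖ ≤ α ^ p.length) (h' : ∀ q, ∑ p ∈ We ι q, ‖μ p‖ ≤ β ^ q) (m : ℕ) :
    ∑ j, ∑ x ∈ We ι m, ‖cum μ [j] x‖ ^ 2 ≤ α * β * (64 * (α * β)) ^ m := by
  have a := cum_sum hβ h' 1 m
  rw [sum_We_succ] at a
  simp only [sum_We_zero] at a
  have h1 : ∑ j, ∑ x ∈ We ι m, ‖cum μ [j] x‖ ^ 2 ≤
      maj m * α ^ (1 + m) * ∑ j, ∑ x ∈ We ι m, ‖cum μ [j] x‖ := by
    simp only [mul_sum]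
    refine sum_le_sum fun j _ => sum_le_sum fun x hx => ?_
    rw [sq]
    have := cum_sup hα h [j] x
    rw [mem_We.1 hx] at this
    exact mul_le_mul_of_nonneg_right this (norm_nonneg _)
  have h0 := maj_nonneg m
  have h8 := maj_le m
  calc _ ≤ maj m * α ^ (1 + m) * (maj m * β ^ (1 + m)) := h1.trans (by gcongr)
    _ ≤ 8 ^ m * α ^ (1 + m) * (8 ^ m * β ^ (1 + m)) := by gcongr
    _ = _ := by
      rw [show (64 : ℝ) = 8 * 8 by norm_num]
      simp only [mul_pow, pow_add]
      ring

end Vale.Agent.P087
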